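import Vale.Agent.P132.Spec
import Vale.Agent.P082.Tools

/-! Covering by a projection; infinite projections are equivalent to the unit. -/

open Finset Vale.Agent.P104 Vale.Agent.P082 Filter Topology Function
open scoped InnerProductSpace

set_option linter.unusedSectionVars false

namespace Vale.Agent.P132

universe u

theorem covStmt : CovStmt.{u} := by
  intro H _ _ _ M ξ hM hξ g gM hg g0
  obtain ⟨z, hz, z1, F, hF, hS⟩ := exists_cover hg gM
  obtain ⟨c, rfl⟩ := hM z hz.mem (VonNeumannAlgebra.mem_commutant_iff.2 hz.comm)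
  have c1 : c = 1 := by
    rw [smul_mul_assoc, one_mul, ← sub_eq_zero] at z1
    nth_rewrite 2 [← one_smul ℂ g] at z1
    rw [← sub_smul, smul_eq_zero, sub_eq_zero] at z1
    exact z1.resolve_right g0
  rw [c1, one_smul] at hS
  obtain ⟨e, he⟩ := (hS.nsq ξ).summable.countable_support.to_subtype.exists_injective_nat
  have cs : ∀ n, (∃ a, e a = n ∧ extend e (fun a => star a.1.1) 0 n = star a.1.1) ∨
      extend e (fun a => star a.1.1) 0 n = 0 := fun n => by
    by_cases h : ∃ a, e a = n
    · obtain ⟨a, rfl⟩ := h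
      exact Or.inl ⟨a, rfl, he.extend_apply _ _ _⟩
    · exact Or.inr (extend_apply' _ _ _ h)
  refine ⟨extend e (fun a => star a.1.1) 0, fun i => ?_, fun i j hij => ?_, fun ζ => ?_⟩
  · rcases cs i with ⟨a, -, h⟩ | h <;> rw [h]
    · obtain ⟨h1, h2, h3⟩ := hF _ a.1.2
      exact ⟨star_mem h1, h2.star, by rw [← pstar hg, ← star_mul, h3]⟩
    · exact ⟨zero_mem _, mul_zero _, zero_mul _⟩
  · rcases cs i with ⟨a, rfl, h⟩ | h <;> rw [h]
    · rcases cs j with ⟨b, rfl, h'⟩ | h' <;> rw [h']
      · have := hS.ort.o1 a.1 b.1 fun c => hij (congrArg e (Subtype.ext c))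
        rw [star_mul, star_star] at this
        rw [star_star, ← (hF _ a.1.2).2.1, ← PI.st (hF _ b.1.2).2.1, mul_assoc a.1.1,
          mul_assoc, ← mul_assoc (star a.1.1 * _), this, zero_mul, mul_zero]
      · exact mul_zero _
    · rw [star_zero, zero_mul]
  · have h1 := (hasSum_extend_zero he).2 ((hasSum_subtype_iff_of_support_subset
      (s := support fun a : F => ‖(star a.1 * a.1) ξ‖ ^ 2) fun a ha h => ha (by
        rw [hξ _ (mul_mem (star_mem (hF _ a.2).1) (hF _ a.2).1) (by simpa using h)]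
        rfl)).2 (hS.hs ζ))
    refine h1.congr_fun fun n => ?_
    rw [apply_extend fun v : Op H => (v * star v) ζ]
    congr 1 <;> funext _ <;> simp

theorem infStmt : InfStmt.{u} := by
  intro H _ _ _ M ξ hM hξ e eM he hf
  simp only [Fin', not_forall] at hf
  obtain ⟨v, vM, v1, v2, v3⟩ := hf
  have vp : PI v := PI.of_proj (v1 ▸ he)
  have v4 : v * e = v := by rw [← v1, ← mul_assoc]; exact vp
  have v5 : star v * e = star v := by rw [← pstar he, ← star_mul, v2]
  obtain ⟨g, hg⟩ : ∃ g, g = e - v * star v := ⟨_, rfl⟩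
  have g1 : e * g = g := by rw [hg, mul_sub, pidem he, ← mul_assoc, v2]
  have g2 : g * v = 0 := by rw [hg, sub_mul, v2, vp, sub_self]
  have g3 : star g = g := by rw [hg, star_sub, pstar he, star_mul, star_star]
  have g4 : IsStarProjection g := ⟨by
    rw [IsIdempotentElem]
    nth_rewrite 2 [hg]
    rw [mul_sub, ← mul_assoc, g2, zero_mul, sub_zero, ← g3, ← pstar he, ← star_mul, g1], g3⟩
  obtain ⟨a, a1, a2, a3⟩ := covStmt H M ξ hM hξ g (hg ▸ sub_mem eM (mul_mem vM (star_mem vM))) g4
    fun c => v3 (by rw [hg, sub_eq_zero] at c; exact c.symm)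
  have a4 : ∀ i, g * star (a i) = star (a i) := fun i => by rw [← g3, ← star_mul, (a1 i).2.2]
  have p1 : ∀ i : ℕ, e * (v ^ i * g) = v ^ i * g := fun i => by
    cases i with
    | zero => rw [pow_zero, one_mul, g1]
    | succ i => rw [pow_succ', mul_assoc, ← mul_assoc e, v2]
  have p2 : ∀ (i : ℕ) x, e * x = x → star (v ^ i) * (v ^ i * x) = x := fun i => by
    induction i with
    | zero => simp
    | succ i ih =>
      intro x hx
      rw [pow_succ, star_mul, mul_assoc, mul_assoc (v ^ i), ih _ (by rw [← mul_assoc, v2]),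
        ← mul_assoc, v1, hx]
  have p3 : ∀ i k : ℕ, star (v ^ i * star (a i)) * (v ^ (i + k + 1) * star (a (i + k + 1))) = 0 :=
    fun i k => by
      rw [star_mul, star_star, add_assoc, pow_add, mul_assoc, mul_assoc (v ^ i), pow_succ' v k,
        p2 i _ (by rw [← mul_assoc, ← mul_assoc, v2]), ← (a1 i).2.2, mul_assoc, mul_assoc v,
        ← mul_assoc g, g2, zero_mul, mul_zero]
  have p4 : ∀ i, star (v ^ i * star (a i)) * (v ^ i * star (a i)) = a i * star (a i) := fun i => by
    rw [star_mul, star_star, mul_assoc, p2 i _ (by rw [← a4, ← mul_assoc, g1])]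
  obtain ⟨w, wM, hw⟩ := Ort.ex (M := M) (s := fun i => v ^ i * star (a i))
    ⟨fun i => PI.of_proj (by rw [p4]; exact (a1 i).2.1.proj'), fun i j hij => by
      rcases lt_or_gt_of_ne hij with c | c
      · obtain ⟨k, rfl⟩ := Nat.exists_eq_add_of_lt c
        exact p3 i k
      · obtain ⟨k, rfl⟩ := Nat.exists_eq_add_of_lt c
        simpa only [star_mul (star _), star_star, star_zero] using congrArg star (p3 j k),
    fun i j hij => by
      rw [star_mul, star_star, mul_assoc, ← mul_assoc (star _), a2 i j hij, zero_mul, mul_zero]⟩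
    fun i => mul_mem (pow_mem vM i) (star_mem (a1 i).1)
  have w1 : star w * w = 1 := by
    ext x
    exact (hw.pp x).unique (by simpa only [p4, one_apply_eq_self] using a3 x)
  have w2 : (1 - e) * w = 0 := by
    rw [sub_mul, one_mul, hw.fixl fun i => by rw [← a4, ← mul_assoc (v ^ i), ← mul_assoc, p1],
      sub_self]
  have hd := he.one_sub
  obtain ⟨d, ed⟩ : ∃ d, d = 1 - e := ⟨_, rfl⟩
  rw [← ed] at w2 hd
  have w3 : ∀ (i : ℕ) x, star (w ^ i) * (w ^ i * x) = x := fun i x => by
    rw [← mul_assoc, star_pow, (pow_mul_pow_eq_one i w1), one_mul]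
  have q1 : ∀ i : ℕ, star (w ^ i * d * star (w ^ i)) = w ^ i * d * star (w ^ i) := fun i => by
    rw [star_mul, star_mul, star_star, pstar hd, mul_assoc]
  have q2 : ∀ i : ℕ, w ^ i * d * star (w ^ i) * (w ^ i * d * star (w ^ i)) =
      w ^ i * d * star (w ^ i) := fun i => by
    rw [mul_assoc, mul_assoc (w ^ i) d (star _), w3, ← mul_assoc, mul_assoc _ d d, pidem hd,
      mul_assoc]
  have q3 : ∀ i k : ℕ, w ^ i * d * star (w ^ i) *
      (w ^ (i + k + 1) * d * star (w ^ (i + k + 1))) = 0 := fun i k => by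
    generalize star (w ^ (i + k + 1)) = y
    rw [add_assoc, pow_add w i, pow_succ' w k]
    simp only [mul_assoc, w3]
    rw [← mul_assoc d, w2, zero_mul, mul_zero]
  have q4 : ∀ i j : ℕ, i ≠ j → w ^ i * d * star (w ^ i) * (w ^ j * d * star (w ^ j)) = 0 :=
    fun i j hij => by
      rcases lt_or_gt_of_ne hij with c | c
      · obtain ⟨k, rfl⟩ := Nat.exists_eq_add_of_lt c
        exact q3 i k
      · obtain ⟨k, rfl⟩ := Nat.exists_eq_add_of_lt c
        have := congrArg star (q3 j k)
        rwa [star_mul, q1, q1, star_zero] at this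
  obtain ⟨q, qM, hq⟩ := Ort.ex (M := M) (s := fun i : ℕ => w ^ i * d * star (w ^ i))
    ⟨fun i => PI.of_p ⟨q2 i, q1 i⟩, fun i j hij => by rw [q1, q4 i j hij],
      fun i j hij => by rw [q1, q4 i j hij]⟩
    fun i => mul_mem (mul_mem (pow_mem wM i) (ed ▸ sub_mem (one_mem _) eM))
      (star_mem (pow_mem wM i))
  have r1 : star q = q := by
    ext x
    exact (hq.hs' x).unique (by simpa only [q1] using hq.hs x)
  have r2 : q * q = q := by
    ext x
    nth_rewrite 1 [← r1]
    exact (hq.pp x).unique (by simpa only [q1, q2] using hq.hs x)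
  have r3 : w * q * star w = q - d := by
    ext x
    refine ((hq.hs (star w x)).mapL w).unique ?_
    simpa [pow_succ'] using (hasSum_nat_add_iff' 1).2 (hq.hs x)
  have r4 : (1 - q) * (w * q) = 0 := by
    have : w * q = q * w := by rw [← mul_one (w * q), ← w1, ← mul_assoc, r3, sub_mul, w2, sub_zero]
    rw [this, ← mul_assoc, sub_mul, r2, one_mul, sub_self, zero_mul]
  have r5 := congrArg star r4
  rw [star_mul, star_sub, star_one, r1, star_zero] at r5
  have r6 : (1 - q) * (1 - q) = 1 - q := by rw [mul_sub, sub_mul _ _ q, r2]; simp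
  have r7 : q * (1 - q) = 0 := by rw [mul_sub, r2]; simp
  have r8 : (1 - q) * q = 0 := by rw [sub_mul, r2]; simp
  refine ⟨w * q + (1 - q), add_mem (mul_mem wM qM) (sub_mem (one_mem _) qM), ?_, ?_⟩
  · rw [star_add, star_sub, star_one, r1, add_mul, mul_add, mul_add, r4, r5, r6, star_mul, r1,
      mul_assoc, ← mul_assoc (star w), w1, one_mul, r2]
    simp
  · rw [star_add, star_sub, star_one, r1, add_mul, mul_add, mul_add, r6, star_mul, r1,
      mul_assoc w q (1 - q), r7, ← mul_assoc (1 - q), r8, ← mul_assoc, mul_assoc w, r2, r3, ed]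
    simp

end Vale.Agent.P132
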