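import Mathlib

/-! Definitions used in the statement of Connes' bicentralizer conjecture. -/

open Filter Topology
open scoped InnerProductSpace

namespace Vale.Agent.P132

universe u

variable {H : Type u} [NormedAddCommGroup H] [InnerProductSpace ℂ H] [CompleteSpace H]

/-- `M` is a factor: its centre consists of the scalars. -/
def IsFactor (M : VonNeumannAlgebra H) : Prop :=
  ∀ z ∈ M, z ∈ M.commutant → ∃ c : ℂ, z = c • 1

/-- `φ` restricted to `M` is a faithful normal state. -/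
structure FNS (M : VonNeumannAlgebra H) (φ : (H →L[ℂ] H) → ℂ) : Prop where
  normal : ∃ ζ : ℕ → H, Summable (fun n => ‖ζ n‖ ^ 2) ∧
    ∀ x ∈ M, HasSum (fun n => ⟪ζ n, x (ζ n)⟫_ℂ) (φ x)
  unital : φ 1 = 1
  faithful : ∀ x ∈ M, φ (star x * x) = 0 → x = 0

section

variable {K : Type u} [NormedAddCommGroup K] [InnerProductSpace ℂ K] [CompleteSpace K]

/-- `Λ : M → K` is the GNS embedding of the state `ψ`. -/
structure GNS (M : VonNeumannAlgebra H) (ψ : (H →L[ℂ] H) → ℂ) (Λ : (H →L[ℂ] H) → K) : Prop where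
  inner : ∀ x ∈ M, ∀ y ∈ M, ⟪Λ x, Λ y⟫_ℂ = ψ (star x * y)
  dense : Dense (Λ '' (M : Set (H →L[ℂ] H)))

/-- The graph of Tomita's operator `S`, the closure of `Λ x ↦ Λ x⋆`. -/
def graphS (M : VonNeumannAlgebra H) (Λ : (H →L[ℂ] H) → K) : Set (K × K) :=
  closure {p | ∃ x ∈ M, p = (Λ x, Λ (star x))}

/-- The graph of the modular operator `Δ = S⋆ S`. -/
def graphMod (M : VonNeumannAlgebra H) (Λ : (H →L[ℂ] H) → K) : Set (K × K) :=
  {p | ∃ v, (p.1, v) ∈ graphS M Λ ∧ ∀ q ∈ graphS M Λ, ⟪q.1, p.2⟫_ℂ = ⟪v, q.2⟫_ℂ}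

/-- The spectrum of the operator with graph `G`. -/
def spec (G : Set (K × K)) : Set ℂ :=
  {c | ¬ ∃ T : K →L[ℂ] K, (∀ w, (T w, w + c • T w) ∈ G) ∧ ∀ p ∈ G, T (p.2 - c • p.1) = p.1}

end

/-- The intersection of the spectra of the modular operators of all faithful normal states. -/
def Sinv (M : VonNeumannAlgebra H) : Set ℂ :=
  {c | ∀ ψ, FNS M ψ → ∀ (K : Type u) [NormedAddCommGroup K] [InnerProductSpace ℂ K]
    [CompleteSpace K] (Λ : (H →L[ℂ] H) → K), GNS M ψ Λ → c ∈ spec (graphMod M Λ)}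

/-- A uniformly bounded sequence of `M` that asymptotically centralizes `φ`. -/
def ACent (M : VonNeumannAlgebra H) (φ : (H →L[ℂ] H) → ℂ) (w : ℕ → H →L[ℂ] H) : Prop :=
  (∀ n, w n ∈ M) ∧ (∃ C : ℝ, ∀ n, ‖w n‖ ≤ C) ∧
    ∀ ε : ℝ, 0 < ε → ∀ᶠ n in atTop, ∀ y ∈ M, ‖φ (y * w n) - φ (w n * y)‖ ≤ ε * ‖y‖

/-- The bicentralizer. -/
def Bic (M : VonNeumannAlgebra H) (φ : (H →L[ℂ] H) → ℂ) : Set (H →L[ℂ] H) :=
  {a | a ∈ M ∧ ∀ w, ACent M φ w →
    ∀ v, Tendsto (fun n => (a * w n - w n * a) v) atTop (𝓝 0)}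

end Vale.Agent.P132
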