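import Vale.Agent.P132.Spec

/-! The random walk engine. -/

open Finset Vale.Agent.P104 Vale.Agent.P085 Vale.Agent.P096 Filter Topology MeasureTheory Complex
open scoped InnerProductSpace

set_option linter.unusedSectionVars false

namespace Vale.Agent.P132

universe u

namespace En

variable {H : Type u} [NormedAddCommGroup H] [InnerProductSpace ℂ H] [CompleteSpace H]
  {G : Set (Op H)} {S T : Op H}

lemma SS.bd {F : ℝ → Op H} (h : SS F) : ∃ C, ∀ t, ‖F t‖ ≤ C := ⟨_, h.choose_spec.1.bd⟩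

lemma mean_cv {μ : (ℝ → Op H) → Op H} (hμ : Mean μ) {F : ℝ → Op H} (hF : ∃ C, ∀ t, ‖F t‖ ≤ C) :
    μ F ∈ Cv (Set.range F) := by
  intro x₁ y₁ x₂ y₂ c hc
  rcases subsingleton_or_nontrivial H with hH | hH
  · simpa only [Subsingleton.elim y₁ 0, Subsingleton.elim y₂ 0, inner_zero_left] using
      hc _ ⟨0, rfl⟩
  obtain ⟨ζ, hζ⟩ := exists_norm_eq H zero_le_one
  have z1 : ⟪ζ, ζ⟫_ℂ = 1 := by rw [inner_self_eq_norm_sq_to_K, hζ]; simp
  obtain ⟨C, hC⟩ := hF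
  have bd : ∀ a b : Op H, ∃ B, ∀ t, ‖a * F t * b‖ ≤ B := fun a b =>
    ⟨_, fun t => nle (nle le_rfl (hC t)) le_rfl⟩
  have ap : ∀ (x y : H) (T : Op H),
      (InnerProductSpace.rankOne ℂ ζ y * T * InnerProductSpace.rankOne ℂ x ζ) ζ = ⟪y, T x⟫_ℂ • ζ :=
    fun x y T => by simp [hζ]
  obtain ⟨B1, b1⟩ := bd (InnerProductSpace.rankOne ℂ ζ y₁) (InnerProductSpace.rankOne ℂ x₁ ζ)
  obtain ⟨B2, b2⟩ := bd (InnerProductSpace.rankOne ℂ ζ y₂) (InnerProductSpace.rankOne ℂ x₂ ζ)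
  have nz : ∀ z : ℂ, ‖z • ζ‖ = ‖z‖ := fun z => by rw [norm_smul, hζ, mul_one]
  have key : ∀ R : ℝ, 0 ≤ R → ‖⟪y₁, μ F x₁⟫_ℂ + ⟪y₂, μ F x₂⟫_ℂ - (c - R : ℝ)‖ ≤
      √(R ^ 2 + (B1 + B2 + |c|) ^ 2) := by
    intro R hR
    have h := hμ.vec _ ζ (((c - R : ℝ) : ℂ) • ζ) √(R ^ 2 + (B1 + B2 + |c|) ^ 2)
      ⟨B1 + B2, fun t => norm_add_le_of_le (b1 t) (b2 t)⟩ fun t => by
        have h1 := (ContinuousLinearMap.le_of_opNorm_le _ (b1 t) ζ)
        have h2 := (ContinuousLinearMap.le_of_opNorm_le _ (b2 t) ζ)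
        have h3 := hc _ ⟨t, rfl⟩
        rw [ap, nz, hζ, mul_one] at h1 h2
        rw [_root_.add_apply, ap, ap, ← add_smul, ← sub_smul, nz]
        rw [← add_re] at h3
        have h4 : ‖⟪y₁, F t x₁⟫_ℂ + ⟪y₂, F t x₂⟫_ℂ - c‖ ≤ B1 + B2 + |c| :=
          (norm_sub_le _ _).trans (add_le_add (norm_add_le_of_le h1 h2) (by simp))
        generalize ⟪y₁, F t x₁⟫_ℂ + ⟪y₂, F t x₂⟫_ℂ = z at h3 h4
        refine Real.le_sqrt_of_sq_le ?_
        have h5 := pow_le_pow_left₀ (norm_nonneg _) h4 2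
        rw [Complex.sq_norm, normSq_apply] at h5 ⊢
        simp only [sub_re, sub_im, ofReal_re, ofReal_im] at h5 ⊢
        nlinarith
    rwa [hμ.add _ _ ⟨_, b1⟩ ⟨_, b2⟩, hμ.mul _ _ _ ⟨C, hC⟩, hμ.mul _ _ _ ⟨C, hC⟩,
      _root_.add_apply, ap, ap, ← add_smul, ← sub_smul, nz] at h
  rw [← add_re]
  generalize ⟪y₁, μ F x₁⟫_ℂ + ⟪y₂, μ F x₂⟫_ℂ = z at key
  generalize B1 + B2 + |c| = B at key
  by_contra hz
  have e0 : 0 < z.re - c := by linarith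
  have h1 := (re_le_norm _).trans (key (B ^ 2 / (z.re - c)) (by positivity))
  have h2 : B ^ 2 / (z.re - c) * (z.re - c) = B ^ 2 := div_mul_cancel₀ _ e0.ne'
  have h3 : 0 ≤ B ^ 2 / (z.re - c) := by positivity
  generalize B ^ 2 / (z.re - c) = R at h1 h2 h3
  simp only [sub_re, ofReal_re] at h1
  have h4 := (Real.le_sqrt (by linarith) (by positivity)).1 h1
  nlinarith [sq_nonneg B]

lemma cv_self (h : T ∈ G) : T ∈ Cv G := fun _ _ _ _ _ hc => hc T h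

lemma cv_cv {G' : Set (Op H)} (h : G' ⊆ Cv G) (hT : T ∈ Cv G') : T ∈ Cv G :=
  fun _ _ _ _ _ hc => hT _ _ _ _ _ fun g hg => h hg _ _ _ _ _ hc

lemma cv_one (hT : T ∈ Cv G) {x y : H} {c : ℝ} (h : ∀ g ∈ G, (⟪y, g x⟫_ℂ).re ≤ c) :
    (⟪y, T x⟫_ℂ).re ≤ c := by
  simpa using hT x y 0 0 c fun g hg => by simpa using h g hg

lemma cv_avg {ι : Type} {s : Finset ι} (hs : s.Nonempty) {F : ι → Op H} (h : ∀ i ∈ s, F i ∈ Cv G) :
    (((s.card : ℝ)⁻¹ : ℝ) : ℂ) • ∑ i ∈ s, F i ∈ Cv G := by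
  intro x₁ y₁ x₂ y₂ c hc
  have h1 := sum_le_card_nsmul s _ c fun i hi => h i hi x₁ y₁ x₂ y₂ c hc
  have h2 : (0 : ℝ) < s.card := Nat.cast_pos.2 hs.card_pos
  simp only [_root_.smul_apply, inner_smul_right, re_ofReal_mul, _root_.sum_apply,
    inner_sum, re_sum]
  rwa [← mul_add, ← sum_add_distrib, inv_mul_le_iff₀ h2, ← nsmul_eq_mul]

lemma cv_mul (hG : ∀ g ∈ G, ∀ g' ∈ G, g * g' ∈ G) (hS : S ∈ Cv G) (hT : T ∈ Cv G) :
    S * T ∈ Cv G := fun x₁ y₁ x₂ y₂ c hc => hS (T x₁) y₁ (T x₂) y₂ c fun g hg => by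
  rw [← inner_star_l, ← inner_star_l g]
  exact hT _ _ _ _ _ fun g' hg' => by
    rw [inner_star_l, inner_star_l]
    exact hc _ (hG g hg g' hg')

lemma re_le (x y : H) : (⟪x, y⟫_ℂ).re ≤ ‖x‖ * ‖y‖ := (re_le_norm _).trans (norm_inner_le_norm _ _)

lemma re_self (x : H) : (⟪x, x⟫_ℂ).re = ‖x‖ ^ 2 := qf_one x

lemma nsub (x y : H) : ‖y - x‖ ^ 2 = ‖y‖ ^ 2 + ‖x‖ ^ 2 - 2 * (⟪x, y⟫_ℂ).re := by
  rw [norm_sub_rev, @norm_sub_sq ℂ]
  simp only [RCLike.re_to_complex]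
  ring

lemma cv_norm (hG : ∀ g ∈ G, ∀ v, ‖g v‖ = ‖v‖) (hT : T ∈ Cv G) : ‖T‖ ≤ 1 :=
  T.opNorm_le_bound zero_le_one fun v => by
    have := cv_one hT (x := v) (y := T v) fun g hg => (re_le _ _).trans_eq (by rw [hG g hg])
    rw [re_self] at this
    rw [one_mul]
    by_contra h
    nlinarith [norm_nonneg v]

lemma cv_inv (hG : ∀ g ∈ G, ∀ v, ‖g v‖ = ‖v‖) (hT : T ∈ Cv G) {ξ η : H} {ε K : ℝ}
    (h : ∀ g ∈ G, ‖g η - η‖ ^ 2 ≤ ε + K * ‖g ξ - ξ‖ ^ 2) :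
    ‖T η - η‖ ^ 2 ≤ ε + 2 * K * qf (1 - T) ξ := by
  have h1 := hT η (-η) ξ ((K : ℂ) • ξ) (ε / 2 + K * ‖ξ‖ ^ 2 - ‖η‖ ^ 2) fun g hg => by
    have := h g hg
    rw [nsub, nsub, hG g hg, hG g hg] at this
    rw [inner_neg_left, neg_re, inner_smul_left, conj_ofReal, re_ofReal_mul]
    linarith
  rw [inner_neg_left, neg_re, inner_smul_left, conj_ofReal, re_ofReal_mul] at h1
  have h2 := pow_le_pow_left₀ (norm_nonneg _) (app_le (cv_norm hG hT) η) 2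
  rw [nsub, qf, _root_.sub_apply, inner_sub_right, sub_re, one_apply_eq_self, re_self]
  linarith

lemma qf_add (S T : Op H) (v : H) : qf (S + T) v = qf S v + qf T v := by
  simp only [qf, _root_.add_apply, inner_add_right, add_re]

lemma qf_sub (S T : Op H) (v : H) : qf (S - T) v = qf S v - qf T v := by
  simp only [qf, _root_.sub_apply, inner_sub_right, sub_re]

lemma qf_rs (c : ℝ) (T : Op H) (v : H) : qf ((c : ℂ) • T) v = c * qf T v := by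
  simp only [qf, _root_.smul_apply, inner_smul_right, re_ofReal_mul]

lemma one_sub_nn (hs : star T = T) (hn : ‖T‖ ≤ 1) : 0 ≤ 1 - T := by
  refine sub_nonneg.2 ((IsSelfAdjoint.le_algebraMap_norm_self hs).trans ?_)
  rw [Algebra.algebraMap_eq_smul_one]
  simpa using smul_le_smul_of_nonneg_right hn (zero_le_one (α := Op H))

lemma qf_pow (hs : star T = T) (hn : ‖T‖ ≤ 1) (v : H) (i : ℕ) :
    qf (1 - T ^ i) v ≤ i * qf (1 - T) v := by
  induction i with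
  | zero => simp [qf]
  | succ i ih =>
    have h1 := qf_nonneg (Commute.mul_nonneg (one_sub_nn hs hn)
      (one_sub_nn (by rw [star_pow, hs]) (pow_le1 hn i))
      (((Commute.one_right _).sub_right ((Commute.one_left _).sub_left (Commute.self_pow T i)))))
      v
    rw [show (1 - T) * (1 - T ^ i) = (1 - T ^ i) + (1 - T) - (1 - T ^ (i + 1)) by
      rw [pow_succ']; noncomm_ring, qf_sub, qf_add] at h1
    push_cast
    linarith

lemma W0 (h1 : 1 ∈ G) (hm : ∀ g ∈ G, ∀ g' ∈ G, g * g' ∈ G) (hG : ∀ g ∈ G, ∀ v, ‖g v‖ = ‖v‖)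
    {ξ η : H} (hI : Inv G ξ η) {c C : ℝ} (hc : 0 < c) (hC : 0 ≤ C)
    (h : ∀ δ : ℝ, 0 < δ → ∃ Φ ∈ Cv G, ∃ ρ : ℝ, star Φ = Φ ∧ 0 < ρ ∧ ρ ≤ 1 ∧
      qf (1 - Φ) ξ ≤ ρ * δ ∧ ∀ v, ρ * (c - C * ‖v - η‖ ^ 2) ≤ qf (1 - Φ) v) : False := by
  obtain ⟨t, t0, ht⟩ : ∃ t : ℝ, 0 < t ∧ 8 * ‖η‖ ^ 2 ≤ c * t :=
    ⟨8 * ‖η‖ ^ 2 / c + 1, by positivity, by rw [mul_add, mul_div_cancel₀ _ hc.ne']; linarith⟩
  obtain ⟨ε, e0, he⟩ : ∃ ε : ℝ, 0 < ε ∧ 4 * (C * ε) ≤ c :=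
    ⟨c / (4 * (C + 1)), by positivity, by
      rw [← mul_div_assoc, ← mul_div_assoc, div_le_iff₀ (by positivity)]; nlinarith⟩
  obtain ⟨K, K0, hK⟩ := hI ε e0
  obtain ⟨δ, d0, hd⟩ : ∃ δ : ℝ, 0 < δ ∧ 2 * K * ((t + 1) * δ) ≤ ε :=
    ⟨ε / (2 * (K + 1) * (t + 1)), by positivity, by
      rw [← mul_div_assoc, ← mul_div_assoc, div_le_iff₀ (by positivity)]; nlinarith⟩
  obtain ⟨Φ, p1, ρ, p2, r0, r1, p3, p4⟩ := h δ d0
  have n1 := cv_norm hG p1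
  obtain ⟨N, N1, N2⟩ : ∃ N : ℕ, t ≤ N * ρ ∧ N * ρ ≤ t + 1 := by
    refine ⟨⌈t / ρ⌉₊, (div_le_iff₀ r0).1 (Nat.le_ceil _), ?_⟩
    have := mul_le_mul_of_nonneg_right (Nat.ceil_lt_add_one (show 0 ≤ t / ρ by positivity)).le r0.le
    rw [add_mul, div_mul_cancel₀ _ r0.ne'] at this
    linarith
  have N0 : (0 : ℝ) < N := pos_of_mul_pos_left (t0.trans_le N1) r0.le
  have pw : ∀ i : ℕ, Φ ^ i ∈ Cv G := fun i => by
    induction i with
    | zero => exact cv_self h1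
    | succ i ih => rw [pow_succ]; exact cv_mul hm ih p1
  have q0 := qf_nonneg (one_sub_nn p2 n1) ξ
  have a1 : ∀ i ∈ range N, ‖(Φ ^ i) η - η‖ ≤ √(2 * ε) := fun i hi => Real.le_sqrt_of_sq_le (by
    have b1 := cv_inv hG (pw i) hK
    have b2 := qf_pow p2 n1 ξ i
    have b3 : (i : ℝ) ≤ N := Nat.cast_le.2 (mem_range.1 hi).le
    have b4 : qf (1 - Φ ^ i) ξ ≤ (t + 1) * δ := calc
      _ ≤ N * (ρ * δ) := b2.trans (mul_le_mul b3 p3 q0 N0.le)
      _ ≤ _ := by rw [← mul_assoc]; exact mul_le_mul_of_nonneg_right N2 d0.le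
    have := mul_le_mul_of_nonneg_left b4 (show 0 ≤ 2 * K by positivity)
    linarith)
  obtain ⟨v, hv⟩ : ∃ v : H, v = ((N : ℝ)⁻¹ : ℂ) • ∑ i ∈ range N, (Φ ^ i) η := ⟨_, rfl⟩
  have nv : ∀ (w : ℕ → H) (B : ℝ), (∀ i ∈ range N, ‖w i‖ ≤ B) →
      ‖((N : ℝ)⁻¹ : ℂ) • ∑ i ∈ range N, w i‖ ≤ B := fun w B hw => by
    have := (norm_sum_le _ _).trans (sum_le_card_nsmul _ _ _ hw)
    rw [card_range, nsmul_eq_mul] at this
    rwa [norm_smul, norm_inv, norm_real, Real.norm_of_nonneg N0.le, inv_mul_le_iff₀ N0]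
  have a2 : ‖v - η‖ ^ 2 ≤ 2 * ε := by
    have := nv _ _ a1
    rw [sum_sub_distrib, smul_sub, ← hv, sum_const, card_range, ← Nat.cast_smul_eq_nsmul ℂ,
      smul_smul, ofReal_natCast, inv_mul_cancel₀ (by exact_mod_cast N0.ne'), one_smul] at this
    exact (Real.le_sqrt (norm_nonneg _) (by positivity)).1 this
  have a3 : ‖v‖ ≤ ‖η‖ := hv ▸ nv _ _ fun i _ => app_le (pow_le1 n1 i) η
  have a4 : ‖(1 - Φ) v‖ ≤ (N : ℝ)⁻¹ * (2 * ‖η‖) := by
    rw [hv, map_smul, ← _root_.sum_apply, ← mul_apply_eq_comp, mul_neg_geom_sum, norm_smul,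
      norm_inv, norm_real, Real.norm_of_nonneg N0.le, two_mul]
    exact mul_le_mul_of_nonneg_left ((norm_sub_le _ _).trans
      (add_le_add le_rfl (app_le (pow_le1 n1 N) η))) (by positivity)
  have a5 := (p4 v).trans ((re_le _ _).trans (mul_le_mul a3 a4 (norm_nonneg _) (norm_nonneg _)))
  have a6 : c / 2 ≤ c - C * ‖v - η‖ ^ 2 := by
    have := mul_le_mul_of_nonneg_left a2 hC
    linarith
  have a7 := mul_le_mul_of_nonneg_left ((mul_le_mul_of_nonneg_left a6 r0.le).trans a5) N0.le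
  rw [mul_left_comm _ ‖η‖, ← mul_assoc _ _⁻¹, mul_inv_cancel₀ N0.ne', ← mul_assoc] at a7
  have a8 := mul_le_mul_of_nonneg_right N1 (show 0 ≤ c / 2 by positivity)
  nlinarith [mul_pos hc t0]

lemma sub_lb {x : Op H} (hx : ‖x‖ ≤ 1 / 2) (v : H) :
    ‖v‖ ≤ 2 * ‖(1 - x) v‖ ∧ ‖(1 - x) v‖ ≤ 2 * ‖v‖ := by
  have h1 := x.le_of_opNorm_le hx v
  have h2 := norm_sub_norm_le v (x v)
  have h3 := norm_sub_le v (x v)
  have h4 := norm_nonneg v
  rw [_root_.sub_apply, one_apply_eq_self]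
  constructor <;> linarith

variable {M : VonNeumannAlgebra H} {ξ : H} {U : ℝ → Op H} {J : H → H}

lemma mem_GG (h : Mod M ξ U J) {g : Op H} :
    g ∈ GG M J ↔ ∃ u ∈ unitary (Op H), u ∈ M ∧ g = u * h.toMod0.jj u :=
  exists_congr fun _ => and_congr_right fun _ => and_congr_right fun _ =>
    ⟨fun e => ContinuousLinearMap.ext e, fun e v => by rw [e]; rfl⟩

lemma GG_norm {g : Op H} (h : Mod M ξ U J) (hg : g ∈ GG M J) (v : H) : ‖g v‖ = ‖v‖ := by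
  obtain ⟨u, u1, -, e⟩ := hg
  rw [e, ContinuousLinearMap.norm_map_of_mem_unitary u1, h.Jnorm,
    ContinuousLinearMap.norm_map_of_mem_unitary u1, h.Jnorm]

lemma GG_one (h : Mod M ξ U J) : 1 ∈ GG M J :=
  (mem_GG h).2 ⟨1, one_mem _, one_mem _, by rw [h.jj_one, one_mul]⟩

lemma GG_mul (h : Mod M ξ U J) : ∀ g ∈ GG M J, ∀ g' ∈ GG M J, g * g' ∈ GG M J := by
  intro g hg g' hg'
  obtain ⟨u, u1, u2, rfl⟩ := (mem_GG h).1 hg
  obtain ⟨w, w1, w2, rfl⟩ := (mem_GG h).1 hg'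
  refine (mem_GG h).2 ⟨u * w, mul_mem u1 w1, mul_mem u2 w2, ?_⟩
  rw [h.jj_mul, mul_assoc, ← mul_assoc _ w, ← commM w2 (h.jj_mem u2)]
  simp only [mul_assoc]

lemma GG_star (h : Mod M ξ U J) {g : Op H} (hg : g ∈ GG M J) : star g ∈ GG M J := by
  obtain ⟨u, u1, u2, rfl⟩ := (mem_GG h).1 hg
  exact (mem_GG h).2 ⟨star u, Unitary.star_mem u1, star_mem u2, by
    rw [star_mul, ← h.jj_star, commM (star_mem u2) (h.jj_mem (star_mem u2))]⟩

lemma GG_conj (h : Mod M ξ U J) {g : Op H} (hg : g ∈ GG M J) (t : ℝ) :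
    U (-t) * g * U t ∈ GG M J := by
  obtain ⟨u, u1, u2, rfl⟩ := (mem_GG h).1 hg
  refine (mem_GG h).2 ⟨U (-t) * u * U t, mul_mem (mul_mem (h.Uu _) u1) (h.Uu _),
    by simpa only [neg_neg] using h.UM (-t) u u2, ?_⟩
  rw [h.jj_mul, h.jj_mul, h.jj_U, h.jj_U]
  simp only [mul_assoc]
  rw [← mul_assoc (U t), h.Uneg, one_mul]

lemma sc' (h : Mod M ξ U J) (x : Op H) : SC (fun t => U (-t) * x * U t) ‖x‖ :=
  ⟨fun v => by simpa only [Function.comp_def, neg_neg] using ((h.sc x).cont v).comp continuous_neg,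
    fun t => by simpa only [neg_neg] using (h.sc x).bd (-t)⟩

lemma star_cj (h : Mod M ξ U J) (x : Op H) (t : ℝ) :
    star (U (-t) * x * U t) = U (-t) * star x * U t := by
  rw [star_mul, star_mul, h.Ustar, h.Ustar, neg_neg, mul_assoc]

lemma ss' (h : Mod M ξ U J) (x : Op H) : SS fun t => U (-t) * x * U t :=
  ⟨‖x‖, sc' h x, by simpa only [star_cj h, norm_star] using sc' h (star x)⟩

lemma qf_cj (h : Mod M ξ U J) (x : Op H) (t : ℝ) (v : H) :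
    qf (U (-t) * x * U t) v = qf x (U t v) := by
  rw [qf_conj, h.Ustar]

lemma cayley (h : Mod M ξ U J) {a : Op H} (ha : a ∈ M) (hs : star a = a) {θ : ℝ} (h0 : 0 < θ)
    (h1 : θ * ‖a‖ ≤ 1 / 2) : ∃ g ∈ GG M J, ∀ v, ‖g v - v‖ ≤ 8 * θ * ‖(a - h.toMod0.jj a) v‖ ∧
      θ * ‖(a - h.toMod0.jj a) v‖ ≤ 2 * ‖g v - v‖ := by
  obtain ⟨x, hx⟩ : ∃ x : Op H, x = (I * θ) • a := ⟨_, rfl⟩
  have nθ : ‖I * θ‖ = θ := by simp [h0.le]
  have x1 : ‖x‖ ≤ 1 / 2 := by rw [hx, norm_smul, nθ]; exact h1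
  have x2 : star x = -x := by simp [hx, hs]
  have x3 : x ∈ M := hx ▸ smulM _ ha
  obtain ⟨r, r1, r2⟩ : ∃ r : Op H, r * (1 - x) = 1 ∧ (1 - x) * r = 1 :=
    ⟨_, (Units.oneSub x (by linarith)).inv_val, (Units.oneSub x (by linarith)).val_inv⟩
  have cm : ∀ y : Op H, y * (1 - x) = (1 - x) * y → y * r = r * y := fun y e => by
    calc y * r = r * (1 - x) * y * r := by rw [r1, one_mul]
      _ = r * (y * ((1 - x) * r)) := by rw [mul_assoc r, ← e]; simp only [mul_assoc]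
      _ = r * y := by rw [r2, mul_one]
  have r3 : r ∈ M := memM fun y hy => cm y (commM (sub_mem (one_mem _) x3) hy).symm
  have c0 : (1 + x) * (1 - x) = (1 - x) * (1 + x) := by noncomm_ring
  have s1 := congrArg star r1
  have s2 := congrArg star r2
  simp only [star_mul, star_sub, star_one, x2, sub_neg_eq_add] at s1 s2
  have u1 : r * (1 + x) ∈ unitary (Op H) := by
    constructor
    · rw [← cm _ c0, star_mul, star_add, star_one, x2, ← sub_eq_add_neg, mul_assoc,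
        ← mul_assoc (1 - x), ← c0, mul_assoc, r2, mul_one, s2]
    · rw [star_mul, star_add, star_one, x2, ← sub_eq_add_neg, mul_assoc, ← mul_assoc (1 + x), c0,
        mul_assoc, s1, mul_one, r1]
  have u2 : r * (1 + x) ∈ M := mul_mem r3 (add_mem (one_mem _) x3)
  have u3 : (1 - x) * (r * (1 + x)) = 1 + x := by rw [← mul_assoc, r2, one_mul]
  generalize r * (1 + x) = u at u1 u2 u3
  have u4 := congrArg h.toMod0.jj u3
  rw [h.jj_mul, h.jj_sub, h.jj_add, h.jj_one] at u4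
  have y1 : ‖h.toMod0.jj x‖ ≤ 1 / 2 := (h.jj_le x).trans x1
  have y2 : x + h.toMod0.jj x = (I * θ) • (a - h.toMod0.jj a) := by
    rw [hx, h.jj_smul, smul_sub]
    simp [sub_eq_add_neg]
  have y3 := commM u2 (h.jj_mem x3)
  generalize h.toMod0.jj x = y at u4 y1 y2 y3
  have key : (1 - x) * ((1 - y) * (u * h.toMod0.jj u - 1)) = (2 : ℂ) • (x + y) := by
    have e1 : (1 - y) * (u * h.toMod0.jj u) = u * (1 + y) := by
      rw [← u4, ← mul_assoc, ← mul_assoc, sub_mul, mul_sub, y3, one_mul, mul_one]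
    rw [mul_sub (1 - y), e1, mul_sub (1 - x), ← mul_assoc, u3, two_smul]
    noncomm_ring
  refine ⟨_, (mem_GG h).2 ⟨u, u1, u2, rfl⟩, fun v => ?_⟩
  have k := congrArg (fun T : Op H => ‖T v‖) key
  simp only [y2, mul_apply_eq_comp (1 - x), mul_apply_eq_comp (1 - y),
    _root_.smul_apply, norm_smul, nθ, Complex.norm_ofNat] at k
  rw [_root_.sub_apply (u * _), one_apply_eq_self] at k
  obtain ⟨k1, k2⟩ := sub_lb x1 ((1 - y) ((u * h.toMod0.jj u) v - v))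
  obtain ⟨k3, k4⟩ := sub_lb y1 ((u * h.toMod0.jj u) v - v)
  constructor <;> linarith

lemma one_move (h : Mod M ξ U J) {A : (ℝ → Op H) → Op H} (hA : Avg A) {a : Op H} (ha : a ∈ M)
    (hs : star a = a) {θ : ℝ} (h0 : 0 < θ) (h1 : θ * ‖a‖ ≤ 1 / 2) :
    ∃ Φ ∈ Cv (GG M J), star Φ = Φ ∧ qf (1 - Φ) ξ ≤ 32 * θ ^ 2 * ‖(a - h.toMod0.jj a) ξ‖ ^ 2 ∧
      ∀ v, θ ^ 2 / 8 * qf (A fun t => U (-t) *
        ((a - h.toMod0.jj a) * (a - h.toMod0.jj a)) * U t) v ≤ qf (1 - Φ) v := by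
  obtain ⟨g, g1, g2⟩ := cayley h ha hs h0 h1
  have sS : star (a - h.toMod0.jj a) = a - h.toMod0.jj a := by rw [star_sub, ← h.jj_star, hs]
  generalize a - h.toMod0.jj a = S at g2 sS
  obtain ⟨b, hb⟩ : ∃ b : Op H, b = ((2⁻¹ : ℝ) : ℂ) • (g + star g) := ⟨_, rfl⟩
  have b1 : star b = b := by rw [hb, star_smul, star_add, star_star, add_comm]; simp
  have b2 : ∀ w, qf b w = ‖w‖ ^ 2 - ‖g w - w‖ ^ 2 / 2 := fun w => by
    rw [hb, qf_rs, qf_add, nsub, GG_norm h g1, qf, qf, inner_star_r, ← inner_conj_symm (g w),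
      conj_re]
    ring
  refine ⟨A fun t => U (-t) * b * U t, cv_cv ?_ (hA.cv _ (ss' h b)), ?_, ?_, fun v => ?_⟩
  · rintro _ ⟨t, rfl⟩
    have := cv_avg (G := GG M J) (s := univ) univ_nonempty
      (F := fun i : Bool => U (-t) * (bif i then g else star g) * U t) fun i _ => cv_self (by
        cases i
        exacts [GG_conj h (GG_star h g1) t, GG_conj h g1 t])
    simpa [hb, mul_add, add_mul] using this
  · rw [← hA.star _ (ss' h b)]
    simp only [star_cj h, b1]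
  · have := cv_one (hA.cv _ (ss' h b)) (x := ξ) (y := -ξ) (c := -qf b ξ) (by
      rintro _ ⟨t, rfl⟩
      rw [inner_neg_left, neg_re, ← qf, qf_cj h, h.Uξ])
    rw [inner_neg_left, neg_re, ← qf, b2] at this
    have k := pow_le_pow_left₀ (norm_nonneg _) (g2 ξ).1 2
    rw [qf_sub, qf_one]
    nlinarith
  · have e : (fun t => U (-t) * (b + ((θ ^ 2 / 8 : ℝ) : ℂ) • (S * S)) * U t) = fun t =>
        U (-t) * b * U t + ((θ ^ 2 / 8 : ℝ) : ℂ) • (U (-t) * (S * S) * U t) := by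
      funext t
      rw [mul_add, add_mul, mul_smul_comm, smul_mul_assoc]
    have := cv_one (hA.cv _ (ss' h (b + ((θ ^ 2 / 8 : ℝ) : ℂ) • (S * S)))) (x := v) (y := v)
      (c := ‖v‖ ^ 2) (by
      rintro _ ⟨t, rfl⟩
      have k := pow_le_pow_left₀ (by positivity) (g2 (U t v)).2 2
      have k2 := normsq_eq S (U t v)
      rw [sS, ← qf] at k2
      rw [← qf, qf_cj h, qf_add, qf_rs, b2, h.Unorm, ← k2]
      nlinarith)
    have s2 : SS fun t => ((θ ^ 2 / 8 : ℝ) : ℂ) • (U (-t) * (S * S) * U t) := by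
      simpa only [mul_smul_comm, smul_mul_assoc] using ss' h (((θ ^ 2 / 8 : ℝ) : ℂ) • (S * S))
    rw [e, hA.add _ _ (ss' h b) s2, hA.smul _ _ (ss' h _), ← qf, qf_add, qf_rs] at this
    rw [qf_sub, qf_one]
    linarith

end En

open En

theorem avgStmt : AvgStmt.{u} := by
  intro H _ _ _
  refine ⟨fun μ hμ => ⟨fun F G hF hG => hμ.add F G (SS.bd hF) (SS.bd hG), fun c F hF => ?_,
    fun F hF => hμ.star F (SS.bd hF), fun F hF => mean_cv hμ (SS.bd hF)⟩, fun f f0 f1 f2 => ?_⟩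
  · simpa only [smul_mul_assoc, one_mul, mul_one] using hμ.mul F (c • 1) 1 (SS.bd hF)
  have hk : Integrable fun t => (f t : ℂ) := f1.ofReal
  refine ⟨fun F G ⟨C, hF, _⟩ ⟨D, hG, _⟩ => ?_, fun c F ⟨C, hF, _⟩ => ?_,
    fun F ⟨C, hF, hF'⟩ => ?_, fun F ⟨C, hF, _⟩ x₁ y₁ x₂ y₂ c hc => ?_⟩
  · have : SC (fun t => F t + G t) (C + D) := ⟨fun v => (hF.cont v).add (hG.cont v),
      fun t => norm_add_le_of_le (hF.bd t) (hG.bd t)⟩
    ext v
    rw [this.apply hk, _root_.add_apply, hF.apply hk, hG.apply hk,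
      ← integral_add (hF.int hk v) (hG.int hk v)]
    simp only [_root_.add_apply, smul_add]
  · simpa only [smul_mul_assoc, one_mul, mul_one] using hF.wint_mul hk (c • 1) 1
  · simpa only [conj_ofReal] using (hF.star hF' hk).symm
  · have i1 : ∀ x y : H, Integrable fun t => (f t : ℂ) * ⟪y, F t x⟫_ℂ := fun x y => by
      simpa only [inner_smul_right] using (hF.int hk x).const_inner (𝕜 := ℂ) y
    have i2 := (i1 x₁ y₁).add (i1 x₂ y₂)
    rw [hF.inner hk, hF.inner hk, ← add_re, ← integral_add (i1 _ _) (i1 _ _)]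
    refine le_of_eq_of_le (integral_re i2).symm ((integral_mono i2.re (f1.mul_const c)
      fun t => ?_).trans_eq (by rw [integral_mul_const, f2, one_mul]))
    simpa only [Pi.add_apply, RCLike.re_to_complex, add_re, re_ofReal_mul, mul_add] using
      mul_le_mul_of_nonneg_left (hc _ ⟨t, rfl⟩) (f0 t)

theorem engStmt : EngStmt.{u} := by
  intro H _ _ _ M ξ U J h η c C hc hC hI hE
  refine W0 (GG_one h) (GG_mul h) (fun g => GG_norm h) hI hc hC fun δ d0 => ?_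
  obtain ⟨A, ι, s, a, hA, ha, h1, h2⟩ := hE (δ / 256) (by positivity)
  rcases s.eq_empty_or_nonempty with rfl | hs
  · exact absurd (h2 η) (by simpa using hc)
  have n1 : (1 : ℝ) ≤ s.card := by exact_mod_cast hs.card_pos
  have B0 : 0 ≤ ∑ i ∈ s, ‖a i‖ := sum_nonneg fun _ _ => norm_nonneg _
  obtain ⟨θ, t0, t1, t2⟩ : ∃ θ : ℝ, 0 < θ ∧ θ ≤ 1 ∧ ∀ i ∈ s, θ * ‖a i‖ ≤ 1 / 2 := by
    refine ⟨(2 * (∑ i ∈ s, ‖a i‖ + 1))⁻¹, by positivity, inv_le_one_of_one_le₀ (by linarith),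
      fun i hi => ?_⟩
    have := single_le_sum (fun i _ => norm_nonneg (a i)) hi
    rw [inv_mul_le_iff₀ (by positivity)]
    linarith
  choose! Φ p1 p2 p3 p4 using fun i (hi : i ∈ s) =>
    one_move h hA (ha i hi).1 (ha i hi).2 t0 (t2 i hi)
  have e : ∀ v, qf (1 - (((s.card : ℝ)⁻¹ : ℝ) : ℂ) • ∑ i ∈ s, Φ i) v =
      (s.card : ℝ)⁻¹ * ∑ i ∈ s, qf (1 - Φ i) v := fun v => by
    simp only [qf_sub, qf_rs, qf_sum, sum_sub_distrib, sum_const, nsmul_eq_mul]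
    field_simp
  refine ⟨_, cv_avg hs p1, (s.card : ℝ)⁻¹ * (θ ^ 2 / 8), ?_, by positivity, ?_, ?_, fun v => ?_⟩
  · rw [star_smul, star_sum, sum_congr rfl p2]
    simp
  · exact mul_le_one₀ (inv_le_one_of_one_le₀ n1) (by positivity) (by nlinarith)
  · rw [e, mul_assoc]
    refine mul_le_mul_of_nonneg_left ((sum_le_sum p3).trans ?_) (by positivity)
    rw [← mul_sum]
    have := mul_le_mul_of_nonneg_left h1 (show 0 ≤ 32 * θ ^ 2 by positivity)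
    linarith
  · rw [e, mul_assoc]
    refine mul_le_mul_of_nonneg_left (le_trans ?_ (sum_le_sum fun i hi => p4 i hi v))
      (by positivity)
    rw [← mul_sum]
    exact mul_le_mul_of_nonneg_left (h2 v) (by positivity)

end Vale.Agent.P132
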