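import Vale.Agent.P132.Spec
import Vale.Agent.P096.Inf

/-! Module G: the GNS reduction. -/

open Finset Vale.Agent.P104 Vale.Agent.P085 Vale.Agent.P096 Filter Topology ContinuousLinearMap
open scoped InnerProductSpace InnerProduct

set_option linter.unusedSectionVars false

namespace Vale.Agent.P132

universe u

namespace Gns

variable {H : Type u} [NormedAddCommGroup H] [InnerProductSpace ℂ H] [CompleteSpace H]
  {G : Type u} [NormedAddCommGroup G] [InnerProductSpace ℂ G] [CompleteSpace G]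
  {M : VonNeumannAlgebra H}

/-- a separating vector is cyclic for the commutant -/
lemma cyc_of_sep {ξ : H} (h : Sep M ξ) : DenseRange (ev M.commutant ξ) := by
  obtain ⟨W, _, w1, w2, w3⟩ := cyc_proj M.commutant.toStarSubalgebra.subtype ξ
  have e1 : W.starProjection ∈ M := memM fun y hy => w3 ⟨y, hy⟩
  have e2 : W.starProjection ξ = ξ := Submodule.starProjection_eq_self_iff.2 (by simpa using w1 1)
  have e3 := h _ (sub_mem (one_mem M) e1) (by simp [e2])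
  intro v
  refine w2 (· ∈ closure (Set.range (ev M.commutant ξ))) isClosed_closure
    (fun x => subset_closure ⟨x, rfl⟩) v ?_
  rw [← Submodule.starProjection_eq_self_iff, ← sub_eq_zero.1 e3]; rfl

variable {J : ℕ → H →L[ℂ] G}

lemma ip (hJ : Fm J) (ψ ψ' : G) :
    HasSum (fun i => ⟪((J i)†) ψ, ((J i)†) ψ'⟫_ℂ) ⟪ψ, ψ'⟫_ℂ := by
  simpa only [innerSL_apply_apply, adjoint_inner_left] using (hJ.hsum ψ').mapL (innerSL ℂ ψ)

lemma exists_vec (hJ : Fm J) {ζ : ℕ → H} (h : Summable fun n => ‖ζ n‖ ^ 2) :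
    ∃ Z : G, ∀ i, ((J i)†) Z = ζ i := by
  have ip : ∀ i j v w, ⟪J i v, J j w⟫_ℂ = if i = j then ⟪v, w⟫_ℂ else 0 := fun i j v w => by
    rw [← adjoint_inner_right, hJ.orth]; split_ifs <;> simp
  have nm : ∀ i v, ‖J i v‖ = ‖v‖ := fun i v => by
    rw [← sq_eq_sq₀ (norm_nonneg _) (norm_nonneg _), ← qf_one, ← qf_one, qf, qf,
      one_apply_eq_self, one_apply_eq_self, ip, if_pos rfl]
  have o : OrthogonalFamily ℂ (fun _ : ℕ => H) fun i => (⟨(J i).toLinearMap, nm i⟩ : H →ₗᵢ[ℂ] G) :=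
    fun i j hij v w => (ip i j v w).trans (if_neg hij)
  obtain ⟨Z, hZ⟩ := (o.summable_iff_norm_sq_summable ζ).2 h
  refine ⟨Z, fun i => (hZ.mapL ((J i)†)).unique ?_⟩
  have : HasSum (fun j => ((J i)†) (J j (ζ j))) (((J i)†) (J i (ζ i))) :=
    hasSum_single i fun j hj => by rw [hJ.orth, if_neg hj.symm]
  rwa [hJ.orth i i, if_pos rfl] at this

lemma sinv {K : Type u} [NormedAddCommGroup K] [InnerProductSpace ℂ K] [CompleteSpace K]
    {N : VonNeumannAlgebra K} (π : MA M →⋆ₐ[ℂ] Op K) (hN : ∀ T, T ∈ N ↔ ∃ x, π x = T)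
    (inj : ∀ x, π x = 0 → x = 0) (A : ℕ → K →L[ℂ] H)
    (h1 : ∀ w, HasSum (fun i => ‖A i w‖ ^ 2) (‖w‖ ^ 2))
    (h2 : ∀ w x, HasSum (fun i => ⟪A i w, x.1 (A i w)⟫_ℂ) ⟪w, π x w⟫_ℂ) : Sinv M ⊆ Sinv N := by
  classical
  intro c hc ψ hψ L _ _ _ Λ hΛ
  obtain ⟨w, w1, w2⟩ := hψ.normal
  have mem : ∀ x, π x ∈ N := fun x => (hN _).2 ⟨x, rfl⟩
  obtain ⟨θ, hθ⟩ : ∃ θ : Op H → Op K, ∀ x (h : x ∈ M), θ x = π ⟨x, h⟩ :=
    ⟨fun x => if h : x ∈ M then π ⟨x, h⟩ else 0, fun x h => dif_pos h⟩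
  have t1 : ∀ x ∈ M, θ (star x) = star (θ x) := fun x hx => by
    rw [hθ _ hx, hθ _ (star_mem hx), ← map_star]; rfl
  have t2 : ∀ x ∈ M, ∀ y ∈ M, θ (x * y) = θ x * θ y := fun x hx y hy => by
    rw [hθ _ hx, hθ _ hy, hθ _ (mul_mem hx hy), ← map_mul]; rfl
  have t3 : ∀ x ∈ M, θ x ∈ N := fun x hx => hθ x hx ▸ mem _
  have t4 : ∀ T ∈ N, ∃ x ∈ M, θ x = T := fun T hT => by
    obtain ⟨x, rfl⟩ := (hN T).1 hT
    exact ⟨x.1, x.2, hθ _ _⟩
  have s1 : Summable fun p : ℕ × ℕ => ‖A p.2 (w p.1)‖ ^ 2 :=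
    (summable_prod_of_nonneg fun _ => sq_nonneg _).2 ⟨fun n => (h1 (w n)).summable, by
      simpa only [fun n => (h1 (w n)).tsum_eq] using w1⟩
  have f1 : FNS M (ψ ∘ θ) := by
    obtain ⟨e⟩ : Nonempty (ℕ ≃ ℕ × ℕ) := ⟨Nat.pairEquiv.symm⟩
    refine ⟨⟨fun n => A (e n).2 (w (e n).1), (e.summable_iff.2 s1 :), fun x hx => ?_⟩, ?_,
      fun x hx h => ?_⟩
    · have s2 : Summable fun p : ℕ × ℕ => ⟪A p.2 (w p.1), x (A p.2 (w p.1))⟫_ℂ :=
        .of_norm_bounded (s1.mul_left ‖x‖) fun p => (norm_inner_le_norm _ _).trans (by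
          have := x.le_opNorm (A p.2 (w p.1))
          nlinarith [norm_nonneg (A p.2 (w p.1))])
      have := (s2.hasSum.prod_fiberwise fun n => h2 (w n) ⟨x, hx⟩).unique (w2 _ (mem ⟨x, hx⟩))
      rw [Function.comp_apply, hθ x hx, ← this]
      exact (e.hasSum_iff.2 s2.hasSum :)
    · rw [Function.comp_apply, hθ 1 (one_mem M), ← hψ.unital, ← map_one π]; rfl
    · rw [Function.comp_apply, t2 _ (star_mem hx) _ hx, t1 _ hx] at h
      exact congrArg Subtype.val (inj ⟨x, hx⟩ (hθ x hx ▸ hψ.faithful _ (t3 x hx) h))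
  have f2 : GNS M (ψ ∘ θ) (Λ ∘ θ) := by
    refine ⟨fun x hx y hy => ?_, hΛ.dense.mono ?_⟩
    · simp only [Function.comp_apply]
      rw [hΛ.inner _ (t3 x hx) _ (t3 y hy), t2 _ (star_mem hx) _ hy, t1 _ hx]
    · rintro _ ⟨T, hT, rfl⟩
      obtain ⟨x, hx, rfl⟩ := t4 T hT
      exact ⟨x, hx, rfl⟩
  have f3 : graphS M (Λ ∘ θ) = graphS N Λ := congrArg closure (Set.ext fun p =>
    ⟨by rintro ⟨x, hx, rfl⟩; exact ⟨θ x, t3 x hx, by simp [t1 x hx]⟩, by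
      rintro ⟨T, hT, rfl⟩
      obtain ⟨x, hx, rfl⟩ := t4 T hT
      exact ⟨x, hx, by simp [t1 x hx]⟩⟩)
  have := hc _ f1 L _ f2
  rwa [graphMod, f3] at this

end Gns

open Gns

theorem gnsStmt : GnsStmt.{u} := by
  intro H _ _ _ M φ hφ
  obtain ⟨ζ, z1, z2⟩ := hφ.normal
  obtain ⟨G, _, _, _, J, hJ, -⟩ := fmStmt H ℕ
  obtain ⟨a, ha⟩ := hJ.amp
  have a1 : ∀ T i ψ, ((J i)†) (a T ψ) = T (((J i)†) ψ) := fun T i ψ =>
    ext_inner_left ℂ fun v => by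
      rw [adjoint_inner_right, ← inner_star_l, ← map_star, ha, ← adjoint_inner_right, inner_star_l]
  obtain ⟨Z, hZ⟩ := exists_vec hJ z1
  obtain ⟨V, _, v1, v2, v3⟩ := cyc_proj (a.comp M.toStarSubalgebra.subtype) Z
  have q1 : ∀ ζ, (V.subtypeL†) (V.subtypeL ζ) = ζ := by simp [Submodule.adjoint_subtypeL]
  have q2 : ∀ ζ, V.subtypeL ((V.subtypeL†) ζ) = V.starProjection ζ := fun ζ => by
    rw [Submodule.adjoint_subtypeL]; rfl
  have q3 : ∀ ζ, V.starProjection (V.subtypeL ζ) = V.subtypeL ζ := fun ζ => by rw [← q2, q1]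
  have p0 : ∀ x ζ, V.subtypeL ((V.subtypeL†) ((a.comp M.toStarSubalgebra.subtype) x
      (V.subtypeL ζ))) = (a.comp M.toStarSubalgebra.subtype) x (V.subtypeL ζ) := fun x ζ => by
    rw [q2, ← mul_apply_eq_comp, ← v3, mul_apply_eq_comp, q3]
  obtain ⟨π, p1⟩ := exists_cmp _ _ q1 p0
  have p2 : ∀ x (w : V), (π x w : G) = a x.1 w := fun x w => by rw [p1]; exact p0 x w
  obtain ⟨N, hN⟩ := ind π (fun i => (J i)† ∘L V.subtypeL) (fun i x ζ => by
    rw [comp_apply, p1, p0]; exact a1 _ _ _) fun ζ h => Subtype.ext (hJ.tot _ h)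
  have h2 : ∀ (w : V) x, HasSum (fun i => ⟪((J i)†) w, x.1 (((J i)†) w)⟫_ℂ) ⟪w, π x w⟫_ℂ :=
    fun w x => by simpa only [a1, Submodule.coe_inner, p2] using ip hJ w (a x.1 w)
  obtain ⟨Ω, hΩ⟩ : ∃ η : V, (η : G) = Z := ⟨⟨Z, by simpa using v1 1⟩, rfl⟩
  have p3 : ∀ x : MA M, φ x.1 = ⟪Ω, π x Ω⟫_ℂ := fun x =>
    (z2 _ x.2).unique (by simpa only [hΩ, hZ] using h2 Ω x)
  have p4 : ∀ x, π x Ω = 0 → x = 0 := fun x h => Subtype.ext (hφ.faithful _ x.2 (by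
    refine (p3 (star x * x)).trans ?_
    rw [map_mul, mul_apply_eq_comp, h, map_zero, inner_zero_right]))
  have p5 : ∀ x, π x = 0 → x = 0 := fun x h => p4 x (by rw [h]; rfl)
  have p6 : DenseRange fun x => π x Ω := fun v => by
    rw [Topology.IsInducing.subtypeVal.closure_eq_preimage_closure_image, ← Set.range_comp]
    exact v2 (· ∈ closure (Set.range (Subtype.val ∘ fun x => π x Ω))) isClosed_closure
      (fun x => subset_closure ⟨x, (p2 x Ω).trans (by rw [hΩ]; rfl)⟩) _ v.2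
  refine ⟨V, _, _, inferInstance, N, Ω, π, ?_, p6.mono ?_, cyc_of_sep fun T hT h => ?_, hN,
    NonUnitalStarAlgHom.norm_map π ((injective_iff_map_eq_zero _).2 p5), p3,
    sinv π hN p5 (fun i => (J i)† ∘L V.subtypeL) (fun w => hJ.pars w) h2, fun x C hC hx => ?_⟩
  · have := congrArg Complex.re (hφ.unital.symm.trans (p3 1))
    rw [← sq_eq_sq₀ (norm_nonneg _) zero_le_one, one_pow, ← qf_one, ← map_one π]
    exact this.symm
  · rintro _ ⟨x, rfl⟩; exact ⟨⟨π x, (hN _).2 ⟨x, rfl⟩⟩, rfl⟩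
  · obtain ⟨x, rfl⟩ := (hN T).1 hT
    rw [p4 x h, map_zero]
  · have e : ∀ n, ∑' i, ‖(x n).1 (ζ i)‖ ^ 2 = ‖π (x n) Ω‖ ^ 2 := fun n => by
      simpa only [a1, hZ, Submodule.coe_norm, p2, hΩ] using (hJ.pars (a (x n).1 Z)).tsum_eq
    have := tendsto_tsum_of_dominated_convergence (𝓕 := atTop)
      (f := fun n i => ‖(x n).1 (ζ i)‖ ^ 2) (g := fun _ => 0) (z1.mul_left (C ^ 2))
      (fun i => by simpa using (hx (ζ i)).norm.pow 2) (.of_forall fun n i => by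
        rw [norm_pow, norm_norm, ← mul_pow]
        exact pow_le_pow_left₀ (norm_nonneg _) ((x n).1.le_of_opNorm_le (hC n) _) 2)
    simp only [e, tsum_zero] at this
    rw [tendsto_zero_iff_norm_tendsto_zero]
    simpa using this.sqrt

end Vale.Agent.P132
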