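import Vale.Agent.P132.Spec
import Vale.Agent.P082.Tools

/-! Module I3: if `4 ∈ S(M)`, the factor `M` has no nonzero finite projection. -/

open Finset Vale.Agent.P104 Vale.Agent.P085 Vale.Agent.P096 Vale.Agent.P082 Filter Topology Complex
open scoped InnerProductSpace

set_option linter.unusedSectionVars false

namespace Vale.Agent.P132

universe u

namespace I3

variable {H K : Type u} [NormedAddCommGroup H] [InnerProductSpace ℂ H] [CompleteSpace H]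
  [NormedAddCommGroup K] [InnerProductSpace ℂ K] [CompleteSpace K]

lemma gap {a b : K} (h : ‖a‖ ^ 2 ≤ 2 * ‖b‖ ^ 2 ∨ 8 * ‖b‖ ^ 2 ≤ ‖a‖ ^ 2) :
    ‖b‖ ^ 2 / 4 ≤ ‖a - (2 : ℂ) • b‖ ^ 2 := by
  have e : ‖(2 : ℂ) • b‖ = 2 * ‖b‖ := by simp [norm_smul]
  have h1 := norm_sub_norm_le a ((2 : ℂ) • b)
  have h2 := norm_sub_norm_le ((2 : ℂ) • b) a
  rw [norm_sub_rev] at h2
  have a0 := norm_nonneg a
  have b0 := norm_nonneg b
  have : ‖b‖ / 2 ≤ ‖a - (2 : ℂ) • b‖ := by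
    rcases h with h | h
    · have : ‖a‖ ≤ 3 / 2 * ‖b‖ := abs_le_of_sq_le_sq' (by nlinarith) (by positivity) |>.2
      linarith
    · have : 5 / 2 * ‖b‖ ≤ ‖a‖ := abs_le_of_sq_le_sq' (by nlinarith) a0 |>.2
      linarith
  nlinarith

lemma block {N : VonNeumannAlgebra K} {Ω : K} {U : ℝ → Op K} {J : K → K} (h : Mod N Ω U J)
    {e e' y : Op K} (he : e ∈ N) (he' : e' ∈ N) (hy : y ∈ N) (s : star e = e) (s' : star e' = e')
    (j : J (e Ω) = e Ω) (j' : J (e' Ω) = e' Ω) :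
    e (h.toMod0.jj e' (J (star y Ω) - (2 : ℂ) • y Ω)) =
      J (star (e * y * e') Ω) - (2 : ℂ) • (e * y * e') Ω := by
  have a1 : h.toMod0.jj e' (y Ω) = y (e' Ω) := by
    rw [← mul_apply_eq_comp, ← commM hy (h.jj_mem he'), mul_apply_eq_comp, h.toMod0.jj_ξ, j']
  have a2 : star (e * y * e') Ω = h.toMod0.jj e (e' (star y Ω)) := by
    rw [star_mul, star_mul, s, s', ← mul_assoc, mul_apply_eq_comp, ← j, ← h.toMod0.jj_ξ,
      ← mul_apply_eq_comp, commM (mul_mem he' (star_mem hy)) (h.jj_mem he)]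
    rfl
  rw [a2, map_sub, map_smul, a1, map_sub, map_smul, Mod0.jj_apply, Mod0.jj_apply, h.JJ, h.JJ]
  rfl

lemma smb {ζ : ℕ → H} (hζ : Summable fun n => ‖ζ n‖ ^ 2) (x : Op H) :
    Summable fun n => ⟪ζ n, x (ζ n)⟫_ℂ :=
  .of_norm_bounded (hζ.mul_left ‖x‖) fun n => (norm_inner_le_norm _ _).trans (by
    calc _ ≤ ‖ζ n‖ * (‖x‖ * ‖ζ n‖) := by gcongr; exact x.le_opNorm _
      _ = _ := by ring)

lemma nrm {v : Op H} (h : PI v) (w : H) : ‖(v * star v) w‖ ^ 2 = ‖star v w‖ ^ 2 := by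
  rw [normsq_eq, normsq_eq, P104.pstar h.proj', pidem h.proj', star_star]

/-- the weighted state -/
lemma state {M : VonNeumannAlgebra H} {ξ : H} (hs : Sep M ξ) {v : ℕ → Op H}
    (hv : ∀ i, v i ∈ M ∧ PI (v i)) (h1 : ∀ ζ, HasSum (fun i => (v i * star (v i)) ζ) ζ)
    {f : Op H} (f0 : f ≠ 0) : ∃ (r : ℝ) (φ : Op H → ℂ), 0 < r ∧ FNS M φ ∧ ∀ x, HasSum
      (fun n => ⟪((r / 4 ^ n : ℝ) : ℂ) • v n ξ, x (((r / 4 ^ n : ℝ) : ℂ) • v n ξ)⟫_ℂ) (φ x) := by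
  have z : ∀ x ∈ M, (∀ n, x (v n ξ) = 0) → x = 0 := fun x hx h => by
    ext w
    refine ((h1 w).mapL x).unique ?_
    have : ∀ n, x ((v n * star (v n)) w) = 0 := fun n =>
      congr($(hs _ (mul_mem hx (hv n).1) (h n)) (star (v n) w))
    simp only [this]
    exact hasSum_zero
  have nn : ∀ (r : ℝ) (x : Op H) n, ‖x (((r / 4 ^ n : ℝ) : ℂ) • v n ξ)‖ ^ 2 =
      r ^ 2 * ((1 / 16) ^ n * ‖x (v n ξ)‖ ^ 2) := fun r x n => by
    rw [map_smul, norm_smul, mul_pow, norm_real, Real.norm_eq_abs, sq_abs, div_pow, ← pow_mul,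
      mul_comm n, pow_mul, one_div_pow]
    norm_num
    ring
  have sm : Summable fun n => (1 / 16 : ℝ) ^ n * ‖v n ξ‖ ^ 2 :=
    ((summable_geometric_of_lt_one (r := 1 / 16) (by norm_num) (by norm_num)).mul_right
      (‖ξ‖ ^ 2)).of_nonneg_of_le (fun n => by positivity) fun n => by
        gcongr; exact app_le (PI.le1 (hv n).2) _
  obtain ⟨n0, hn⟩ : ∃ n, v n ξ ≠ 0 := by
    by_contra hc
    push Not at hc
    exact f0 (by rw [← mul_one f, z 1 (one_mem M) hc, mul_zero])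
  have S0 : 0 < ∑' n, (1 / 16 : ℝ) ^ n * ‖v n ξ‖ ^ 2 :=
    sm.tsum_pos (fun n => by positivity) n0 (by have := norm_pos_iff.2 hn; positivity)
  obtain ⟨r, r0, hr⟩ : ∃ r : ℝ, 0 < r ∧ r ^ 2 * ∑' n, (1 / 16 : ℝ) ^ n * ‖v n ξ‖ ^ 2 = 1 :=
    ⟨(√_)⁻¹, inv_pos.2 (Real.sqrt_pos.2 S0), by
      rw [inv_pow, Real.sq_sqrt S0.le, inv_mul_cancel₀ S0.ne']⟩
  have s1 : HasSum (fun n => ‖((r / 4 ^ n : ℝ) : ℂ) • v n ξ‖ ^ 2) 1 := by
    have := sm.hasSum.mul_left (r ^ 2)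
    rw [hr] at this
    have e := nn r 1
    simp only [one_apply_eq_self] at e
    simpa only [e] using this
  have s2 := fun x => (smb s1.summable x).hasSum
  refine ⟨r, _, r0, ⟨⟨_, s1.summable, fun x _ => s2 x⟩, (s2 1).unique ?_, fun x hx h => ?_⟩, s2⟩
  · have := hasSum_ofReal.2 s1
    simpa only [one_apply_eq_self, inner_self_eq_norm_sq_to_K, ofReal_pow, ofReal_one,
      coe_algebraMap] using this
  · have := hasSum_re (s2 (star x * x))
    simp only [← normsq_eq, nn] at this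
    rw [h, zero_re, hasSum_zero_iff_of_nonneg fun n => by positivity] at this
    refine z x hx fun n => ?_
    have := congrFun this n
    simpa [r0.ne'] using this

/-- the two norms of a block are never in the ratio `4` -/
lemma ratio {M : VonNeumannAlgebra H} {ξ : H} {v : ℕ → Op H} {f : Op H} (hf : IsStarProjection f)
    (ht : ∀ y ∈ M, f * y * f = y → ‖star y ξ‖ ^ 2 ≤ 2 * ‖y ξ‖ ^ 2)
    (hv : ∀ i, v i ∈ M ∧ PI (v i) ∧ v i * f = v i) {r : ℝ} {x : Op H} (hx : x ∈ M) (i j : ℕ)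
    {A B : ℝ} (hA : A = ‖(v i * star (v i)) (x (((r / 4 ^ j : ℝ) : ℂ) • v j ξ))‖ ^ 2)
    (hB : B = ‖(v j * star (v j)) (star x (((r / 4 ^ i : ℝ) : ℂ) • v i ξ))‖ ^ 2) :
    B ≤ 2 * A ∨ 8 * A ≤ B := by
  have k : ∀ x ∈ M, ∀ i j, ‖star (v j) (star x (v i ξ))‖ ^ 2 ≤ 2 * ‖star (v i) (x (v j ξ))‖ ^ 2 :=
    fun x hx i j => by
      have := ht _ (mul_mem (mul_mem (star_mem (hv i).1) hx) (hv j).1) (by
        rw [← mul_assoc, ← mul_assoc, (star_fix hf).2 (hv i).2.2, mul_assoc, (hv j).2.2])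
      simpa only [star_mul, star_star, mul_apply_eq_comp] using this
  have k1 := k x hx i j
  have k2 := k _ (star_mem hx) j i
  rw [star_star] at k2
  rw [nrm (hv _).2.1, map_smul, map_smul, norm_smul, mul_pow, norm_real, Real.norm_eq_abs, sq_abs]
    at hA hB
  rw [hA, hB]
  rcases le_or_gt j i with h | h
  · left
    have : (r / 4 ^ i) ^ 2 ≤ (r / 4 ^ j) ^ 2 := by
      rw [div_pow, div_pow]; gcongr; norm_num
    calc _ ≤ (r / 4 ^ j) ^ 2 * (2 * ‖star (v i) (x (v j ξ))‖ ^ 2) := by gcongr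
      _ = _ := by ring
  · right
    have : (r / 4 ^ j) ^ 2 ≤ (r / 4 ^ (i + 1)) ^ 2 := by
      rw [div_pow, div_pow]; gcongr
      · norm_num
      · exact h
    calc _ ≤ 8 * ((r / 4 ^ (i + 1)) ^ 2 * (2 * ‖star (v j) (star x (v i ξ))‖ ^ 2)) := by gcongr
      _ = _ := by field_simp; ring

lemma ort {e : ℕ → Op K} (he : ∀ i, IsStarProjection (e i))
    (ho : ∀ i j, i ≠ j → e i * e j = 0) : Ort e :=
  ⟨fun i => PI.of_p (he i), fun i j h => by rw [P104.pstar (he i), ho i j h],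
    fun i j h => by rw [P104.pstar (he j), ho i j h]⟩

end I3

open I3 in
theorem isoStmt (h1 : CovStmt.{u}) (h2 : InfStmt.{u}) (h3 : TrStmt.{u}) (h4 : GnsStmt.{u})
    (h5 : PkStmt.{u}) (h6 : LinkStmt.{u}) : IsoStmt.{u} := by
  intro H _ _ _ M ξ hM hs h4' e eM he e0
  refine h2 H M ξ hM hs e eM he fun fin => ?_
  obtain ⟨f, fM, hf, f0, ht⟩ := h3 H M ξ hM hs e eM he e0 fin
  obtain ⟨v, hv, vo, v1⟩ := h1 H M ξ hM hs f fM hf f0
  obtain ⟨r, φ, r0, hφ, hs2⟩ := state hs (fun i => ⟨(hv i).1, (hv i).2.1⟩) v1 f0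
  obtain ⟨K, _, _, _, N, Ω, π, Ω1, c1, c2, hN, -, hπ, hS, -⟩ := h4 H M φ hφ
  obtain ⟨U, J, Ψ, hP⟩ := h5 K N Ω c1 c2
  have h := hP.toMod
  obtain ⟨y, yN, y0, -, hy⟩ := h6 K N Ω U J Ψ hP Ω1 1 (one_mem N) (by simp)
    (by simp [h.Jξ]) 2 (1 / 4) two_pos (by norm_num) (by norm_num; exact hS h4')
  obtain ⟨x, rfl⟩ := (hN y).1 yN
  obtain ⟨ζ, hζ⟩ : ∃ ζ : ℕ → H, ∀ n, ζ n = ((r / 4 ^ n : ℝ) : ℂ) • v n ξ := ⟨_, fun _ => rfl⟩
  simp only [← hζ] at hs2
  obtain ⟨E, hE⟩ : ∃ E : ℕ → MA M, ∀ i, (E i).1 = v i * star (v i) :=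
    ⟨fun i => ⟨_, mul_mem (hv i).1 (star_mem (hv i).1)⟩, fun _ => rfl⟩
  have pN : ∀ z, π z ∈ N := fun z => (hN _).2 ⟨z, rfl⟩
  have Ep : ∀ i, IsStarProjection (E i).1 := fun i => hE i ▸ (hv i).2.1.proj'
  have Es : ∀ i, star (E i) = E i := fun i => Subtype.ext (P104.pstar (Ep i))
  have E1 : ∀ i, (E i).1 (ζ i) = ζ i := fun i => by
    rw [hζ, hE, map_smul, ← mul_apply_eq_comp, (hv i).2.1]
  have E0 : ∀ i j, i ≠ j → (E i).1 (ζ j) = 0 := fun i j hij => by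
    rw [hζ, hE, map_smul, ← mul_apply_eq_comp, mul_assoc, vo i j hij, mul_zero]; simp
  have pp : ∀ i, IsStarProjection (π (E i)) := fun i =>
    ⟨by rw [IsIdempotentElem, ← map_mul]; exact congrArg π (Subtype.ext (pidem (Ep i))),
      by rw [IsSelfAdjoint, ← map_star, Es]⟩
  have po : ∀ i j, i ≠ j → π (E i) * π (E j) = 0 := fun i j hij => by
    rw [← map_mul, ← map_zero π]
    refine congrArg π (Subtype.ext ?_)
    rw [MulMemClass.coe_mul, hE, hE, mul_assoc, ← mul_assoc (star _), vo i j hij]; simp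
  have cen : ∀ i, J (π (E i) Ω) = π (E i) Ω := fun i => hP.cen _ (pN _) (P104.pstar (pp i))
    fun y hy => by
      obtain ⟨z, rfl⟩ := (hN y).1 hy
      rw [← map_mul, ← map_mul, ← hπ, ← hπ]
      have a : φ (E i * z).1 = _ := (hs2 _).unique (hasSum_single i fun k hk => by
        rw [MulMemClass.coe_mul, mul_apply_eq_comp, ← proj_inner (Ep i), E0 i k hk.symm,
          inner_zero_left])
      have b : φ (z * E i).1 = _ := (hs2 _).unique (hasSum_single i fun k hk => by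
        rw [MulMemClass.coe_mul, mul_apply_eq_comp, E0 i k hk.symm, map_zero, inner_zero_right])
      rw [a, b, MulMemClass.coe_mul, MulMemClass.coe_mul, mul_apply_eq_comp, mul_apply_eq_comp,
        ← proj_inner (Ep i), E1]
  have nsq : ∀ z : MA M, HasSum (fun n => ‖z.1 (ζ n)‖ ^ 2) (‖π z Ω‖ ^ 2) := fun z => by
    have := hasSum_re (hs2 (star z * z).1)
    rw [hπ, map_mul, map_star, ← normsq_eq] at this
    simp only [normsq_eq] at this ⊢
    exact this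
  have one : ∀ (z : MA M) i j, ‖π (E i * z * E j) Ω‖ ^ 2 = ‖(E i).1 (z.1 (ζ j))‖ ^ 2 :=
    fun z i j => by
      rw [(nsq _).unique (hasSum_single j fun k hk => by
        simp only [MulMemClass.coe_mul, mul_apply_eq_comp, E0 j k hk.symm, map_zero, norm_zero]
        norm_num)]
      simp only [MulMemClass.coe_mul, mul_apply_eq_comp, E1]
  obtain ⟨w, hw⟩ : ∃ w, w = J (star (π x) Ω) - (2 : ℂ) • π x Ω := ⟨_, rfl⟩
  have blk : ∀ i j, ‖(E i).1 (x.1 (ζ j))‖ ^ 2 / 4 ≤ ‖π (E i) (h.toMod0.jj (π (E j)) w)‖ ^ 2 :=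
    fun i j => by
      rw [hw, block h (pN _) (pN _) (pN _) (P104.pstar (pp i)) (P104.pstar (pp j)) (cen i) (cen j),
        ← one, ← map_mul, ← map_mul]
      refine gap ?_
      rw [h.toMod0.Jnorm, ← map_star, star_mul, star_mul, Es, Es, ← mul_assoc]
      exact ratio hf ht hv x.2 i j (by rw [one, hE, hζ]) (by rw [one, hE, hζ]; rfl)
  have col : ∀ j, ‖x.1 (ζ j)‖ ^ 2 / 4 ≤ ‖h.toMod0.jj (π (E j)) w‖ ^ 2 := fun j => by
    have := hasSum_re ((v1 (x.1 (ζ j))).mapL (innerSL ℂ (x.1 (ζ j))))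
    simp only [innerSL_apply_apply, ← hE, proj_normsq (Ep _), ofReal_re,
      inner_self_eq_norm_sq_to_K, coe_algebraMap, ← ofReal_pow] at this
    exact hasSum_le_of_sum_le (this.div_const 4) fun s =>
      (sum_le_sum fun i _ => blk i j).trans ((ort pp po).bessel s _)
  have tot : ‖π x Ω‖ ^ 2 / 4 ≤ ‖w‖ ^ 2 := hasSum_le_of_sum_le ((nsq x).div_const 4) fun s =>
    (sum_le_sum fun j _ => col j).trans ((ort (e := fun j => h.toMod0.jj (π (E j)))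
      (fun j => ⟨by rw [IsIdempotentElem, ← h.toMod0.jj_mul, pidem (pp j)],
        by rw [IsSelfAdjoint, ← h.toMod0.jj_star, P104.pstar (pp j)]⟩)
      fun i j hij => by
        rw [← h.toMod0.jj_mul, po i j hij]; ext; simp [Mod0.jj_apply, h.toMod0.J0]).bessel s _)
  have n0 : 0 < ‖π x Ω‖ := norm_pos_iff.2 fun h0 =>
    y0 (h.toMod0.sep yN (zero_mem N) (by simpa using h0))
  rw [show ((2 : ℝ) : ℂ) = 2 by norm_num, ← hw] at hy
  nlinarith [norm_nonneg w]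

end Vale.Agent.P132
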