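import Vale.Agent.P132.Spec

/-! Module K: a point of the S invariant gives approximate eigenvectors in a corner. -/

open Finset Vale.Agent.P104 Vale.Agent.P085 Vale.Agent.P096 Filter Topology MeasureTheory Complex
open scoped InnerProductSpace BoundedContinuousFunction

set_option linter.unusedSectionVars false

namespace Vale.Agent.P132

universe u

namespace Lk

variable {H : Type u} [NormedAddCommGroup H] [InnerProductSpace ℂ H] [CompleteSpace H]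
  {M : VonNeumannAlgebra H} {ξ : H} {U : ℝ → Op H} {J : H → H}
  {Ψ : (ℝ →ᵇ ℂ) →⋆ₐ[ℂ] Op H} {C : ℝ} {e : Op H}

/-- the common fixed vectors of two operators -/
def KK (e f : Op H) : Submodule ℂ H where
  carrier := {v | e v = v ∧ f v = v}
  add_mem' := fun a b => ⟨by rw [map_add, a.1, b.1], by rw [map_add, a.2, b.2]⟩
  zero_mem' := ⟨map_zero _, map_zero _⟩
  smul_mem' := fun c _ a => ⟨by rw [map_smul, a.1], by rw [map_smul, a.2]⟩

lemma KK_closed (e f : Op H) : IsClosed (KK e f : Set H) :=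
  (isClosed_eq e.continuous continuous_id).inter (isClosed_eq f.continuous continuous_id)

lemma KK_inv {e f A : Op H} (h1 : e * A = A * e) (h2 : f * A = A * f) {v : H}
    (hv : v ∈ KK e f) : A v ∈ KK e f :=
  ⟨by rw [← mul_apply_eq_comp, h1, mul_apply_eq_comp, hv.1],
    by rw [← mul_apply_eq_comp, h2, mul_apply_eq_comp, hv.2]⟩

/-- the graph of the Tomita operator of the corner -/
def Gam (M : VonNeumannAlgebra H) (ξ : H) (e : Op H) : Set (H × H) :=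
  closure {p | ∃ y ∈ M, e * y * e = y ∧ p = (y ξ, star y ξ)}

/-- the resolvent -/
lemma res (h : Mod0 M ξ U J) {K : Submodule ℂ H} (Γ : Set (H × H)) (Λ : Op H → K)
    (hΓ : ∀ p : K × K, p ∈ graphS M Λ ↔ (p.1.1, p.2.1) ∈ Γ) (A0 A1 A2 : Op H) (c : ℂ)
    (s0 : star A0 = A0) (s1 : star A1 = A1) (s2 : star A2 = A2)
    (k0 : ∀ v ∈ K, A0 v ∈ K) (k1 : ∀ v ∈ K, J (A1 v) ∈ K)
    (a : ∀ w ∈ K, (A0 w, J (A1 w)) ∈ Γ) (b : ∀ p ∈ Γ, A1 (J p.2) = A2 p.1)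
    (d : ∀ w ∈ K, A2 w = w + c • A0 w) : c ∉ spec (graphMod M Λ) := by
  have sa : ∀ {A : Op H}, star A = A → ∀ v w, ⟪A v, w⟫_ℂ = ⟪v, A w⟫_ℂ := fun {A} hA v w => by
    rw [← inner_star_r, hA]
  refine not_not.2 ⟨(A0 ∘L K.subtypeL).codRestrict K fun v => k0 v v.2, fun w =>
    ⟨⟨_, k1 w w.2⟩, (hΓ _).2 (a w w.2), fun q hq => ?_⟩, fun p ⟨v, hv, hp⟩ => ?_⟩
  · have := b _ ((hΓ q).1 hq)
    change ⟪q.1.1, w.1 + c • A0 w.1⟫_ℂ = ⟪J (A1 w), q.2.1⟫_ℂ
    rw [h.Jinner', ← sa s1, this, sa s2, d w w.2]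
  · have := b _ ((hΓ (p.1, v)).1 hv)
    refine ext_inner_left ℂ fun z => ?_
    have e1 := hp (⟨_, k0 z z.2⟩, ⟨_, k1 z z.2⟩) ((hΓ _).2 (a z z.2))
    change ⟪A0 z, p.2.1⟫_ℂ = ⟪v.1, J (A1 z)⟫_ℂ at e1
    change ⟪z.1, A0 (p.2.1 - c • p.1.1)⟫_ℂ = ⟪z.1, p.1.1⟫_ℂ
    rw [← inner_conj_symm v.1, h.Jinner', inner_conj_symm, sa s1, this, d _ p.1.2, sa s0] at e1
    rw [map_sub, map_smul, inner_sub_right, e1, ← inner_sub_right, add_sub_cancel_right]

lemma commU (h : Mod M ξ U J) (he : e ∈ M) (hs : star e = e) (hJ : J (e ξ) = e ξ) (t : ℝ) :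
    e * U t = U t * e := by
  have := h.lip e he 0 t
  rw [hs, hJ] at this
  have e1 : U t * e * U (-t) = e :=
    h.sep (h.UM t e he) he (by simpa [h.Uξ, sub_eq_zero] using this)
  nth_rewrite 1 [← e1]
  rw [mul_assoc, h.Uneg', mul_one]

lemma commJ (h : Mod M ξ U J) (he : ∀ t, e * U t = U t * e) (t : ℝ) :
    h.toMod0.jj e * U t = U t * h.toMod0.jj e := by
  rw [← h.jj_U t, ← h.jj_mul, he, h.jj_mul]

lemma Qy (h : Mod M ξ U J) (he : e ∈ M) (hJ : J (e ξ) = e ξ) {y : Op H} (hy : y ∈ M) :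
    e (h.toMod0.jj e (y ξ)) = (e * y * e) ξ := by
  rw [← mul_apply_eq_comp _ y, ← commM hy (h.jj_mem he), mul_apply_eq_comp, h.jj_ξ, hJ]; rfl

lemma QK (h : Mod M ξ U J) (he : e ∈ M) (hee : e * e = e) (v : H) :
    e (h.toMod0.jj e v) ∈ KK e (h.toMod0.jj e) :=
  ⟨by rw [← mul_apply_eq_comp, hee], by
    rw [← mul_apply_eq_comp, ← commM he (h.jj_mem he), mul_apply_eq_comp, ← mul_apply_eq_comp _ _ v,
      ← h.jj_mul, hee]⟩

lemma JK (h : Mod M ξ U J) {v : H} (hv : v ∈ KK e (h.toMod0.jj e)) :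
    J v ∈ KK e (h.toMod0.jj e) :=
  ⟨by rw [← h.JJ (e _), ← h.jj_apply, hv.2], by rw [h.jj_apply, h.JJ, hv.1]⟩

/-- induction over the closure of `e M e ξ` -/
lemma indK (h : Mod M ξ U J) (he : e ∈ M) (hee : e * e = e) (hJ : J (e ξ) = e ξ) {S : Set H}
    (hS : IsClosed S) (h0 : ∀ y ∈ M, e * y * e = y → y ξ ∈ S) {v : H}
    (hv : v ∈ KK e (h.toMod0.jj e)) : v ∈ S := by
  have : e (h.toMod0.jj e v) ∈ S := h.cyc.induction_on v
    (hS.preimage (e.continuous.comp (h.toMod0.jj e).continuous)) fun y => by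
      change e (h.toMod0.jj e (y.1 ξ)) ∈ S
      rw [Qy h he hJ y.2]
      exact h0 _ (mul_mem (mul_mem he y.2) he) (by
        rw [← mul_assoc, ← mul_assoc, hee, mul_assoc _ e e, hee])
  rwa [hv.2, hv.1] at this

lemma gamB (h : Pk M ξ U J Ψ) {F G : ℝ →ᵇ ℂ} (hG : ∀ s : ℝ, G s = (Real.exp (s / 2) : ℝ) * F s) :
    ∀ p ∈ Gam M ξ e, Ψ F (J p.2) = Ψ G p.1 := fun _ hp =>
  (isClosed_eq ((Ψ F).continuous.comp (h.Jcont.comp continuous_snd))
    ((Ψ G).continuous.comp continuous_fst)).closure_subset_iff.2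
    (by rintro _ ⟨y, hy, -, rfl⟩; exact h.half F G hG y hy) hp

lemma gamA (h : Pk M ξ U J Ψ) (g : Gw M ξ U J Ψ C) (he : e ∈ M) (hs : star e = e)
    (hee : e * e = e) (hJ : J (e ξ) = e ξ) {F G : ℝ →ᵇ ℂ}
    (hG : ∀ s : ℝ, G s = (Real.exp (s / 2) : ℝ) * F s) {w : H}
    (hw : w ∈ KK e (h.toMod0.jj e)) : (Ψ F w, J (Ψ G w)) ∈ Gam M ξ e := by
  have eU := commU h.toMod he hs hJ
  have k : ∀ δ : ℝ, 0 < δ → ∀ v ∈ KK e (h.toMod0.jj e), (Ψ (gF δ 0) v,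
      J (((Real.exp (0 / 2 + δ ^ 2 / 8) : ℝ) : ℂ) • Ψ (gF δ (0 + δ ^ 2 / 2)) v)) ∈ Gam M ξ e := by
    intro δ δ0 v hv
    refine indK h.toMod he hee hJ (S := {v | (Ψ (gF δ 0) v,
      J (((Real.exp (0 / 2 + δ ^ 2 / 8) : ℝ) : ℂ) • Ψ (gF δ (0 + δ ^ 2 / 2)) v)) ∈ Gam M ξ e})
      (isClosed_closure.preimage ((Ψ _).continuous.prodMk
        (h.Jcont.comp ((Ψ _).continuous.const_smul _)))) (fun y hy e1 => subset_closure
        ⟨sm U δ 0 y, (g.mem δ 0 δ0 y hy).1, by rw [← g.bim δ 0 δ0 y e e eU eU, e1], ?_⟩) hv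
    rw [← g.left δ 0 δ0 y hy, ← g.left δ _ δ0 y hy, ← g.shift δ 0 δ0 y hy, h.JJ]
  have k2 : ∀ δ : ℝ, 0 < δ → (Ψ (gF δ 0) (Ψ F w), J (Ψ (gF δ 0) (Ψ G w))) ∈ Gam M ξ e := by
    intro δ δ0
    have := k δ δ0 _ (KK_inv (h.comm e eU F) (h.comm _ (commJ h.toMod eU) F) hw)
    have e1 : ((Real.exp (0 / 2 + δ ^ 2 / 8) : ℝ) : ℂ) • (gF δ (0 + δ ^ 2 / 2) * F) =
        gF δ 0 * G := by
      ext s
      have e2 : Real.exp (0 / 2 + δ ^ 2 / 8) * Real.exp (-((s - (0 + δ ^ 2 / 2)) / δ) ^ 2 / 2) =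
          Real.exp (-((s - 0) / δ) ^ 2 / 2) * Real.exp (s / 2) := by
        rw [← Real.exp_add, ← Real.exp_add]; congr 1; field_simp; ring
      change ((Real.exp (0 / 2 + δ ^ 2 / 8) : ℝ) : ℂ) *
        (((Real.exp (-((s - (0 + δ ^ 2 / 2)) / δ) ^ 2 / 2) : ℝ) : ℂ) * F s) =
        ((Real.exp (-((s - 0) / δ) ^ 2 / 2) : ℝ) : ℂ) * G s
      rw [hG, ← mul_assoc, ← mul_assoc, ← ofReal_mul, ← ofReal_mul, e2]
    rwa [← mul_apply_eq_comp _ _ w, ← mul_apply_eq_comp _ (Ψ F) w, ← map_mul, ← map_mul,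
      ← smul_apply, ← map_smul, e1, map_mul, map_mul] at this
  exact isClosed_closure.mem_of_tendsto ((g.one _).prodMk_nhds
    ((h.Jcont.tendsto _).comp (g.one _))) (.of_forall fun n => k2 _ (by positivity))

lemma exF (f : ℝ → ℝ) (hc : Continuous fun s : ℝ => f (Real.exp (s / 2))) (C : ℝ)
    (hb : ∀ r, 0 < r → |f r| ≤ C) :
    ∃ F : ℝ →ᵇ ℂ, star F = F ∧ ∀ s, F s = (f (Real.exp (s / 2)) : ℝ) :=
  ⟨BoundedContinuousFunction.ofNormedAddCommGroup (fun s => (f (Real.exp (s / 2)) : ℝ))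
    (continuous_ofReal.comp hc) C fun s => by
      rw [norm_real, Real.norm_eq_abs]; exact hb _ (Real.exp_pos _),
    by ext s; exact conj_ofReal _, fun _ => rfl⟩

lemma funs {μ d : ℝ} (μ0 : 0 < μ) (d0 : 0 < d) : ∃ G0 G1 G2 B B1 : ℝ →ᵇ ℂ,
    star G0 = G0 ∧ star G1 = G1 ∧ star G2 = G2 ∧
    (∀ s : ℝ, G1 s = (Real.exp (s / 2) : ℝ) * G0 s) ∧
    (∀ s : ℝ, G2 s = (Real.exp (s / 2) : ℝ) * G1 s) ∧
    (∀ s : ℝ, B1 s = (Real.exp (s / 2) : ℝ) * B s) ∧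
    G2 = 1 - B + ((μ ^ 2 : ℝ) : ℂ) • G0 ∧
    ∀ s, ‖(B1 - (μ : ℂ) • B) s‖ ^ 2 ≤ d ^ 2 * ‖B s‖ ^ 2 := by
  obtain ⟨D, hD⟩ : ∃ D : ℝ → ℝ, D = fun r => max ((r - μ) ^ 2) (d ^ 2) := ⟨_, rfl⟩
  have D1 : ∀ r, (r - μ) ^ 2 ≤ D r := fun r => hD ▸ le_max_left _ _
  have D2 : ∀ r, d ^ 2 ≤ D r := fun r => hD ▸ le_max_right _ _
  have D0 : ∀ r, 0 < D r := fun r => lt_of_lt_of_le (by positivity) (D2 r)
  have D3 : ∀ r, d * |r - μ| ≤ D r := fun r => by
    nlinarith [D1 r, D2 r, sq_abs (r - μ), sq_nonneg (d - |r - μ|)]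
  have D4 : ∀ r, d ≤ |r - μ| → 1 - (r - μ) ^ 2 / D r = 0 := fun r hr => by
    have : D r = (r - μ) ^ 2 := by
      rw [hD]; exact max_eq_left (by rw [← sq_abs (r - μ)]; gcongr)
    rw [← this, div_self (D0 r).ne', sub_self]
  have D5 : ∀ r, |1 - (r - μ) ^ 2 / D r| ≤ 1 := fun r => by
    have a := (div_le_one (D0 r)).2 (D1 r)
    have b := div_nonneg (sq_nonneg (r - μ)) (D0 r).le
    exact abs_le.2 ⟨by linarith, by linarith⟩
  have Dc : Continuous D := by rw [hD]; fun_prop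
  have c0 : Continuous fun s : ℝ => (Real.exp (s / 2) - μ) /
      (D (Real.exp (s / 2)) * (Real.exp (s / 2) + μ)) :=
    Continuous.div (by fun_prop) (by fun_prop) fun s => by have := D0 (Real.exp (s / 2)); positivity
  have c1 : Continuous fun s : ℝ => 1 - (Real.exp (s / 2) - μ) ^ 2 / D (Real.exp (s / 2)) :=
    continuous_const.sub (Continuous.div (by fun_prop) (by fun_prop) fun s => (D0 _).ne')
  have b0 : ∀ r, 0 < r → |(r - μ) / (D r * (r + μ))| ≤ 1 / (d * (r + μ)) := fun r r0 => by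
    have := D0 r
    rw [abs_div, abs_of_pos (by positivity : 0 < D r * (r + μ)), div_le_div_iff₀ (by positivity)
      (by positivity)]
    nlinarith [mul_le_mul_of_nonneg_right (D3 r) (by positivity : 0 ≤ r + μ)]
  obtain ⟨G0, s0, e0⟩ := exF (fun r => (r - μ) / (D r * (r + μ))) c0 (1 / (d * μ)) fun r r0 =>
    (b0 r r0).trans (by gcongr; linarith)
  obtain ⟨G1, s1, e1⟩ := exF (fun r => r * ((r - μ) / (D r * (r + μ)))) (by fun_prop) (1 / d)
    fun r r0 => by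
      rw [abs_mul, abs_of_pos r0]
      refine (mul_le_mul_of_nonneg_left (b0 r r0) r0.le).trans ?_
      rw [mul_one_div, div_le_div_iff₀ (by positivity) d0]
      nlinarith [mul_pos d0 μ0]
  obtain ⟨B, s2, e2⟩ := exF (fun r => 1 - (r - μ) ^ 2 / D r) c1 1 fun r _ => D5 r
  obtain ⟨B1, -, e3⟩ := exF (fun r => r * (1 - (r - μ) ^ 2 / D r)) (by fun_prop) (μ + d)
    fun r r0 => by
      rcases le_total d |r - μ| with a | a
      · rw [D4 r a, mul_zero, abs_zero]; positivity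
      · rw [abs_mul, abs_of_pos r0]
        nlinarith [D5 r, le_abs_self (r - μ), abs_nonneg (1 - (r - μ) ^ 2 / D r)]
  refine ⟨G0, G1, _, B, B1, s0, s1, ?_, fun s => ?_, fun s => ?_, fun s => ?_, rfl, fun s => ?_⟩
  · rw [star_add, star_sub, star_one, star_smul, s0, s2, RCLike.star_def, conj_ofReal]
  · rw [e0, e1, ofReal_mul]
  · change 1 - B s + ((μ ^ 2 : ℝ) : ℂ) * G0 s = _
    rw [e0, e1, e2]
    norm_cast
    have := D0 (Real.exp (s / 2))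
    have := Real.exp_pos (s / 2)
    field_simp
    ring
  · rw [e2, e3, ofReal_mul]
  · change ‖B1 s - (μ : ℂ) * B s‖ ^ 2 ≤ _
    rw [e3, e2, ofReal_mul, ← sub_mul, norm_mul, mul_pow, ← ofReal_sub, norm_real, Real.norm_eq_abs]
    rcases le_total d |Real.exp (s / 2) - μ| with a | a
    · simp only [D4 _ a, ofReal_zero, norm_zero]; simp
    · gcongr

/-- the state given by an isometry, and its GNS space -/
lemma state (h : Mod M ξ U J) (hξ : ‖ξ‖ = 1) {s : Op H} (hs : s ∈ M) (s1 : star s * s = 1)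
    (he : e = s * star s) (hJ : J (e ξ) = e ξ) :
    ∃ (ψ : Op H → ℂ) (Λ : Op H → KK e (h.toMod0.jj e)), FNS M ψ ∧ GNS M ψ Λ ∧
      ∀ p, p ∈ graphS M Λ ↔ (p.1.1, p.2.1) ∈ Gam M ξ e := by
  have eM : e ∈ M := he ▸ mul_mem hs (star_mem hs)
  have s2 : ∀ x, star s * (s * x) = x := fun x => by rw [← mul_assoc, s1, one_mul]
  have ee : e * e = e := by rw [he, mul_assoc, s2]
  have n0 : ‖star s ξ‖ ≠ 0 := fun a => by
    have b : star s = 0 := h.sep (star_mem hs) (zero_mem _) (norm_eq_zero.1 a)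
    have c : (star s * s) ξ = ξ := by rw [s1]; rfl
    rw [b, zero_mul, zero_apply] at c
    rw [← c, norm_zero] at hξ; exact zero_ne_one hξ
  obtain ⟨c, hc⟩ : ∃ c : ℂ, c = (‖star s ξ‖⁻¹ : ℝ) := ⟨_, rfl⟩
  have c0 : c ≠ 0 := hc ▸ ofReal_ne_zero.2 (inv_ne_zero n0)
  have cs : star c = c := hc ▸ conj_ofReal _
  obtain ⟨ζ, hζ⟩ : ∃ ζ, ζ = c • star s ξ := ⟨_, rfl⟩
  have ζ1 : ‖ζ‖ = 1 := by
    rw [hζ, norm_smul, hc, norm_real, norm_inv, norm_norm, inv_mul_cancel₀ n0]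
  have ym : ∀ x ∈ M, c • (s * x * star s) ∈ M := fun x hx =>
    smulM c (mul_mem (mul_mem hs hx) (star_mem hs))
  have ye : ∀ x, e * (c • (s * x * star s)) * e = c • (s * x * star s) := fun x => by
    simp only [he, mul_smul_comm, smul_mul_assoc, mul_assoc, s2]
  have yv : ∀ x : Op H, s (x ζ) = (c • (s * x * star s)) ξ := fun x => by
    rw [hζ, map_smul, map_smul]; rfl
  have ys : ∀ x : Op H, star (c • (s * x * star s)) = c • (s * star x * star s) := fun x => by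
    rw [star_smul, cs, star_mul, star_mul, star_star, mul_assoc]
  have yo : ∀ y, e * y * e = y → c • (s * (c⁻¹ • (star s * y * s)) * star s) = y := fun y hy => by
    rw [mul_smul_comm, smul_mul_assoc, smul_smul, mul_inv_cancel₀ c0, one_smul]
    simpa only [he, mul_assoc] using hy
  have yp : ∀ y ∈ M, c⁻¹ • (star s * y * s) ∈ M := fun y hy =>
    smulM _ (mul_mem (mul_mem (star_mem hs) hy) hs)
  obtain ⟨Λ, hΛ⟩ : ∃ Λ : Op H → KK e (h.toMod0.jj e), ∀ x ∈ M,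
      (Λ x).1 = (c • (s * x * star s)) ξ :=
    ⟨fun x => ⟨_, QK h eM ee ((c • (s * x * star s)) ξ)⟩, fun x hx => by
      change e (h.toMod0.jj e _) = _
      rw [Qy h eM hJ (ym x hx), ye]⟩
  have cl : ∀ p : KK e (h.toMod0.jj e) × KK e (h.toMod0.jj e),
      p ∈ graphS M Λ ↔ (p.1.1, p.2.1) ∈ Gam M ξ e := fun p => by
    rw [graphS, (IsInducing.subtypeVal.prodMap IsInducing.subtypeVal).closure_eq_preimage_closure_image,
      Gam]
    refine iff_of_eq (congrArg (fun S => (p.1.1, p.2.1) ∈ closure S) (Set.ext fun q => ⟨?_, ?_⟩))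
    · rintro ⟨_, ⟨x, hx, rfl⟩, rfl⟩
      exact ⟨_, ym x hx, ye x, Prod.ext (hΛ x hx) ((hΛ _ (star_mem hx)).trans (by rw [ys]))⟩
    · rintro ⟨y, hy, e1, rfl⟩
      refine ⟨_, ⟨_, yp y hy, rfl⟩, Prod.ext ((hΛ _ (yp y hy)).trans (by rw [yo y e1]))
        ((hΛ _ (star_mem (yp y hy))).trans (by rw [← ys, yo y e1]))⟩
  refine ⟨fun x => ⟪ζ, x ζ⟫_ℂ, Λ, ⟨⟨fun n => if n = 0 then ζ else 0,
    (hasSum_single 0 fun n hn => by simp [hn]).summable, fun x _ => ?_⟩, ?_, fun x hx a => ?_⟩,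
    ⟨fun x hx y hy => ?_, fun v => ?_⟩, cl⟩
  · simpa using hasSum_single (f := fun n : ℕ =>
      ⟪if n = 0 then ζ else 0, x (if n = 0 then ζ else 0)⟫_ℂ) 0 fun n hn => by simp [hn]
  · simp [inner_self_eq_norm_sq_to_K, ζ1]
  · rw [mul_apply_eq_comp, inner_star_r, inner_self_eq_zero, hζ, map_smul, smul_eq_zero] at a
    have : x * star s = 0 := h.sep (mul_mem hx (star_mem hs)) (zero_mem _) (a.resolve_left c0)
    rw [← mul_one x, ← s1, ← mul_assoc, this, zero_mul]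
  · change ⟪(Λ x).1, (Λ y).1⟫_ℂ = _
    rw [hΛ x hx, hΛ y hy, ← yv, ← yv, ← inner_star_r, ← mul_apply_eq_comp, s1, one_apply_eq_self,
      ← inner_star_r]; rfl
  · rw [IsInducing.subtypeVal.closure_eq_preimage_closure_image]
    refine indK h eM ee hJ (S := closure (Subtype.val '' (Λ '' M))) isClosed_closure
      (fun y hy e1 => subset_closure ?_) v.2
    exact ⟨_, ⟨_, yp y hy, rfl⟩, (hΛ _ (yp y hy)).trans (by rw [yo y e1])⟩

end Lk

open Lk in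
theorem linkStmt (hw : GwStmt.{u}) : LinkStmt.{u} := by
  intro H _ _ _ M ξ U J Ψ h hξ s hs s1 hJ μ δ μ0 δ0 hμ
  obtain ⟨C, hC⟩ := hw
  have g := hC H M ξ U J Ψ h
  obtain ⟨e, he⟩ : ∃ e, e = s * star s := ⟨_, rfl⟩
  rw [← he] at hJ ⊢
  have eM : e ∈ M := he ▸ mul_mem hs (star_mem hs)
  have ee : e * e = e := by rw [he, mul_assoc, ← mul_assoc (star s), s1, one_mul]
  have es : star e = e := by rw [he, star_mul, star_star]
  have eU := commU h.toMod eM es hJ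
  have ΨK : ∀ F, ∀ v ∈ KK e (h.toMod0.jj e), Ψ F v ∈ KK e (h.toMod0.jj e) := fun F v hv =>
    KK_inv (h.comm e eU F) (h.comm _ (commJ h.toMod eU) F) hv
  by_contra hn
  have n1 : ∀ p ∈ Gam M ξ e, δ * ‖p.1‖ ≤ ‖J p.2 - (μ : ℂ) • p.1‖ := fun _ hp =>
    (isClosed_le (continuous_const.mul continuous_fst.norm) ((h.Jcont.comp continuous_snd).sub
      (continuous_fst.const_smul _)).norm).closure_subset_iff.2 (by
      rintro _ ⟨y, hy, e1, rfl⟩
      rcases eq_or_ne y 0 with rfl | y0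
      · simp
      · exact (not_le.1 fun a => hn ⟨y, hy, y0, e1, a⟩).le) hp
  obtain ⟨G0, G1, G2, B, B1, s0, s1', s2, e1, e2, e3, e4, e5⟩ := funs μ0 (half_pos δ0)
  have B0 : ∀ w ∈ KK e (h.toMod0.jj e), Ψ B w = 0 := fun w hw => by
    have a := n1 _ (gamA h g eM es ee hJ e3 hw)
    have b := g.le Unit univ (fun _ => B1 - (μ : ℂ) • B) Unit univ (fun _ => B) ((δ / 2) ^ 2)
      (fun r => by simpa only [univ_unique, sum_singleton] using e5 r) w
    simp only [univ_unique, sum_singleton, map_sub, map_smul, sub_apply, smul_apply] at b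
    rw [h.JJ] at a
    have c := pow_le_pow_left₀ (by positivity) a 2
    have d : δ ^ 2 * ‖Ψ B w‖ ^ 2 ≤ 0 := by nlinarith
    have := nonpos_of_mul_nonpos_right d (by positivity)
    exact norm_eq_zero.1 (pow_eq_zero_iff two_ne_zero |>.1 (this.antisymm (by positivity)))
  obtain ⟨ψ, Λ, f1, f2, f3⟩ := state h.toMod hξ hs s1 he hJ
  haveI := (KK_closed e (h.toMod0.jj e)).completeSpace_coe
  refine res h.toMod0 _ Λ f3 (Ψ G0) (Ψ G1) (Ψ G2) _ (by rw [← map_star, s0])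
    (by rw [← map_star, s1']) (by rw [← map_star, s2]) (ΨK G0) (fun v hv => JK h.toMod (ΨK G1 v hv))
    (fun w hw => gamA h g eM es ee hJ e1 hw) (gamB h e2) (fun w hw => ?_) (hμ ψ f1 _ Λ f2)
  rw [e4, map_add, map_sub, map_one, map_smul, add_apply, sub_apply, B0 w hw, sub_zero]; rfl

end Vale.Agent.P132
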