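import Vale.Agent.P132.Spec

/-! The local lemma. -/

open Finset Vale.Agent.P104 Vale.Agent.P085 Vale.Agent.P096 Filter Topology MeasureTheory Complex
open scoped InnerProductSpace

set_option linter.unusedSectionVars false

namespace Vale.Agent.P132

universe u

namespace Loc

variable {H : Type u} [NormedAddCommGroup H] [InnerProductSpace ℂ H] [CompleteSpace H]

/-- the one-parameter group -/
noncomputable def ex (c : ℝ) (T : Op H) : Op H := NormedSpace.exp (c • T)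

lemma ex_sub (c : ℝ) {A B : Op H} (h : Commute A B) : ex c (A - B) = ex c A * ex (-c) B := by
  let _ : NormedAlgebra ℚ (Op H) := .restrictScalars ℚ ℂ _
  rw [ex, ex, ex, ← NormedSpace.exp_add_of_commute ((h.smul_left _).smul_right _), smul_sub,
    neg_smul, sub_eq_add_neg]

lemma ex_add (c d : ℝ) (A : Op H) : ex (c + d) A = ex c A * ex d A := by
  let _ : NormedAlgebra ℚ (Op H) := .restrictScalars ℚ ℂ _
  rw [ex, ex, ex, ← NormedSpace.exp_add_of_commute (((Commute.refl A).smul_left _).smul_right _),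
    add_smul]

lemma ex_zero (A : Op H) : ex 0 A = 1 := by rw [ex, zero_smul, NormedSpace.exp_zero]

lemma ex_star (c : ℝ) {A : Op H} (h : star A = A) : star (ex c A) = ex c A := by
  rw [ex, NormedSpace.star_exp, star_smul, h, star_trivial]

lemma ex_cfc (c : ℝ) {A : Op H} (h : IsSelfAdjoint A) :
    cfc (fun s : ℝ => Real.exp (c * s)) A = ex c A := by
  rw [cfc_comp_const_mul c Real.exp A, ex,
    CFC.real_exp_eq_normedSpace_exp ((IsSelfAdjoint.all c).smul h)]

lemma ex_mem {M : VonNeumannAlgebra H} (c : ℝ) {A : Op H} (h : A ∈ M) : ex c A ∈ M :=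
  memM fun _ hy => ((Commute.smul_right (commM h hy).symm c).exp_right).eq

lemma qf_mono {A B : Op H} (h : A ≤ B) (v : H) : qf A v ≤ qf B v := by
  have := qf_nonneg (sub_nonneg.2 h) v
  simp only [qf, sub_apply, inner_sub_right, sub_re] at this ⊢
  linarith

lemma qf_rsmul (c : ℝ) (A : Op H) (v : H) : qf (c • A) v = c * qf A v := by
  rw [qf, qf, ← Complex.coe_smul, smul_apply, inner_smul_right, re_ofReal_mul]

lemma sinh_le (s : ℝ) : s * s ≤ (Real.exp (1 / 2 * s) - Real.exp (-(1 / 2) * s)) *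
    (Real.exp (1 / 2 * s) - Real.exp (-(1 / 2) * s)) := by
  have e : Real.exp (1 / 2 * s) - Real.exp (-(1 / 2) * s) = 2 * Real.sinh (1 / 2 * s) := by
    rw [Real.sinh_eq, neg_mul]; ring
  rw [e]
  rcases le_total 0 s with h | h
  · have := Real.self_le_sinh_iff.2 (show 0 ≤ 1 / 2 * s by linarith)
    nlinarith
  · have := Real.sinh_le_self_iff.2 (show 1 / 2 * s ≤ 0 by linarith)
    nlinarith

lemma cost {S : Op H} (h : IsSelfAdjoint S) (v : H) :
    ‖S v‖ ≤ ‖(ex (1 / 2) S - ex (-(1 / 2)) S) v‖ := by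
  have := cfc_mono (a := S) (f := fun s : ℝ => s * s) (fun s _ => sinh_le s)
  rw [cfc_mul .., cfc_mul .., cfc_id' ℝ S, cfc_sub .., ex_cfc _ h, ex_cfc _ h] at this
  rw [← sq_le_sq₀ (norm_nonneg _) (norm_nonneg _), normsq_eq, normsq_eq, h.star_eq, star_sub,
    ex_star _ h.star_eq, ex_star _ h.star_eq]
  exact qf_mono this v

lemma dd {S : Op H} (h : IsSelfAdjoint S) {r : ℝ} (hr : 0 < r) : ∃ D : Op H, 0 ≤ D ∧ D ≤ 1 ∧
    (∀ v, r ^ 2 * qf D v ≤ ‖S v‖ ^ 2) ∧
    ∀ v, ‖v‖ ^ 2 - Real.exp r * ‖ex (1 / 2) S v‖ ^ 2 ≤ qf D v := by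
  refine ⟨cfc (fun s : ℝ => max 0 (1 - Real.exp r * Real.exp (1 * s))) S,
    cfc_nonneg fun _ _ => le_max_left _ _,
    cfc_le_one _ _ fun s _ => max_le zero_le_one (sub_le_self _ (by positivity)),
    fun v => ?_, fun v => ?_⟩
  · have := cfc_mono (a := S) (g := fun s : ℝ => s * s)
      (f := fun s => r ^ 2 * max 0 (1 - Real.exp r * Real.exp (1 * s))) fun s _ => by
        rcases le_total (-r) s with k | k
        · rw [max_eq_left, mul_zero]
          · exact mul_self_nonneg s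
          · rw [← Real.exp_add, sub_nonpos, Real.one_le_exp_iff]; linarith
        · have : max 0 (1 - Real.exp r * Real.exp (1 * s)) ≤ 1 :=
            max_le zero_le_one (sub_le_self _ (by positivity))
          nlinarith [mul_le_mul_of_nonneg_left this (sq_nonneg r)]
    rw [cfc_const_mul .., cfc_mul .., cfc_id' ℝ S] at this
    rw [normsq_eq, h.star_eq, ← qf_rsmul]
    exact qf_mono this v
  · have := cfc_mono (a := S) (f := fun s : ℝ => 1 - Real.exp r * Real.exp (1 * s))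
      (g := fun s => max 0 (1 - Real.exp r * Real.exp (1 * s))) fun s _ => le_max_right _ _
    rw [cfc_sub .., cfc_const_mul .., cfc_const_one ℝ S, ex_cfc _ h] at this
    refine le_of_eq_of_le ?_ (qf_mono this v)
    rw [normsq_eq (ex _ S), ex_star _ h.star_eq, ← ex_add, add_halves, ← qf_one, ← qf, ← qf_rsmul]
    simp only [qf, sub_apply, inner_sub_right, sub_re]

variable {M : VonNeumannAlgebra H} {ξ : H} {U : ℝ → Op H} {J : H → H}

lemma jj_rsmul (h : Mod0 M ξ U J) (c : ℝ) (A : Op H) : h.jj (c • A) = c • h.jj A := by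
  rw [← Complex.coe_smul, h.jj_smul, conj_ofReal, Complex.coe_smul]

lemma jj_ex (h : Mod0 M ξ U J) (c : ℝ) (A : Op H) : h.jj (ex c A) = ex c (h.jj A) := by
  let _ : NormedAlgebra ℚ (Op H) := .restrictScalars ℚ ℂ _
  let f : Op H →+* Op H := .mk' ⟨⟨h.jj, h.jj_one⟩, h.jj_mul⟩ h.jj_add
  have hf : Continuous f := (AddMonoidHomClass.continuous_of_bound f 1 fun x => by
    rw [one_mul]; exact h.jj_le x)
  have := NormedSpace.map_exp f hf (c • A)
  rw [ex, ex, ← jj_rsmul]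
  exact this

end Loc

open Loc in
theorem locStmt : LocStmt.{u} := by
  intro H _ _ _ M ξ U J h hξ z hz m r l hm hr
  obtain ⟨X, hX⟩ : ∃ X : Op H, X = (m ^ 2)⁻¹ • (star z * z) := ⟨_, rfl⟩
  have X0 : 0 ≤ X := hX ▸ smul_nonneg (by positivity) (star_mul_self_nonneg z)
  have XM : X ∈ M := by
    rw [hX, ← Complex.coe_smul]; exact smulM _ (mul_mem (star_mem hz) hz)
  have qX : ∀ v, m ^ 2 * qf (1 + X) v = m ^ 2 * ‖v‖ ^ 2 + ‖z v‖ ^ 2 := fun v => by
    have : qf (1 + X) v = qf 1 v + qf X v := by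
      simp only [qf, add_apply, inner_add_right, add_re]
    rw [this, hX, qf_rsmul, qf_one, normsq_eq z, qf]
    field_simp
  obtain ⟨a, ha⟩ : ∃ a : Op H, a = CFC.log (1 + X) := ⟨_, rfl⟩
  have as : IsSelfAdjoint a := ha ▸ IsSelfAdjoint.log
  have aM : a ∈ M := memM fun y hy => by
    rw [ha]
    exact (Commute.cfc_real (commM (add_mem (one_mem _) XM) hy) Real.log).symm.eq
  have e1 : ex 1 a = 1 + X := by
    rw [ex, one_smul, ha, CFC.exp_log _ (isStrictlyPositive_one.add_nonneg X0)]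
  obtain ⟨P, hP⟩ : ∃ P, P = ex (1 / 2) a := ⟨_, rfl⟩
  obtain ⟨R, hR⟩ : ∃ R, R = ex (-(1 / 2)) a := ⟨_, rfl⟩
  have PM : P ∈ M := hP ▸ ex_mem _ aM
  have RM : R ∈ M := hR ▸ ex_mem _ aM
  have Ps : star P = P := hP ▸ ex_star _ as.star_eq
  have Rs : star R = R := hR ▸ ex_star _ as.star_eq
  have PP : P * P = 1 + X := by rw [hP, ← ex_add, add_halves, e1]
  have RP : R * P = 1 := by rw [hP, hR, ← ex_add, neg_add_cancel, ex_zero]
  have PR : P * R = 1 := by rw [hP, hR, ← ex_add, add_neg_cancel, ex_zero]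
  have nP : ∀ v, m ^ 2 * ‖P v‖ ^ 2 = m ^ 2 * ‖v‖ ^ 2 + ‖z v‖ ^ 2 := fun v => by
    rw [normsq_eq P, Ps, PP, ← qf, qX]
  have nR : ∀ v, m ^ 2 * ‖v‖ ^ 2 = m ^ 2 * ‖R v‖ ^ 2 + ‖z (R v)‖ ^ 2 := fun v => by
    rw [← nP, ← mul_apply_eq_comp, PR, one_apply_eq_self]
  have R1 : ∀ v, ‖R v‖ ≤ ‖v‖ := fun v => by
    rw [← sq_le_sq₀ (norm_nonneg _) (norm_nonneg _), ← mul_le_mul_iff_right₀ (pow_pos hm 2), nR v]
    exact le_add_of_nonneg_right (sq_nonneg _)
  have Rz : ‖R * star z‖ ≤ m := by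
    rw [← norm_star, star_mul, star_star, Rs]
    refine ContinuousLinearMap.opNorm_le_bound _ hm.le fun v => ?_
    rw [← sq_le_sq₀ (norm_nonneg _) (by positivity), mul_pow, nR v]
    exact le_add_of_nonneg_left (by positivity)
  have cj : ∀ {x y : Op H}, x ∈ M → y ∈ M → x * h.toMod0.jj y = h.toMod0.jj y * x :=
    fun hx hy => commM hx (h.jj_mem hy)
  have Ss : IsSelfAdjoint (a - h.toMod0.jj a) := by
    rw [IsSelfAdjoint, star_sub, ← h.jj_star, as.star_eq]
  have f1 : ex (1 / 2) (a - h.toMod0.jj a) = P * h.toMod0.jj R := by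
    rw [ex_sub _ (cj aM aM), hP, hR, jj_ex]
  have f2 : ex (-(1 / 2)) (a - h.toMod0.jj a) = R * h.toMod0.jj P := by
    rw [ex_sub _ (cj aM aM), hP, hR, jj_ex, neg_neg]
  obtain ⟨D, d1, d2, d3, d4⟩ := dd Ss hr
  refine ⟨a, aM, D, as.star_eq, d1, d2, d3, ?_, le_trans ?_ (d4 _)⟩
  · obtain ⟨e, he⟩ : ∃ e, e = z ξ - (l : ℂ) • J (star z ξ) := ⟨_, rfl⟩
    have g1 : P * h.toMod0.jj R - R * h.toMod0.jj P =
        R * h.toMod0.jj R * (X - h.toMod0.jj X) := by
      have k1 : R * h.toMod0.jj R * (P * P) = P * h.toMod0.jj R := by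
        rw [cj RM RM, mul_assoc, ← mul_assoc R, RP, one_mul, cj PM RM]
      have k2 : R * h.toMod0.jj R * h.toMod0.jj (P * P) = R * h.toMod0.jj P := by
        rw [mul_assoc, ← h.jj_mul, ← mul_assoc R, RP, one_mul]
      rw [← k1, ← k2, ← mul_sub, PP, h.jj_add, h.jj_one, add_sub_add_left_eq_sub]
    have g2 : star z (J (star z ξ)) = J (star z (J (star z ξ))) := by
      have := congr($(cj (star_mem hz) (star_mem hz)) ξ)
      simpa only [mul_apply_eq_comp, h.jj_apply, h.Jξ] using this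
    have g3 : (X - h.toMod0.jj X) ξ = ((m ^ 2)⁻¹ : ℝ) • (star z e - J (star z e)) := by
      rw [hX, jj_rsmul, ← smul_sub, smul_apply, sub_apply, h.jj_ξ, he, map_sub, h.Jsub, map_smul,
        h.Jsmul, conj_ofReal, ← g2, mul_apply_eq_comp, sub_sub_sub_cancel_right]
    have b : ‖R (star z e)‖ ≤ m * ‖e‖ := (R * star z).le_of_opNorm_le Rz e
    have b1 : ‖(R * h.toMod0.jj R) (star z e)‖ ≤ m * ‖e‖ := by
      rw [cj RM RM, mul_apply_eq_comp, h.jj_apply, h.Jnorm]
      exact (R1 _).trans ((h.Jnorm _).trans_le b)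
    have b2 : ‖(R * h.toMod0.jj R) (J (star z e))‖ ≤ m * ‖e‖ := by
      rw [mul_apply_eq_comp, h.jj_apply, h.JJ]
      exact (R1 _).trans ((h.Jnorm _).trans_le b)
    have c := cost Ss ξ
    rw [f1, f2, g1, mul_apply_eq_comp, g3, ContinuousLinearMap.map_smul_of_tower, map_sub,
      norm_smul, Real.norm_of_nonneg (by positivity)] at c
    have c2 := c.trans (mul_le_mul_of_nonneg_left (norm_sub_le_of_le b1 b2) (by positivity))
    rw [← he]
    refine (mul_le_mul_of_nonneg_left c2 hm.le).trans_eq ?_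
    field_simp
    ring
  · have g : ex (1 / 2) (a - h.toMod0.jj a) (J (star z ξ)) = h.toMod0.jj (R * star z) (P ξ) := by
      rw [f1, ← h.jj_ξ, ← mul_apply_eq_comp, mul_assoc, ← h.jj_mul,
        cj PM (mul_mem RM (star_mem hz)), mul_apply_eq_comp]
    have b : ‖h.toMod0.jj (R * star z) (P ξ)‖ ≤ m * ‖P ξ‖ :=
      ContinuousLinearMap.le_of_opNorm_le _ ((h.jj_le _).trans Rz) _
    have b2 := pow_le_pow_left₀ (norm_nonneg _) b 2
    rw [mul_pow, nP, hξ, one_pow, mul_one] at b2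
    rw [g]
    gcongr

end Vale.Agent.P132
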