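import Vale.Agent.P132.One

/-! Assembly of the proof. -/

open Finset Vale.Agent.P104 Vale.Agent.P085 Vale.Agent.P096 Filter Topology MeasureTheory Complex
open scoped InnerProductSpace BoundedContinuousFunction

set_option linter.unusedSectionVars false

namespace Vale.Agent.P132

universe u

namespace Mn

variable {H : Type u} [NormedAddCommGroup H] [InnerProductSpace ℂ H] [CompleteSpace H]
  {M : VonNeumannAlgebra H} {ξ : H} {U : ℝ → Op H} {J : H → H} {Ψ : (ℝ →ᵇ ℂ) →⋆ₐ[ℂ] Op H}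

lemma sq2 {a b c : ℝ} (a0 : 0 ≤ a) (h : a ≤ b + c) : a ^ 2 ≤ 2 * b ^ 2 + 2 * c ^ 2 := by
  have : a ^ 2 ≤ (b + c) ^ 2 := by gcongr
  nlinarith [sq_nonneg (b - c)]

lemma inv_of {G : Set (Op H)} {η η₁ η₂ : H} (h1 : Inv G ξ η₁) (h2 : Inv G ξ η₂) {a b c : ℝ}
    (h : ∀ g ∈ G, ‖g η - η‖ ≤ a * ‖g η₁ - η₁‖ + (b * ‖g η₂ - η₂‖ + c * ‖g ξ - ξ‖)) :
    Inv G ξ η := fun ε ε0 => by
  obtain ⟨δ, δ0, hδ⟩ : ∃ δ, 0 < δ ∧ (2 * a ^ 2 + 4 * b ^ 2) * δ ≤ ε :=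
    ⟨ε / (2 * a ^ 2 + 4 * b ^ 2 + 1), by positivity, by
      rw [← mul_div_assoc, div_le_iff₀ (by positivity)]; nlinarith⟩
  obtain ⟨K₁, k1, e1⟩ := h1 δ δ0
  obtain ⟨K₂, k2, e2⟩ := h2 δ δ0
  refine ⟨2 * a ^ 2 * K₁ + 4 * b ^ 2 * K₂ + 4 * c ^ 2, by positivity, fun g hg => ?_⟩
  have a1 := sq2 (norm_nonneg _) (h g hg)
  have a2 : (b * ‖g η₂ - η₂‖ + c * ‖g ξ - ξ‖) ^ 2 ≤ 2 * (b * ‖g η₂ - η₂‖) ^ 2 +
    2 * (c * ‖g ξ - ξ‖) ^ 2 := by nlinarith [sq_nonneg (b * ‖g η₂ - η₂‖ - c * ‖g ξ - ξ‖)]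
  have a3 := mul_le_mul_of_nonneg_left (e1 g hg) (sq_nonneg a)
  have a4 := mul_le_mul_of_nonneg_left (e2 g hg) (sq_nonneg b)
  linarith [mul_pow a ‖g η₁ - η₁‖ 2, mul_pow b ‖g η₂ - η₂‖ 2, mul_pow c ‖g ξ - ξ‖ 2]

lemma inv_self {G : Set (Op H)} : Inv G ξ ξ := fun ε ε0 => ⟨1, zero_le_one, fun g _ => by linarith⟩

lemma gg (h : Mod M ξ U J) {g : Op H} (hg : g ∈ GG M J) : ∃ u ∈ unitary (Op H), u ∈ M ∧
    h.toMod0.jj u ∈ unitary (Op H) ∧ g = u * h.toMod0.jj u := by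
  obtain ⟨u, u1, u2, e⟩ := hg
  exact ⟨u, u1, u2, ⟨by rw [← h.toMod0.jj_star, ← h.toMod0.jj_mul, u1.1, h.toMod0.jj_one],
    by rw [← h.toMod0.jj_star, ← h.toMod0.jj_mul, u1.2, h.toMod0.jj_one]⟩,
    ContinuousLinearMap.ext e⟩

lemma un (v : H) {u : Op H} (hu : u ∈ unitary (Op H)) : ‖u v‖ = ‖v‖ :=
  ContinuousLinearMap.norm_map_of_mem_unitary hu v

/-- the almost invariant vectors -/
def IS (G : Set (Op H)) (ξ : H) : Submodule ℂ H where
  carrier := {η | Inv G ξ η}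
  zero_mem' := fun ε ε0 => ⟨0, le_rfl, fun g _ => by simpa using ε0.le⟩
  add_mem' h1 h2 := inv_of h1 h2 (a := 1) (b := 1) (c := 0) fun g _ => by
    rw [map_add, add_sub_add_comm]; simpa using norm_add_le _ _
  smul_mem' c _ h1 := inv_of h1 h1 (a := ‖c‖) (b := 0) (c := 0) fun g _ => by
    rw [map_smul, ← smul_sub, norm_smul]; simp

lemma IS_closed (h : Mod M ξ U J) : IsClosed (IS (GG M J) ξ : Set H) :=
  isClosed_of_closure_subset fun η hη ε ε0 => by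
    obtain ⟨δ, δ0, hδ⟩ : ∃ δ, 0 < δ ∧ δ ^ 2 = ε / 16 :=
      ⟨√(ε / 16), by positivity, Real.sq_sqrt (by positivity)⟩
    obtain ⟨w, hw, e⟩ := Metric.mem_closure_iff.1 hη δ δ0
    obtain ⟨K, K0, hK⟩ := hw (ε / 4) (by positivity)
    refine ⟨2 * K, by positivity, fun g hg => ?_⟩
    obtain ⟨u, u1, -, u2, e2⟩ := gg h hg
    have a1 : ‖g (η - w)‖ = ‖η - w‖ := un _ (e2 ▸ mul_mem u1 u2)
    rw [dist_eq_norm] at e
    have a2 : ‖g η - η‖ ≤ ‖g w - w‖ + 2 * δ := by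
      have := norm_sub_le_of_le (norm_add_le_of_le (le_refl ‖g w - w‖) (a1.trans_le e.le)) e.le
      rw [map_sub, show g w - w + (g η - g w) - (η - w) = g η - η by abel] at this
      linarith
    have := sq2 (norm_nonneg _) a2
    linarith [hK g hg, mul_pow 2 δ 2]

lemma inv_mul (h : Mod M ξ U J) {x y : Op H} (hx : x ∈ M) (hy : y ∈ M)
    (e : J (y ξ) = y ξ) (h1 : Inv (GG M J) ξ (x ξ)) (h2 : Inv (GG M J) ξ (y ξ)) :
    Inv (GG M J) ξ ((x * y) ξ) := by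
  refine inv_of h1 h2 (a := ‖y‖) (b := ‖x‖) (c := ‖x‖ * ‖y‖) fun g hg => ?_
  obtain ⟨u, u1, u2, u3, rfl⟩ := gg h hg
  have c := fun {a b : Op H} (ha : a ∈ M) (hb : b ∈ M) v =>
    congr($(commM ha (h.jj_mem hb)) v)
  simp only [mul_apply_eq_comp] at c ⊢
  have e1 : x (y ξ) = h.toMod0.jj y (x ξ) := by rw [← c hx hy, h.toMod0.jj_ξ, e]
  have e2 : u (h.toMod0.jj u (x (y ξ))) - x (y ξ) =
      h.toMod0.jj y (u (h.toMod0.jj u (x ξ)) - x ξ) + u (x (J (u (y ξ) - y (u ξ)))) := by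
    have := h.toMod0.jj_ξ (u * y - y * u)
    rw [h.toMod0.jj_sub, h.toMod0.jj_mul, h.toMod0.jj_mul] at this
    simp only [sub_apply, mul_apply_eq_comp] at this
    rw [← this, e1]
    simp only [map_sub, c hx u2, c hx hy, c u2 hy, c u2 u2]
    abel
  have e3 : ‖u (y ξ) - y (u ξ)‖ ≤ ‖u (h.toMod0.jj u (y ξ)) - y ξ‖ +
      ‖y‖ * ‖u (h.toMod0.jj u ξ) - ξ‖ := by
    rw [← un _ u3, map_sub, ← c hy u2, ← c u2 u2, ← c u2 u2]
    refine le_trans (le_of_eq (congrArg _ ?_)) (norm_sub_le_of_le le_rfl (y.le_opNorm _))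
    rw [map_sub]; abel
  rw [e2]
  refine norm_add_le_of_le ?_ ?_
  · simpa [h.toMod0.jj_norm] using (h.toMod0.jj y).le_opNorm (u (h.toMod0.jj u (x ξ)) - x ξ)
  · rw [un _ u1]
    refine (x.le_opNorm _).trans ?_
    rw [h.toMod0.Jnorm, mul_assoc, ← mul_add]
    exact mul_le_mul_of_nonneg_left e3 (norm_nonneg _)

lemma commU (h : Mod M ξ U J) {e : Op H} (he : e ∈ M) (h1 : J (star e ξ) = e ξ) (t : ℝ) :
    U t * e = e * U t := by
  have := h.lip e he 0 t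
  simp only [h1, ofReal_zero, zero_div, neg_zero, exp_zero, one_smul, sub_self, norm_zero, mul_zero,
    norm_le_zero_iff, sub_eq_zero] at this
  have e1 : U t * e * U (-t) = e := h.toMod0.sep (h.UM t e he) he (by simpa [h.Uξ] using this)
  nth_rewrite 2 [← e1]
  rw [mul_assoc, h.toMod0.Uneg', mul_one]

lemma fixJ (h : Mod M ξ U J) {e : Op H} (he : e ∈ M) (h1 : ∀ t, U t * e = e * U t) :
    J (star e ξ) = e ξ :=
  (h.kms (fun _ => e ξ) (differentiable_const _) (fun t _ => by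
    simpa [h.Uξ] using congr($(h1 t) ξ)) e he rfl).symm

lemma zero_of_pos (h : Mod M ξ U J) {y : Op H} (hy : y ∈ M) (y0 : 0 ≤ y)
    (e : (⟪ξ, y ξ⟫_ℂ).re = 0) : y = 0 := by
  obtain ⟨s, s0, s1, -⟩ := exists_sq y0
  have := normsq_eq s ξ
  rw [s0.isSelfAdjoint.star_eq, s1, e, pow_eq_zero_iff two_ne_zero, norm_eq_zero] at this
  exact h.toMod0.sep hy (zero_mem _) (by rw [← s1, mul_apply_eq_comp, this, map_zero]; rfl)

lemma sa (h2 : TwoStmt.{u}) (h : Mod M ξ U J) (ξ1 : ‖ξ‖ = 1) (hO : Off M ξ J) {x : Op H}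
    (hx : x ∈ M) (xs : star x = x) (e : J (x ξ) = x ξ) (hi : Inv (GG M J) ξ (x ξ)) :
    ∃ c : ℂ, x = c • 1 := by
  obtain ⟨c, hc⟩ : ∃ c : ℝ, c = (⟪ξ, x ξ⟫_ℂ).re := ⟨_, rfl⟩
  obtain ⟨y, hy⟩ : ∃ y, y = x - (c : ℂ) • 1 := ⟨_, rfl⟩
  have yM : y ∈ M := hy ▸ sub_mem hx (smulM _ (one_mem _))
  have y0 : (⟪ξ, y ξ⟫_ℂ).re = 0 := by
    simp [hy, inner_sub_right, ← hc, ξ1]
  have cy : ∀ a, x * a = a * x → y * a = a * y := fun a ha => by
    simp [hy, sub_mul, mul_sub, ha]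
  obtain ⟨p, hp, p1, p2, p3⟩ := exists_spec (a := y) (by
    rw [IsSelfAdjoint, hy, star_sub, xs, star_smul, star_one]; simp)
  have pM : p ∈ M := memM fun a ha => (p1 a (commM yM ha)).symm
  have pJ : J (p ξ) = p ξ := by
    have := fixJ h pM fun t => (p1 _ (cy _ (commU h hx (by rwa [xs]) t).symm)).symm
    rwa [hp.isSelfAdjoint.star_eq] at this
  let W : Submodule ℂ H := ⨅ n : ℕ, (IS (GG M J) ξ).comap (x ^ n).toLinearMap
  have mW : ∀ v, v ∈ W ↔ ∀ n : ℕ, Inv (GG M J) ξ ((x ^ n) v) := fun v => Submodule.mem_iInf _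
  have cW : IsClosed (W : Set H) := by
    rw [show (W : Set H) = ⋂ n : ℕ, (x ^ n) ⁻¹' (IS (GG M J) ξ : Set H) from
      Set.ext fun v => by rw [Set.mem_iInter]; exact mW v]
    exact isClosed_iInter fun n => (IS_closed h).preimage (x ^ n).continuous
  have := cW.completeSpace_coe
  have ξW : ξ ∈ W := (mW ξ).2 fun n => by
    induction n with
    | zero => exact inv_self
    | succ n ih => rw [pow_succ]; exact inv_mul h (pow_mem hx n) hx e ih hi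
  have xW : (1 - W.starProjection) * x * W.starProjection = 0 := by
    ext v
    have : x (W.starProjection v) ∈ W := (mW _).2 fun n => by
      have := (mW _).1 (W.starProjection_apply_mem v) (n + 1)
      rwa [pow_succ] at this
    simp [Submodule.starProjection_eq_self_iff.2 this]
  have cP := p1 _ (cy _ (comm_of_ann isStarProjection_starProjection xW (xs.symm ▸ xW)))
  have pI : Inv (GG M J) ξ (p ξ) := by
    have a1 := congr($cP ξ)
    rw [mul_apply_eq_comp, mul_apply_eq_comp, Submodule.starProjection_eq_self_iff.2 ξW] at a1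
    simpa using (mW _).1 (a1 ▸ W.starProjection_apply_mem (p ξ)) 0
  refine ⟨c, sub_eq_zero.1 (hy.symm.trans ?_)⟩
  rcases h2 H M ξ U J h hO p pM hp pJ pI with rfl | rfl
  · exact neg_eq_zero.1 (zero_of_pos h (neg_mem yM) (by simpa using p3) (by simpa using y0))
  · exact zero_of_pos h yM (by simpa using p2) y0

theorem std (hI : IsoStmt.{u}) (hK : LinkStmt.{u}) (hO : OffStmt.{u}) (h1 : OneStmt.{u})
    (h2 : TwoStmt.{u}) (h : Pk M ξ U J Ψ) (ξ1 : ‖ξ‖ = 1) (hM : IsFactor M)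
    (hS : ∀ t : ℝ, 0 < t → (t : ℂ) ∈ Sinv M) {b : Op H} (hb : b ∈ M)
    (hi : Inv (GG M J) ξ (b ξ)) : ∃ c : ℂ, b = c • 1 := by
  have iso := hI H M ξ hM (fun x hx e => h.toMod0.sep hx (zero_mem _) e) (by
    simpa using hS 4 (by norm_num))
  have off := hO H M ξ U J Ψ h hM fun e eM he e0 eJ μ δ μ0 δ0 => by
    obtain ⟨s, sM, s1, rfl⟩ := iso e eM he e0
    exact hK H M ξ U J Ψ h ξ1 s sM s1 eJ μ δ μ0 δ0 (hS _ (by positivity))
  have e1 := h1 H M ξ U J Ψ h ξ1 b hb hi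
  have e2 : J (b ξ) = star b ξ := by rw [← e1, h.JJ]
  have hi' : Inv (GG M J) ξ (star b ξ) := e2 ▸ On.inv_J h.toMod hi
  obtain ⟨c, hc⟩ := sa h2 h.toMod ξ1 off (add_mem hb (star_mem hb))
    (by rw [star_add, star_star, add_comm]) (by rw [add_apply, h.Jadd, e1, e2, add_comm])
    ((IS _ ξ).add_mem hi hi')
  obtain ⟨d, hd⟩ := sa h2 h.toMod ξ1 off (smulM I (sub_mem hb (star_mem hb)))
    (by rw [star_smul, star_sub, star_star, ← neg_sub, smul_neg, ← neg_smul]; simp)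
    (by rw [smul_apply, sub_apply, h.Jsmul, h.toMod0.Jsub, e1, e2, conj_I, neg_smul, ← smul_neg,
      neg_sub]) ((IS _ ξ).smul_mem I ((IS _ ξ).sub_mem hi hi'))
  refine ⟨(c - I * d) / 2, ?_⟩
  have : b = (1 / 2 : ℂ) • ((b + star b) - I • I • (b - star b)) := by
    rw [smul_smul, I_mul_I]; module
  rw [this, hc, hd]
  module

end Mn

theorem main (hG : GnsStmt.{u}) (hP : PkStmt.{u}) (hI : IsoStmt.{u}) (hK : LinkStmt.{u})
    (hO : OffStmt.{u}) (h1 : OneStmt.{u}) (h2 : TwoStmt.{u}) {H : Type u} [NormedAddCommGroup H]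
    [InnerProductSpace ℂ H] [CompleteSpace H] (M : VonNeumannAlgebra H) (hM : IsFactor M)
    (hS : ∀ t : ℝ, 0 < t → (t : ℂ) ∈ Sinv M) (φ : (H →L[ℂ] H) → ℂ) (hφ : FNS M φ) :
    Bic M φ = {a | ∃ c : ℂ, a = c • 1} := by
  refine Set.ext fun a => ⟨fun ⟨aM, ha⟩ => ?_, ?_⟩
  swap
  · rintro ⟨c, rfl⟩
    exact ⟨smulM c (one_mem _), fun w _ v => by simp⟩
  obtain ⟨K, _, _, _, N, Ω, π, Ω1, c1, c2, hN, πn, πφ, πS, πl⟩ := hG H M φ hφ
  obtain ⟨U, J, Ψ, h⟩ := hP K N Ω c1 c2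
  have inj : ∀ x y, π x = π y → x = y := fun x y e => by
    rw [← sub_eq_zero, ← norm_eq_zero, ← πn, map_sub, e, sub_self, norm_zero]
  have sc : ∀ (x : MA M) (c : ℂ), π x = c • 1 → x.1 = c • 1 := fun x c e =>
    congrArg Subtype.val (inj x (c • 1) (by rw [e, map_smul, map_one]))
  have hF : IsFactor N := fun z z1 z2 => by
    obtain ⟨x, rfl⟩ := (hN z).1 z1
    obtain ⟨c, hc⟩ := hM x.1 x.2 (VonNeumannAlgebra.mem_commutant_iff.2 fun y hy =>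
      congrArg Subtype.val (inj (⟨y, hy⟩ * x) (x * ⟨y, hy⟩) (by
        rw [map_mul, map_mul]; exact commM ((hN _).2 ⟨_, rfl⟩) z2)))
    exact ⟨c, by rw [show x = c • 1 from Subtype.ext hc, map_smul, map_one]⟩
  have bN := (hN _).2 ⟨⟨a, aM⟩, rfl⟩
  obtain ⟨b, hb⟩ : ∃ b, b = π ⟨a, aM⟩ := ⟨_, rfl⟩
  rw [← hb] at bN
  suffices hi : Inv (GG N J) Ω (b Ω) by
    obtain ⟨c, hc⟩ := Mn.std hI hK hO h1 h2 h Ω1 hF (fun t ht => πS (hS t ht)) bN hi
    exact ⟨c, sc ⟨a, aM⟩ c (hb ▸ hc)⟩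
  intro ε ε0
  by_contra! hc
  choose g hg hg' using fun n : ℕ => hc (n + 1) (by positivity)
  choose u u1 u2 u3 u4 using fun n => Mn.gg h.toMod (hg n)
  choose w hw using fun n => (hN _).1 (u2 n)
  have c := fun {a b : Op K} (ha : a ∈ N) (hb : b ∈ N) v =>
    congr($(commM ha (h.toMod.jj_mem hb)) v)
  simp only [mul_apply_eq_comp] at c
  have w1 : ∀ n, ‖w n‖ ≤ 1 := fun n => by rw [← πn, hw]; exact unit_le1 (u1 n)
  have d0 : Tendsto (fun n => ‖g n Ω - Ω‖) atTop (𝓝 0) := by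
    have a1 : Tendsto (fun n => ‖g n Ω - Ω‖ ^ 2) atTop (𝓝 0) := by
      have a0 := (tendsto_one_div_add_atTop_nhds_zero_nat (𝕜 := ℝ)).const_mul ((2 * ‖b Ω‖) ^ 2)
      rw [mul_zero] at a0
      refine squeeze_zero (fun n => sq_nonneg _) (fun n => ?_) a0
      have a2 : ‖g n (b Ω) - b Ω‖ ≤ 2 * ‖b Ω‖ :=
        (norm_sub_le _ _).trans_eq (by rw [Mn.un _ (u4 n ▸ mul_mem (u1 n) (u3 n))]; ring)
      have a3 := pow_le_pow_left₀ (norm_nonneg _) a2 2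
      rw [mul_one_div, le_div_iff₀ (by positivity)]
      linarith [hg' n]
    simpa using a1.sqrt
  have ac : ACent M φ fun n => (w n).1 := ⟨fun n => (w n).2, ⟨1, w1⟩, fun δ δ0 => by
    filter_upwards [d0.eventually (gt_mem_nhds (half_pos δ0))] with n hn y hy
    have e1 := πφ (⟨y, hy⟩ * w n)
    have e2 := πφ (w n * ⟨y, hy⟩)
    have e3 := πn ⟨y, hy⟩
    have yN := (hN _).2 ⟨⟨y, hy⟩, rfl⟩
    rw [map_mul, hw] at e1 e2
    change φ (y * _) = _ at e1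
    change φ (_ * y) = _ at e2
    change _ = ‖y‖ at e3
    obtain ⟨y', hy'⟩ : ∃ y', y' = π ⟨y, hy⟩ := ⟨_, rfl⟩
    rw [← hy'] at e1 e2 e3 yN
    have e4 : u n Ω = star (h.toMod0.jj (u n)) Ω + star (h.toMod0.jj (u n)) (g n Ω - Ω) := by
      rw [← map_add, add_sub_cancel, u4, mul_apply_eq_comp, c (u2 n) (u2 n), ← mul_apply_eq_comp,
        (u3 n).1, one_apply_eq_self]
    have e5 : star (u n) Ω = h.toMod0.jj (u n) Ω - star (u n) (g n Ω - Ω) := by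
      rw [map_sub, u4, mul_apply_eq_comp, ← mul_apply_eq_comp (star _), (u1 n).1, one_apply_eq_self,
        sub_sub_cancel]
    have e6 : y' (star (h.toMod0.jj (u n)) Ω) = star (h.toMod0.jj (u n)) (y' Ω) := by
      rw [← h.toMod0.jj_star]; exact c yN (star_mem (u2 n)) Ω
    rw [e1, e2, mul_apply_eq_comp, mul_apply_eq_comp, ← inner_star_l (u n), e5, e4, map_add,
      inner_add_right, e6, inner_star_r, inner_sub_left, add_sub_sub_cancel]
    have b1 := (norm_inner_le_norm (𝕜 := ℂ) Ω _).trans (mul_le_mul_of_nonneg_left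
      (y'.le_opNorm (star (h.toMod0.jj (u n)) (g n Ω - Ω))) (norm_nonneg _))
    have b2 := (norm_inner_le_norm (𝕜 := ℂ) (star (u n) (g n Ω - Ω)) _).trans
      (mul_le_mul_of_nonneg_left (y'.le_opNorm Ω) (norm_nonneg _))
    rw [Mn.un _ (Unitary.star_mem (u3 n)), Ω1, e3] at b1
    rw [Mn.un _ (Unitary.star_mem (u1 n)), Ω1, e3] at b2
    refine (norm_add_le_of_le b1 b2).trans ?_
    nlinarith [norm_nonneg y]⟩
  have t1 := πl (fun n => ⟨a, aM⟩ * w n - w n * ⟨a, aM⟩) (2 * ‖a‖) (fun n => by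
    refine (norm_sub_le_of_le ((norm_mul_le _ _).trans (mul_le_of_le_one_right (norm_nonneg _)
      (w1 n))) ((norm_mul_le _ _).trans (mul_le_of_le_one_left (norm_nonneg _) (w1 n)))).trans_eq ?_
    rw [two_mul]; rfl) (ha _ ac)
  simp only [map_sub, map_mul, hw, ← hb] at t1
  have t2 : Tendsto (fun n => ‖g n (b Ω) - b Ω‖) atTop (𝓝 0) := by
    refine squeeze_zero (fun n => norm_nonneg _) (fun n => ?_) (by
      simpa using t1.norm.add (d0.const_mul ‖b‖))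
    have : g n (b Ω) - b Ω = b (g n Ω - Ω) - h.toMod0.jj (u n) (b (u n Ω) - u n (b Ω)) := by
      simp only [u4, mul_apply_eq_comp, map_sub, c (u2 n) (u2 n), c bN (u2 n)]
      abel
    rw [this, add_comm]
    exact norm_sub_le_of_le (b.le_opNorm _) (Mn.un _ (u3 n)).le
  have t3 := (t2.pow 2).eventually (gt_mem_nhds (by simpa using ε0))
  obtain ⟨n, hn⟩ := t3.exists
  have := hg' n
  have : 0 ≤ ((n : ℝ) + 1) * ‖g n Ω - Ω‖ ^ 2 := by positivity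
  linarith

end Vale.Agent.P132
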