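import Vale.Agent.P132.Spec

/-! Module L: approximately central elements between two projections of the centralizer. -/

open Finset Vale.Agent.P104 Vale.Agent.P085 Vale.Agent.P096 Filter Topology MeasureTheory Complex
open scoped InnerProductSpace BoundedContinuousFunction

set_option linter.unusedSectionVars false

namespace Vale.Agent.P132

universe u

namespace Of

variable {H : Type u} [NormedAddCommGroup H] [InnerProductSpace ℂ H] [CompleteSpace H]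
  {M : VonNeumannAlgebra H} {ξ : H} {U : ℝ → Op H} {J : H → H}

lemma comm_U (h : Mod M ξ U J) {e : Op H} (he : e ∈ M) (hs : star e = e) (hJ : J (e ξ) = e ξ)
    (t : ℝ) : e * U t = U t * e := by
  have h1 := h.lip e he 0 t
  rw [hs, hJ] at h1
  simp only [ofReal_zero, mul_zero, exp_zero, one_smul, zero_div, neg_zero, sub_self, norm_zero,
    norm_le_zero_iff, sub_eq_zero] at h1
  have h2 : U t * e * U (-t) = e := h.toMod0.sep (h.UM t e he) he (by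
    rw [mul_apply_eq_comp, mul_apply_eq_comp, h.Uξ, h1])
  rw [← congrArg (· * U t) h2, mul_assoc, h.toMod0.Uneg', mul_one]

lemma J_of_comm (h : Mod M ξ U J) {x : Op H} (hx : x ∈ M) (hc : ∀ t, x * U t = U t * x) :
    J (star x ξ) = x ξ :=
  (h.kms (fun _ => x ξ) (differentiable_const _) (fun t _ => by
    rw [← mul_apply_eq_comp, ← hc, mul_apply_eq_comp, h.Uξ]) x hx rfl).symm

lemma exists_link (hF : IsFactor M) {e f : Op H} (he : e ∈ M) (e0 : e ≠ 0) (f0 : f ≠ 0) :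
    ∃ x ∈ M, f * x * e ≠ 0 := by
  by_contra hc
  push Not at hc
  obtain ⟨z, hz, z1, z2⟩ := exists_cs he
  obtain ⟨c, rfl⟩ := hF z hz.mem (VonNeumannAlgebra.mem_commutant_iff.2 hz.comm)
  have h1 := z2 f hc
  rw [mul_smul_comm, mul_one, smul_eq_zero, or_iff_left f0] at h1
  rw [h1, zero_smul, zero_mul] at z1
  exact e0 z1.symm

/-- a narrow window piece -/
lemma piece {Ψ : (ℝ →ᵇ ℂ) →⋆ₐ[ℂ] Op H} {C : ℝ} (g : Gw M ξ U J Ψ C) {e f x0 : Op H} (hx : x0 ∈ M)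
    (h0 : x0 ξ ≠ 0) (he : ∀ t, e * U t = U t * e) (hf : ∀ t, f * U t = U t * f)
    (hfe : f * x0 * e = x0) {δ : ℝ} (hδ : 0 < δ) :
    ∃ x ∈ M, ∃ x' ∈ M, ∃ l : ℝ, 0 < l ∧ f * x * e = x ∧ f * x' * e = x' ∧ J (star x ξ) = x' ξ ∧
      ‖(x - (l : ℂ) • x') ξ‖ ^ 2 < δ ^ 2 * ‖x ξ‖ ^ 2 := by
  obtain ⟨B, T, B1, B2, B3⟩ := g.cut _ h0
  have p1 : 0 < ‖Ψ B (x0 ξ)‖ := norm_pos_iff.2 B3
  have C0 : 0 < C := one_pos.trans_le g.C1
  obtain ⟨d, d0, d1, d2⟩ : ∃ d : ℝ, 0 < d ∧ d ≤ 1 ∧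
      C * d ^ 2 * ‖x0 ξ‖ ^ 2 < δ ^ 2 * (‖Ψ B (x0 ξ)‖ ^ 2 / 2) := by
    have h1 : Tendsto (fun d : ℝ => C * d ^ 2 * ‖x0 ξ‖ ^ 2) (𝓝[>] 0) (𝓝 0) :=
      ((show Continuous fun d : ℝ => C * d ^ 2 * ‖x0 ξ‖ ^ 2 by fun_prop).tendsto' 0 0
        (by simp)).mono_left nhdsWithin_le_nhds
    obtain ⟨d, h2, h3⟩ := ((h1.eventually (gt_mem_nhds
      (by positivity : 0 < δ ^ 2 * (‖Ψ B (x0 ξ)‖ ^ 2 / 2)))).and (Ioc_mem_nhdsGT one_pos)).exists
    exact ⟨d, h3.1, h3.2, h2⟩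
  have a1 := g.frame d d0 ⌊-T / d⌋ ⌈T / d⌉ B B1 (fun r hr => ⟨
    ((le_div_iff₀ d0).1 (Int.floor_le _)).trans (abs_le.1 (B2 r hr)).1,
    (abs_le.1 (B2 r hr)).2.trans ((div_le_iff₀ d0).1 (Int.le_ceil _))⟩) (x0 ξ)
  have a2 := g.err d d0 d1 (Icc ⌊-T / d⌋ ⌈T / d⌉) x0 hx
  simp only [← g.left d _ d0 x0 hx] at a1
  obtain ⟨j, -, hj⟩ := exists_lt_of_sum_lt (s := Icc ⌊-T / d⌋ ⌈T / d⌉)
    (g := fun j : ℤ => δ ^ 2 * ‖sm U d (j * d) x0 ξ‖ ^ 2) (a2.trans_lt (d2.trans_le (by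
      rw [← mul_sum]
      exact mul_le_mul_of_nonneg_left (by linarith) (sq_nonneg _))))
  have a3 := g.shift d (j * d) d0 x0 hx
  refine ⟨_, (g.mem d (j * d) d0 x0 hx).1, _, smulM ((Real.exp (j * d / 2 + d ^ 2 / 8) : ℝ) : ℂ)
    (g.mem d (j * d + d ^ 2 / 2) d0 x0 hx).1, _, Real.exp_pos (-(j * d / 2)), ?_, ?_, a3, ?_⟩
  · rw [← g.bim d _ d0 x0 f e hf he, hfe]
  · rw [mul_smul_comm, smul_mul_assoc, ← g.bim d _ d0 x0 f e hf he, hfe]
  · rwa [a3] at hj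

/-- the modular average of a self-adjoint element -/
lemma mean (h : Mod M ξ U J) {μ : (ℝ → Op H) → Op H} (hμ : Mean μ) (hA : Avg μ) {Y e : Op H}
    (hY : Y ∈ M) (hs : star Y = Y) (he : ∀ t, e * U t = U t * e) (hYe : Y * e = Y) :
    ∃ T ∈ M, star T = T ∧ (∀ t, T * U t = U t * T) ∧ T * e = T ∧ qf T ξ ≤ qf Y ξ ∧
      ∀ w c, qf T w < c → ∃ t, qf Y (U t w) < c := by
  have hb : ∃ C, ∀ t, ‖U t * Y * U (-t)‖ ≤ C := ⟨_, (h.toMod0.sc Y).bd⟩
  have hst : ∀ t, star (U t * Y * U (-t)) = U t * Y * U (-t) := fun t => by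
    rw [star_mul, star_mul, h.Ustar, h.Ustar, hs, neg_neg, mul_assoc]
  have hS : SS fun t => U t * Y * U (-t) := ⟨_, h.toMod0.sc Y, by simpa only [hst] using h.toMod0.sc Y⟩
  have hq : ∀ t w, qf (U t * Y * U (-t)) w = qf Y (U (-t) w) := fun t w => by
    rw [qf_conj, h.Ustar, neg_neg]
  have cv := hA.cv _ hS
  refine ⟨μ fun t => U t * Y * U (-t), memM fun y hy => ?_, ?_, fun s => ?_, ?_, ?_,
    fun w c hc => ?_⟩
  · have a := hμ.mul _ y 1 hb
    have b := hμ.mul _ 1 y hb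
    simp only [mul_one, one_mul] at a b
    rw [← a, ← b]
    simp only [commM (h.UM _ Y hY) hy]
  · rw [← hμ.star _ hb]
    simp only [hst]
  · have a := hμ.mul _ (U s) (U (-s)) hb
    have b := hμ.inv _ s hb
    have c : ∀ t, U s * (U t * Y * U (-t)) * U (-s) = U (s + t) * Y * U (-(s + t)) := fun t => by
      rw [neg_add_rev, h.Uadd, h.Uadd]
      simp only [mul_assoc]
    simp only [c] at a
    rw [b] at a
    rw [congrArg (· * U s) a, mul_assoc, h.toMod0.Uneg', mul_one]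
  · have a := hμ.mul _ 1 e hb
    simp only [one_mul, mul_assoc, ← he] at a
    simp only [← mul_assoc, mul_assoc _ Y e, hYe] at a
    exact a.symm
  · have := cv ξ ξ 0 0 (qf Y ξ) (by
      rintro _ ⟨t, rfl⟩
      have := hq t ξ
      rw [h.Uξ] at this
      simpa [qf] using this.le)
    simpa [qf] using this
  · by_contra hn
    push Not at hn
    have := cv w (-w) 0 0 (-c) (by
      rintro _ ⟨t, rfl⟩
      have := (hn (-t)).trans_eq (hq t w).symm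
      simpa [qf] using this)
    simp only [inner_neg_left, neg_re, inner_zero_left, zero_re, add_zero, neg_le_neg_iff] at this
    exact hc.not_ge this

/-- a corner of the centralizer on which the average is negative -/
lemma corner (h : Mod M ξ U J) {T e : Op H} (hT : T ∈ M) (hs : star T = T) (he : star e = e)
    (hU : ∀ t, T * U t = U t * T) (hTe : T * e = T) {c : ℝ} (hc : 0 < c)
    (h0 : qf T ξ < -c * ‖ξ‖ ^ 2) : ∃ p ∈ M, IsStarProjection p ∧ p ≠ 0 ∧ J (p ξ) = p ξ ∧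
      p * e = p ∧ ∀ w, p w = w → qf T w ≤ -c * ‖w‖ ^ 2 := by
  have hq : ∀ w, qf (T + (c : ℂ) • 1) w = qf T w + c * ‖w‖ ^ 2 := fun w => by
    rw [← qf_one]
    simp only [qf, _root_.add_apply, _root_.smul_apply, inner_add_right, inner_smul_right, add_re,
      re_ofReal_mul]
  obtain ⟨q, q1, q2, q3, q4⟩ := exists_spec (a := T + (c : ℂ) • 1) (by
    rw [IsSelfAdjoint, star_add, hs, star_smul, star_one, RCLike.star_def, conj_ofReal])
  have q5 : ∀ y, T * y = y * T → (1 - q) * y = y * (1 - q) := fun y hy => by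
    rw [sub_mul, mul_sub, one_mul, mul_one, q2 y (by
      rw [add_mul, mul_add, hy, smul_mul_assoc, mul_smul_comm, one_mul, mul_one])]
  have pM : 1 - q ∈ M := memM fun y hy => (q5 y (commM hT hy)).symm
  have q6 : ∀ w, (1 - q) w = w → qf T w ≤ -c * ‖w‖ ^ 2 := fun w hw => by
    have := qf_nonneg q4 w
    rw [qf, _root_.neg_apply, mul_apply_eq_comp, hw, inner_neg_right, neg_re, ← qf, hq] at this
    linarith
  refine ⟨1 - q, pM, q1.one_sub, fun e0 => ?_, ?_, ?_, q6⟩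
  · rw [← sub_eq_zero.1 e0, mul_one] at q3
    linarith [qf_nonneg q3 ξ, hq ξ]
  · have := J_of_comm h pM fun t => q5 _ (hU t)
    rwa [q1.one_sub.isSelfAdjoint.star_eq] at this
  · have a1 : e * T = T := by simpa only [star_mul, hs, he] using congrArg star hTe
    have a2 := q5 e (hTe.trans a1.symm)
    rw [← sub_eq_zero, ← neg_eq_zero, neg_sub, ← mul_one_sub]
    ext v
    have a3 := q6 (((1 - q) * (1 - e)) v) (by
      rw [← mul_apply_eq_comp, ← mul_assoc, q1.one_sub.isIdempotentElem.eq])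
    have a4 : T * ((1 - q) * (1 - e)) = 0 := by
      rw [← mul_assoc, ← q5 T rfl, mul_assoc, mul_one_sub, hTe, sub_self, mul_zero]
    rw [qf, ← mul_apply_eq_comp T, a4, _root_.zero_apply, inner_zero_right, zero_re] at a3
    have : ‖((1 - q) * (1 - e)) v‖ ^ 2 ≤ 0 := by nlinarith
    simpa using this

end Of

open Of in
theorem offStmt (h1 : GwStmt.{u}) (h2 : AvgStmt.{u}) (h3 : MeanStmt.{u}) : OffStmt.{u} := by
  intro H _ _ _ M ξ U J Ψ hP hF hC e eM f fM he hf e0 f0 Je Jf δ hδ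
  obtain ⟨C, g⟩ := h1
  obtain ⟨μ, hμ⟩ := h3 H ℝ
  have h := hP.toMod
  have es := he.isSelfAdjoint.star_eq
  have eU := comm_U h eM es Je
  have sep : ∀ x ∈ M, x ≠ 0 → x ξ ≠ 0 := fun x hx x0 e =>
    x0 (h.toMod0.sep hx (zero_mem _) (e.trans rfl))
  obtain ⟨x0, x0M, x00⟩ := exists_link hF eM e0 f0
  have xM' := mul_mem (mul_mem fM x0M) eM
  obtain ⟨x, xM, x', x'M, l, l0, fxe, fxe', hJ, hlt⟩ := piece (g H M ξ U J Ψ hP) xM'
    (sep _ xM' x00) eU (comm_U h fM hf.isSelfAdjoint.star_eq Jf) (by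
      simp only [← mul_assoc, hf.isIdempotentElem.eq]
      rw [mul_assoc _ e, he.isIdempotentElem.eq]) (half_pos hδ)
  have xe : ∀ {a : Op H}, f * a * e = a → a * e = a := fun ha => by
    rw [← ha, mul_assoc _ e, he.isIdempotentElem.eq]
  set x1 := x - (l : ℂ) • x' with hx1
  have x1M : x1 ∈ M := sub_mem xM (smulM _ x'M)
  have x1e : x1 * e = x1 := by rw [hx1, sub_mul, smul_mul_assoc, xe fxe, xe fxe']
  have hq : ∀ w, qf (star x1 * x1 - (((δ / 2) ^ 2 : ℝ) : ℂ) • (star x * x)) w =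
      ‖x1 w‖ ^ 2 - (δ / 2) ^ 2 * ‖x w‖ ^ 2 := fun w => by
    rw [normsq_eq, normsq_eq, qf, _root_.sub_apply, _root_.smul_apply, inner_sub_right,
      inner_smul_right, sub_re, re_ofReal_mul]
  obtain ⟨T, TM, T1, T2, T3, T4, T5⟩ := mean h hμ ((h2 H).1 μ hμ)
    (sub_mem (mul_mem (star_mem x1M) x1M) (smulM (((δ / 2) ^ 2 : ℝ) : ℂ) (mul_mem (star_mem xM) xM)))
    (by rw [star_sub, star_smul, star_mul, star_mul, star_star, star_star, RCLike.star_def,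
      conj_ofReal]) eU (by rw [sub_mul, smul_mul_assoc, mul_assoc, mul_assoc, x1e, xe fxe])
  simp only [hq] at T4 T5
  obtain ⟨c, c0, c1⟩ : ∃ c : ℝ, 0 < c ∧ qf T ξ < -c * ‖ξ‖ ^ 2 := by
    refine ⟨-qf T ξ / (‖ξ‖ ^ 2 + 1), div_pos (by linarith) (by positivity), ?_⟩
    rw [neg_div, neg_neg, div_mul_eq_mul_div, lt_div_iff₀ (by positivity)]
    nlinarith
  obtain ⟨p, pM, p1, p0, p2, p3, p4⟩ := corner h TM T1 es T2 T3 c0 c1
  obtain ⟨δ', d0, d1⟩ : ∃ δ' : ℝ, 0 < δ' ∧ (‖x'‖ * δ') ^ 2 ≤ c / 2 := by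
    refine ⟨√(c / 2) / (‖x'‖ + 1), by positivity, ?_⟩
    rw [← Real.sq_sqrt (half_pos c0).le]
    refine pow_le_pow_left₀ (by positivity) ?_ 2
    rw [Real.sqrt_sq (Real.sqrt_nonneg _), ← mul_div_assoc, div_le_iff₀ (by positivity)]
    nlinarith [Real.sqrt_nonneg (c / 2)]
  obtain ⟨y, yM, y0, y1, y2⟩ := hC p pM p1 p0 p2 l δ' l0 d0
  have w0 : 0 < ‖y ξ‖ ^ 2 := pow_pos (norm_pos_iff.2 (sep y yM y0)) 2
  have py : p * y = y := by rw [← y1, ← mul_assoc, ← mul_assoc, p1.isIdempotentElem.eq]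
  obtain ⟨t, ht⟩ := T5 (y ξ) (-(c / 2) * ‖y ξ‖ ^ 2)
    ((p4 _ (by rw [← mul_apply_eq_comp, py])).trans_lt (by nlinarith))
  have ytM := h.UM t y yM
  have zξ : (x * (U t * y * U (-t))) ξ = x (U t (y ξ)) := by
    simp only [mul_apply_eq_comp, h.Uξ]
  have Jz : J (star (x * (U t * y * U (-t))) ξ) = x' (U t (J (star y ξ))) := by
    have a := congr($(commM x'M (h.jj_mem (star_mem ytM))) ξ)
    rw [mul_apply_eq_comp, mul_apply_eq_comp, ← hJ, Mod0.jj_apply, Mod0.jj_apply, h.JJ, h.Jξ] at a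
    rw [star_mul, mul_apply_eq_comp, ← a, star_mul, star_mul, h.Ustar, h.Ustar, neg_neg,
      mul_apply_eq_comp, mul_apply_eq_comp, h.Uξ, h.JU]
  refine ⟨x * (U t * y * U (-t)), mul_mem xM ytM, fun z0 => ?_, ?_, ?_⟩
  · rw [← zξ, z0, _root_.zero_apply, norm_zero] at ht
    nlinarith [sq_nonneg ‖x1 (U t (y ξ))‖]
  · have ye : y * e = y := by rw [← y1, mul_assoc _ p, p3]
    have fx : f * x = x := by rw [← fxe, ← mul_assoc, ← mul_assoc, hf.isIdempotentElem.eq]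
    rw [← mul_assoc f, fx, mul_assoc, mul_assoc _ _ e, ← eU, ← mul_assoc _ e, mul_assoc _ y, ye]
  · rw [zξ, Jz]
    have e1 : x' (U t (J (star y ξ))) - x (U t (y ξ)) =
        x' (U t (J (star y ξ) - (l : ℂ) • y ξ)) - x1 (U t (y ξ)) := by
      simp only [hx1, map_sub, map_smul, _root_.sub_apply, _root_.smul_apply]
      abel
    have e2 : ‖x' (U t (J (star y ξ) - (l : ℂ) • y ξ))‖ ≤ ‖x'‖ * δ' * ‖y ξ‖ := by
      rw [mul_assoc]
      refine (x'.le_opNorm _).trans (mul_le_mul_of_nonneg_left ?_ (norm_nonneg _))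
      rwa [h.toMod0.Unorm]
    have e3 := pow_le_pow_left₀ (norm_nonneg _) e2 2
    have e4 := pow_le_pow_left₀ (norm_nonneg _) (norm_sub_le
      (x' (U t (J (star y ξ) - (l : ℂ) • y ξ))) (x1 (U t (y ξ)))) 2
    have e5 := mul_le_mul_of_nonneg_right d1 w0.le
    rw [e1]
    refine le_of_sq_le_sq ?_ (by positivity)
    rw [mul_pow] at e3
    nlinarith [sq_nonneg (‖x' (U t (J (star y ξ) - (l : ℂ) • y ξ))‖ - ‖x1 (U t (y ξ))‖),
      sq_nonneg (δ * ‖x (U t (y ξ))‖)]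

end Vale.Agent.P132
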