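import Vale.Agent.P132.Spec

/-! The bicentralizer is contained in the centralizer. -/

open Finset Vale.Agent.P104 Vale.Agent.P085 Vale.Agent.P096 Filter Topology MeasureTheory Complex
open scoped InnerProductSpace BoundedContinuousFunction

set_option linter.unusedSectionVars false

namespace Vale.Agent.P132

universe u

namespace On

variable {H : Type u} [NormedAddCommGroup H] [InnerProductSpace ℂ H] [CompleteSpace H]
  {M : VonNeumannAlgebra H} {ξ : H} {U : ℝ → Op H} {J : H → H} {Ψ : (ℝ →ᵇ ℂ) →⋆ₐ[ℂ] Op H}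

lemma scU (h : Mod0 M ξ U J) : SC U 1 := ⟨h.Ucont, h.Ule⟩

lemma scU' (h : Mod0 M ξ U J) (x : Op H) : SC (fun t => U (-t) * x * U t) ‖x‖ :=
  ⟨fun v => by simpa [Function.comp_def] using ((h.sc x).cont v).comp continuous_neg, fun t => by
    simpa using (h.sc x).bd (-t)⟩

lemma jensen (h : Mod0 M ξ U J) {f : ℝ → ℝ} (f0 : ∀ t, 0 ≤ f t) (fi : Integrable f)
    (f1 : ∫ t, f t = 1) {g : ℝ → ℂ} (gi : Integrable g) (gf : ∀ t, ‖g t‖ = f t) {S : Op H}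
    (hS : star S = S) (v : H) : ‖S (wint g U v)‖ ^ 2 ≤
      (⟪v, wint (fun t => (f t : ℂ)) (fun t => U (-t) * (S * S) * U t) v⟫_ℂ).re := by
  have c : Continuous fun t => ‖S (U t v)‖ := (S.continuous.comp (h.Ucont v)).norm
  have b : ∀ t, ‖S (U t v)‖ ≤ ‖S‖ * ‖v‖ := fun t => by
    simpa [h.Unorm] using S.le_opNorm (U t v)
  have i1 : Integrable fun t => f t * ‖S (U t v)‖ :=
    fi.mul_bdd c.aestronglyMeasurable (.of_forall fun t => by simpa using b t)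
  have i2 : Integrable fun t => f t * ‖S (U t v)‖ ^ 2 :=
    fi.mul_bdd (c := (‖S‖ * ‖v‖) ^ 2) (c.pow 2).aestronglyMeasurable (.of_forall fun t => by
      rw [norm_pow, norm_norm]; gcongr; exact b t)
  have e1 : ‖S (wint g U v)‖ ≤ ∫ t, f t * ‖S (U t v)‖ := by
    rw [(scU h).apply gi, ← S.integral_comp_comm ((scU h).int gi v)]
    refine norm_integral_le_of_norm_le i1 (.of_forall fun t => ?_)
    rw [map_smul, norm_smul, gf]
  have e2 : (⟪v, wint (fun t => (f t : ℂ)) (fun t => U (-t) * (S * S) * U t) v⟫_ℂ).re =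
      ∫ t, f t * ‖S (U t v)‖ ^ 2 := by
    rw [(scU' h _).inner (k := fun t => (f t : ℂ)) fi.ofReal]
    have : ∀ t, (f t : ℂ) * ⟪v, (U (-t) * (S * S) * U t) v⟫_ℂ =
        ((f t * ‖S (U t v)‖ ^ 2 : ℝ) : ℂ) := fun t => by
      rw [← h.Ustar, mul_apply_eq_comp, mul_apply_eq_comp, inner_star_r, mul_apply_eq_comp,
        ← inner_star_l, hS, inner_self_eq_norm_sq_to_K]
      push_cast; rfl
    simp only [this]
    rw [integral_complex_ofReal, ofReal_re]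
  rw [e2]
  obtain ⟨c, hc⟩ : ∃ c, c = ∫ t, f t * ‖S (U t v)‖ := ⟨_, rfl⟩
  have e3 : 0 ≤ ∫ t, f t * (‖S (U t v)‖ - c) ^ 2 :=
    integral_nonneg fun t => mul_nonneg (f0 t) (sq_nonneg _)
  have e4 : ∀ t, f t * (‖S (U t v)‖ - c) ^ 2 =
      f t * ‖S (U t v)‖ ^ 2 - 2 * c * (f t * ‖S (U t v)‖) + c ^ 2 * f t := fun t => by ring
  simp only [e4] at e3
  rw [integral_add (by exact i2.sub (i1.const_mul _)) (fi.const_mul _),
    integral_sub i2 (i1.const_mul _), integral_const_mul, integral_const_mul, f1, ← hc] at e3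
  rw [← hc] at e1
  nlinarith [norm_nonneg (S (wint g U v))]

lemma real_gain {A W Z ε m α l c q₀ q γ : ℝ} (W0 : 0 ≤ W) (Z0 : 0 ≤ Z)
    (α0 : 0 < α) (c0 : 0 ≤ c) (c1 : c ≤ 1) (γ0 : 0 < γ) (γ1 : γ < 1)
    (hl : α * l ^ 2 ≤ γ) (hW : W ≤ c * A + ε) (hZ : Z ≤ l * A + ε)
    (h0 : A ^ 2 - α * (m ^ 2 + Z ^ 2) ≤ q₀) (h1 : c ^ 2 * q₀ ≤ 2 * q + 2 * ε ^ 2) :
    (1 - γ) / 8 * W ^ 2 - α * m ^ 2 - (2 + α * (2 / (1 - γ))) * ε ^ 2 ≤ q := by
  obtain ⟨β, hβ⟩ : ∃ β, β = (1 - γ) / 2 := ⟨_, rfl⟩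
  have β0 : 0 < β := by linarith
  have β1 : β < 1 := by linarith
  obtain ⟨b, hb⟩ : ∃ b, b = 2 / (1 - γ) := ⟨_, rfl⟩
  have e : β * b = 1 := by
    have : 1 - γ ≠ 0 := by linarith
    rw [hβ, hb]; field_simp
  have b0 : 0 < b := by rw [hb]; exact div_pos two_pos (by linarith)
  have b1 : 1 ≤ b := by nlinarith
  have a1 : Z ^ 2 ≤ (1 + β) * (l * A) ^ 2 + (1 + b) * ε ^ 2 := by
    have h3 : Z ^ 2 ≤ (l * A + ε) ^ 2 := by gcongr
    have h2 : 0 ≤ b * (β * (l * A) - ε) ^ 2 := by positivity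
    have h4 : b * (β * (l * A) - ε) ^ 2 = (β * b) * (β * (l * A) ^ 2) - (β * b) * (2 * (l * A) * ε)
      + b * ε ^ 2 := by ring
    rw [h4, e] at h2
    linarith [add_sq (l * A) ε]
  have a2 : α * Z ^ 2 ≤ (1 - β) * A ^ 2 + α * ((1 + b) * ε ^ 2) := by
    have h3 : α * l ^ 2 * A ^ 2 ≤ γ * A ^ 2 := by gcongr
    have h4 : (1 + β) * γ ≤ 1 - β := by nlinarith
    have h5 := mul_le_mul_of_nonneg_left h3 (show 0 ≤ 1 + β by linarith)
    have h6 := mul_le_mul_of_nonneg_right h4 (sq_nonneg A)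
    have h7 := mul_le_mul_of_nonneg_left a1 α0.le
    linarith
  have c2 : c ^ 2 ≤ 1 := pow_le_one₀ c0 c1
  have a3 : β * (c * A) ^ 2 - α * m ^ 2 - α * ((1 + b) * ε ^ 2) ≤ c ^ 2 * q₀ := by
    have h6 : β * A ^ 2 - (α * m ^ 2 + α * ((1 + b) * ε ^ 2)) ≤ q₀ := by linarith
    have h7 := mul_le_mul_of_nonneg_left h6 (sq_nonneg c)
    have h8 : c ^ 2 * (α * m ^ 2 + α * ((1 + b) * ε ^ 2)) ≤
        α * m ^ 2 + α * ((1 + b) * ε ^ 2) := mul_le_of_le_one_left (by positivity) c2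
    linarith
  have a4 : W ^ 2 ≤ 2 * (c * A) ^ 2 + 2 * ε ^ 2 := by
    have : W ^ 2 ≤ (c * A + ε) ^ 2 := by gcongr
    linarith [sq_nonneg (c * A - ε), add_sq (c * A) ε, sub_sq (c * A) ε]
  rw [← hb, show (1 - γ) / 8 = β / 4 by linarith]
  have a6 := mul_le_mul_of_nonneg_left a4 β0.le
  have a7 : β * ε ^ 2 ≤ ε ^ 2 := mul_le_of_le_one_left (by positivity) β1.le
  have a8 : 1 * (α * ε ^ 2) ≤ b * (α * ε ^ 2) := by gcongr
  have a9 : 0 ≤ α * m ^ 2 := by positivity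
  have a10 := sq_nonneg ε
  linarith

lemma card_le {k₀ T δ : ℝ} (k0 : 0 < k₀) (kT : k₀ ≤ T) (δ0 : 0 < δ) (δ1 : δ ≤ 1) :
    ((Icc ⌊k₀ / δ⌋ ⌈T / δ⌉).card : ℝ) * δ ≤ T + 3 := by
  obtain ⟨s, hs⟩ : ∃ s : Finset ℤ, s = Icc ⌊k₀ / δ⌋ ⌈T / δ⌉ := ⟨_, rfl⟩
  rw [← hs]
  have a1 := Int.lt_floor_add_one (k₀ / δ)
  have a2 := Int.ceil_lt_add_one (T / δ)
  have a3 : (0 : ℝ) < k₀ / δ := by positivity
  have a4 : ⌊k₀ / δ⌋ ≤ ⌈T / δ⌉ + 1 := by
    have := (Int.floor_le (k₀ / δ)).trans ((div_le_div_of_nonneg_right kT δ0.le).trans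
      (Int.le_ceil (T / δ)))
    have : ⌊k₀ / δ⌋ ≤ ⌈T / δ⌉ := by exact_mod_cast this
    linarith
  have a5 : ((s.card : ℤ) : ℝ) = ((⌈T / δ⌉ + 1 - ⌊k₀ / δ⌋ : ℤ) : ℝ) := by
    rw [hs, Int.card_Icc_of_le _ _ a4]
  push_cast at a5
  have a6 : (s.card : ℝ) ≤ T / δ + 3 := by linarith
  have a7 := mul_le_mul_of_nonneg_right a6 δ0.le
  rw [add_mul, div_mul_cancel₀ _ δ0.ne'] at a7
  linarith

lemma nrm_gk {δ k : ℝ} {C : ℝ} (w : Gw M ξ U J Ψ C) (δ0 : 0 < δ) (t : ℝ) : ‖gk δ k t‖ = gp δ t := by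
  rw [gk, norm_mul, norm_real, Real.norm_of_nonneg (w.gp0 δ t δ0),
    show -(I * t * k) = (-(t * k) : ℝ) * I by push_cast; ring, norm_exp_ofReal_mul_I, mul_one]

lemma qf_le1 {D : Op H} (D1 : D ≤ 1) (v : H) : qf D v ≤ ‖v‖ ^ 2 := by
  have := qf_nonneg (sub_nonneg.2 D1) v
  rw [qf, sub_apply, inner_sub_right, sub_re] at this
  rw [← qf_one]; unfold qf; linarith

lemma gain {D : Op H} (D0 : 0 ≤ D) (D1 : D ≤ 1) {x y w : H} (e : w = x ∨ w = y) {r k m : ℝ}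
    (r0 : 0 < r) (hk : 2 * r ≤ k)
    (h : ‖y‖ ^ 2 - Real.exp r * (m ^ 2 + ‖x‖ ^ 2) ≤ (⟪y, D y⟫_ℂ).re) :
    (1 - Real.exp (-r)) / 8 * ‖w‖ ^ 2 - Real.exp r * m ^ 2 -
      (2 + Real.exp r * (2 / (1 - Real.exp (-r)))) *
        ‖x - ((Real.exp (-(k / 2)) : ℝ) : ℂ) • y‖ ^ 2 ≤ qf D w := by
  have γ1 : Real.exp (-r) < 1 := by rw [Real.exp_lt_one_iff]; linarith
  obtain ⟨l, hl⟩ : ∃ l, l = Real.exp (-(k / 2)) := ⟨_, rfl⟩
  have l0 : 0 < l := hl ▸ Real.exp_pos _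
  have l1 : l ≤ 1 := by rw [hl, Real.exp_le_one_iff]; linarith
  have l2 : Real.exp r * l ^ 2 ≤ Real.exp (-r) := by
    rw [hl, ← Real.exp_nat_mul, ← Real.exp_add, Real.exp_le_exp]; push_cast; linarith
  rw [← hl]
  have hZ : ‖x‖ ≤ l * ‖y‖ + ‖x - (l : ℂ) • y‖ := by
    have := norm_add_le ((l : ℂ) • y) (x - (l : ℂ) • y)
    rwa [add_sub_cancel, norm_smul, norm_real, Real.norm_of_nonneg l0.le] at this
  rcases e with rfl | rfl
  · refine real_gain (norm_nonneg _) (norm_nonneg _) (Real.exp_pos _) l0.le l1 (Real.exp_pos _) γ1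
      l2 hZ hZ h ?_
    have a1 := qf_add_le D0 w (-(w - (l : ℂ) • y))
    have a2 := qf_le1 D1 (-(w - (l : ℂ) • y))
    rw [norm_neg] at a2
    rw [show w + -(w - (l : ℂ) • y) = (l : ℂ) • y by abel, qf_smul,
      norm_real, Real.norm_of_nonneg l0.le] at a1
    exact a1.trans (by linarith)
  · refine real_gain (norm_nonneg _) (norm_nonneg _) (Real.exp_pos _) zero_le_one
      le_rfl (Real.exp_pos _) γ1 l2 (by linarith [norm_nonneg (x - (l : ℂ) • w)]) hZ h ?_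
    have := qf_nonneg D0 w
    unfold qf at this ⊢
    linarith [sq_nonneg ‖x - (l : ℂ) • w‖]

lemma rob {D : Op H} (D0 : 0 ≤ D) (D1 : D ≤ 1) (P : Op H) (v η : H) :
    qf D (P η) / 2 - ‖P (v - η)‖ ^ 2 ≤ (⟪P v, D (P v)⟫_ℂ).re := by
  have a1 := qf_add_le D0 (P v) (-P (v - η))
  have a2 := qf_le1 D1 (-P (v - η))
  rw [norm_neg] at a2
  rw [map_sub, show P v + -(P v - P η) = P η by abel, ← map_sub] at a1
  unfold qf at a1 a2 ⊢
  linarith

theorem pos (h2 : AvgStmt.{u}) (h3 : EngStmt.{u}) (h4 : LocStmt.{u}) (h : Pk M ξ U J Ψ) {C : ℝ}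
    (w : Gw M ξ U J Ψ C) (ξ1 : ‖ξ‖ = 1) {a : Op H} (ha : a ∈ M) {η : H} (hη : Inv (GG M J) ξ η)
    (e : η = a ξ ∨ η = J (star a ξ)) (B : ℝ →ᵇ ℂ) (B1 : ‖B‖ ≤ 1) {k₀ T : ℝ} (k0 : 0 < k₀)
    (hB : ∀ r, B r ≠ 0 → k₀ ≤ r ∧ r ≤ T) : Ψ B η = 0 := by
  by_contra h0
  obtain ⟨g, hg⟩ : ∃ g, g = ‖Ψ B η‖ ^ 2 := ⟨_, rfl⟩
  have g0 : 0 < g := hg ▸ pow_pos (norm_pos_iff.2 h0) 2
  have kT : k₀ ≤ T := by
    by_contra hc
    have : B = 0 := BoundedContinuousFunction.ext fun r => by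
      by_contra hr
      have := hB r hr
      exact hc (this.1.trans this.2)
    exact h0 (by rw [this, map_zero]; rfl)
  have C0 : 0 ≤ C := zero_le_one.trans w.C1
  obtain ⟨r, hr⟩ : ∃ r, r = k₀ / 4 := ⟨_, rfl⟩
  have r0 : 0 < r := by rw [hr]; positivity
  obtain ⟨α, hα⟩ : ∃ α, α = Real.exp r := ⟨_, rfl⟩
  obtain ⟨γ, hγ⟩ : ∃ γ, γ = Real.exp (-r) := ⟨_, rfl⟩
  have α0 : 0 < α := hα ▸ Real.exp_pos _
  have γ0 : 0 < γ := hγ ▸ Real.exp_pos _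
  have γ1 : γ < 1 := by rw [hγ, Real.exp_lt_one_iff]; linarith
  obtain ⟨β, hβ⟩ : ∃ β, β = (1 - γ) / 8 := ⟨_, rfl⟩
  have β0 : 0 < β := by linarith
  obtain ⟨L, hL⟩ : ∃ L, L = 2 + α * (2 / (1 - γ)) := ⟨_, rfl⟩
  have L0 : 0 < L := by have : 0 < 1 - γ := by linarith
                        rw [hL]; positivity
  obtain ⟨κ, hκ⟩ : ∃ κ, κ = β * g / (8 * α * (T + 3)) := ⟨_, rfl⟩
  have T3 : 0 < T + 3 := by linarith
  have κ0 : 0 < κ := by rw [hκ]; positivity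
  obtain ⟨N, hN⟩ : ∃ N, N = C * ‖a ξ‖ ^ 2 + 1 := ⟨_, rfl⟩
  have N0 : 0 < N := by rw [hN]; positivity
  refine h3 H M ξ U J h.toMod η (r ^ 2 * (β * g / 8)) (r ^ 2 * C) (by positivity) (by positivity)
    hη fun δ₀ δ₀0 => ?_
  obtain ⟨δ, δ0, δ1, δ2, δ3, δ4⟩ : ∃ δ, 0 < δ ∧ δ ≤ 1 ∧ δ ≤ k₀ / 2 ∧ δ ≤ β * g / (8 * L * N) ∧
      δ ≤ δ₀ * κ / (4 * N) :=
    ⟨min (min 1 (k₀ / 2)) (min (β * g / (8 * L * N)) (δ₀ * κ / (4 * N))), by positivity,
      (min_le_left _ _).trans (min_le_left _ _), (min_le_left _ _).trans (min_le_right _ _),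
      (min_le_right _ _).trans (min_le_left _ _), (min_le_right _ _).trans (min_le_right _ _)⟩
  obtain ⟨m, m0, hm⟩ : ∃ m, 0 < m ∧ m ^ 2 = κ * δ :=
    ⟨√(κ * δ), by positivity, Real.sq_sqrt (by positivity)⟩
  choose b bM D bs D0 D1 d1 d2 d3 using fun j : ℤ => h4 H M ξ U J h.toMod ξ1 _
    (w.mem δ (j * δ) δ0 a ha).1 m r (Real.exp (-(j * δ / 2))) m0 r0
  obtain ⟨s, hs⟩ : ∃ s : Finset ℤ, s = Icc ⌊k₀ / δ⌋ ⌈T / δ⌉ := ⟨_, rfl⟩
  obtain ⟨ε, hε⟩ : ∃ ε : ℤ → ℝ, ∀ j : ℤ, ε j = ‖sm U δ (j * δ) a ξ -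
    ((Real.exp (-(j * δ / 2)) : ℝ) : ℂ) • J (star (sm U δ (j * δ) a) ξ)‖ := ⟨_, fun _ => rfl⟩
  have er := w.err δ δ0 δ1 s a ha
  simp only [← hε] at er d2
  have er' : ∑ j ∈ s, ε j ^ 2 ≤ N * δ ^ 2 := er.trans (by rw [hN]; linarith [sq_nonneg δ])
  have fr := w.frame δ δ0 ⌊k₀ / δ⌋ ⌈T / δ⌉ B B1 (fun r hr => ⟨by
    have := Int.floor_le (k₀ / δ)
    rw [le_div_iff₀ δ0] at this
    exact this.trans (hB r hr).1, by
    have := Int.le_ceil (T / δ)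
    rw [div_le_iff₀ δ0] at this
    exact (hB r hr).2.trans this⟩) η
  rw [← hs, ← hg] at fr
  have cd : (s.card : ℝ) * δ ≤ T + 3 := hs ▸ card_le k0 kT δ0 δ1
  have gain : ∀ j ∈ s, β * ‖Ψ (gF δ (j * δ)) η‖ ^ 2 - α * m ^ 2 - L * ε j ^ 2 ≤
      qf (D j) (Ψ (gF δ (j * δ)) η) := fun j hj => by
    have j0 : 2 * r ≤ j * δ := by
      have a1 : ((⌊k₀ / δ⌋ : ℤ) : ℝ) ≤ j := by exact_mod_cast (mem_Icc.1 (hs ▸ hj)).1
      have a2 := Int.lt_floor_add_one (k₀ / δ)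
      rw [div_lt_iff₀ δ0] at a2
      linarith [mul_le_mul_of_nonneg_right a1 δ0.le]
    rw [hβ, hL, hα, hγ, hε]
    exact gain (D0 j) (D1 j) (e.imp (fun e => by rw [e, w.left δ _ δ0 a ha])
      fun e => by rw [e, w.right δ _ δ0 a ha]) r0 j0 (d3 j)
  have tot : β * g / 4 ≤ ∑ j ∈ s, qf (D j) (Ψ (gF δ (j * δ)) η) := by
    have a1 := sum_le_sum gain
    simp only [sum_sub_distrib, ← mul_sum, sum_const, nsmul_eq_mul] at a1
    have a2 : s.card * (α * m ^ 2) ≤ β * g / 8 := by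
      rw [hm, show s.card * (α * (κ * δ)) = α * κ * (s.card * δ) by ring]
      refine (mul_le_mul_of_nonneg_left cd (by positivity)).trans_eq ?_
      rw [hκ]; field_simp
    have a3 : L * ∑ j ∈ s, ε j ^ 2 ≤ β * g / 8 := by
      refine (mul_le_mul_of_nonneg_left er' L0.le).trans ?_
      rw [le_div_iff₀ (by positivity)] at δ3
      have : δ ^ 2 ≤ δ := by rw [sq]; exact mul_le_of_le_one_left δ0.le δ1
      linarith [mul_le_mul_of_nonneg_left this (mul_pos L0 N0).le]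
    linarith [mul_le_mul_of_nonneg_left fr β0.le]
  refine ⟨_, ℤ, s, b, (h2 H).2 (gp δ) (fun t => w.gp0 δ t δ0) (w.gpi δ δ0).1 (w.gpi δ δ0).2,
    fun j _ => ⟨bM j, bs j⟩, ?_, fun v => ?_⟩
  · have a1 : ∀ j ∈ s, m ^ 2 * ‖(b j - h.toMod0.jj (b j)) ξ‖ ^ 2 ≤ 4 * ε j ^ 2 := fun j _ => by
      have := pow_le_pow_left₀ (by positivity) (d2 j) 2
      rw [mul_pow, mul_pow] at this
      linarith
    have a2 := sum_le_sum a1
    rw [← mul_sum, ← mul_sum, hm] at a2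
    rw [le_div_iff₀ (by positivity)] at δ4
    refine le_of_mul_le_mul_left (a2.trans ?_) (mul_pos κ0 δ0)
    linarith [mul_le_mul_of_nonneg_left δ4 δ0.le, er']
  · have a1 : ∀ j ∈ s, r ^ 2 * (qf (D j) (Ψ (gF δ (j * δ)) η) / 2 -
        ‖Ψ (gF δ (j * δ)) (v - η)‖ ^ 2) ≤ (⟪v, wint (fun t => (gp δ t : ℂ)) (fun t => U (-t) *
        ((b j - h.toMod0.jj (b j)) * (b j - h.toMod0.jj (b j))) * U t) v⟫_ℂ).re := fun j _ => by
      refine le_trans ?_ (jensen h.toMod0 (fun t => w.gp0 δ t δ0) (w.gpi δ δ0).1 (w.gpi δ δ0).2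
        (w.gki δ (j * δ) δ0) (nrm_gk w δ0) (by rw [star_sub, ← h.toMod0.jj_star, bs]) v)
      rw [← w.win δ _ δ0]
      exact (mul_le_mul_of_nonneg_left (rob (D0 j) (D1 j) _ v η) (sq_nonneg r)).trans (d1 j _)
    refine le_trans ?_ (sum_le_sum a1)
    rw [← mul_sum, sum_sub_distrib, ← sum_div]
    have := w.bessel δ δ0 s (v - η)
    rw [mul_assoc, ← mul_sub]
    exact mul_le_mul_of_nonneg_left (by linarith) (sq_nonneg r)

lemma inv_J (h : Mod M ξ U J) {η : H} (hη : Inv (GG M J) ξ η) : Inv (GG M J) ξ (J η) :=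
  fun ε ε0 => by
    obtain ⟨K, K0, hK⟩ := hη ε ε0
    refine ⟨K, K0, fun g hg => le_of_eq_of_le ?_ (hK g hg)⟩
    obtain ⟨u, -, uM, e⟩ := hg
    have : u (J (u η)) = J (u (J (u (J η)))) := by
      have := congr($(commM uM (h.jj_mem uM)) (J η))
      simp only [mul_apply_eq_comp, Mod0.jj_apply, h.JJ] at this ⊢
      exact this
    rw [e, e, h.JJ, this, ← h.toMod0.Jsub, h.toMod0.Jnorm]

/-- a bump on the positive half line -/
noncomputable def bp (n : ℕ) (σ : ℝ) : ℝ →ᵇ ℂ :=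
  BoundedContinuousFunction.ofNormedAddCommGroup
    (fun s => ((min 1 (max 0 (min ((n + 1) * (σ * s) - 1) (n + 1 - σ * s))) : ℝ) : ℂ))
    (by fun_prop) 1 fun s => by
      rw [norm_real, Real.norm_of_nonneg (le_min zero_le_one (le_max_left _ _))]
      exact min_le_left _ _

lemma bp_app (n : ℕ) (σ s : ℝ) : bp n σ s =
    ((min 1 (max 0 (min ((n + 1) * (σ * s) - 1) (n + 1 - σ * s))) : ℝ) : ℂ) := rfl

lemma bp_le (n : ℕ) (σ : ℝ) : ‖bp n σ‖ ≤ 1 :=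
  BoundedContinuousFunction.norm_ofNormedAddCommGroup_le _ zero_le_one _

lemma bp_supp {n : ℕ} {σ s : ℝ} (h : bp n σ s ≠ 0) : 1 / (n + 1) ≤ σ * s ∧ σ * s ≤ n + 1 := by
  by_contra hc
  refine h ?_
  rw [bp_app, max_eq_left, min_eq_right zero_le_one, ofReal_zero]
  rw [not_and_or, not_le, not_le, lt_div_iff₀ (by positivity)] at hc
  rcases hc with hc | hc
  · exact (min_le_left _ _).trans (by linarith)
  · exact (min_le_right _ _).trans (by linarith)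

lemma bp_one {n : ℕ} {σ s : ℝ} (h1 : 2 ≤ (n + 1) * (σ * s)) (h2 : σ * s ≤ n) : bp n σ s = 1 := by
  rw [bp_app, min_eq_left, ofReal_one]
  exact le_max_of_le_right (le_min (by linarith) (by linarith))

end On

theorem oneStmt (h1 : GwStmt.{u}) (h2 : AvgStmt.{u}) (h3 : EngStmt.{u}) (h4 : LocStmt.{u}) :
    OneStmt.{u} := by
  intro H _ _ _ M ξ U J Ψ h ξ1 a ha hη
  obtain ⟨C, w⟩ := h1
  have w := w H M ξ U J Ψ h
  have p1 : ∀ n, Ψ (On.bp n 1) (a ξ) = 0 := fun n =>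
    On.pos h2 h3 h4 h w ξ1 ha hη (.inl rfl) _ (On.bp_le n 1) (k₀ := 1 / (n + 1)) (T := n + 1)
      (by positivity) fun r hr => by simpa using On.bp_supp hr
  have p2 : ∀ n, Ψ (On.bp n (-1)) (a ξ) = 0 := fun n => by
    have := On.pos h2 h3 h4 h w ξ1 (star_mem ha) (On.inv_J h.toMod hη) (.inr (by rw [star_star])) _
      (On.bp_le n 1) (k₀ := 1 / (n + 1)) (T := n + 1)
      (by positivity) fun r hr => by simpa using On.bp_supp hr
    rw [← h.jf (On.bp n (-1)) _ fun s => by simp [On.bp_app]] at this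
    rw [← h.JJ (Ψ _ _), this, h.toMod0.J0]
  obtain ⟨G, hG⟩ : ∃ G : ℝ →ᵇ ℂ, G = ((Real.exp (0 / 2 + 1 ^ 2 / 8) : ℝ) : ℂ) •
    gF 1 (0 + 1 ^ 2 / 2) - gF 1 0 := ⟨_, rfl⟩
  have G0 : G 0 = 0 := by
    rw [hG]
    change _ * ((_ : ℝ) : ℂ) - ((_ : ℝ) : ℂ) = 0
    rw [← ofReal_mul, ← Real.exp_add]; norm_num
  have p3 : Ψ G (a ξ) = 0 := by
    have := h.lim (fun n => G * (1 - On.bp n 1 - On.bp n (-1))) (‖G‖ * 3) (fun n =>
      (norm_mul_le _ _).trans (mul_le_mul_of_nonneg_left ((norm_sub_le_of_le (norm_sub_le_of_le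
        norm_one.le (On.bp_le n 1)) (On.bp_le n (-1))).trans (by norm_num)) (norm_nonneg _)))
      (fun T ε ε0 => ?_) (a ξ)
    · simp only [map_mul, map_sub, map_one, mul_apply_eq_comp, sub_apply, p1, p2, sub_zero,
        one_apply_eq_self] at this
      exact tendsto_const_nhds_iff.1 this
    obtain ⟨ρ, ρ0, hρ⟩ := Metric.continuous_iff.1 G.continuous 0 (ε / 3) (by positivity)
    obtain ⟨N, hN⟩ := exists_nat_ge (max T (2 / ρ))
    filter_upwards [eventually_ge_atTop N] with n hn s hs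
    have n1 : max T (2 / ρ) ≤ n := hN.trans (by exact_mod_cast hn)
    have n2 : 2 ≤ (n + 1) * ρ := by
      have := (le_max_right _ _).trans n1
      rw [div_le_iff₀ ρ0] at this
      nlinarith
    have n3 := abs_le.1 (hs.trans ((le_max_left _ _).trans n1))
    have n4 : (0 : ℝ) < 1 / (n + 1) := by positivity
    simp only [BoundedContinuousFunction.mul_apply, BoundedContinuousFunction.sub_apply,
      BoundedContinuousFunction.coe_one, Pi.one_apply]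
    by_cases c1 : |s| < ρ
    · have b1 := hρ s (by simpa using c1)
      rw [G0, dist_zero_right] at b1
      have b2 := norm_sub_le_of_le (norm_sub_le_of_le (norm_one (α := ℂ)).le
        (((On.bp n 1).norm_coe_le_norm s).trans (On.bp_le n 1)))
        (((On.bp n (-1)).norm_coe_le_norm s).trans (On.bp_le n (-1)))
      rw [norm_mul]
      nlinarith [norm_nonneg (G s), norm_nonneg (1 - On.bp n 1 s - On.bp n (-1) s)]
    · rcases le_abs'.1 (not_lt.1 c1) with c2 | c2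
      · have b1 : On.bp n 1 s = 0 := by
          by_contra hc
          linarith [(On.bp_supp hc).1]
        rw [b1, On.bp_one (by nlinarith) (by linarith)]
        simpa using ε0.le
      · have b1 : On.bp n (-1) s = 0 := by
          by_contra hc
          linarith [(On.bp_supp hc).1]
        rw [b1, On.bp_one (by nlinarith) (by linarith)]
        simpa using ε0.le
  refine sub_eq_zero.1 (w.inj 1 0 one_pos _ ?_)
  rw [map_sub, ← w.right 1 0 one_pos a ha, w.shift 1 0 one_pos a ha, w.left 1 _ one_pos a ha, ← p3,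
    hG, map_sub, map_smul]
  rfl

end Vale.Agent.P132
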