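import Vale.Agent.P132.Spec
import Vale.Agent.P096.Tom
import Vale.Agent.P096.Ana
import Vale.Agent.P096.Pre

/-! Module T: Tomita-Takesaki theory with the functional calculus of the modular operator. -/

open Vale.Agent.P104 Vale.Agent.P085 Vale.Agent.P096 Vale.Agent.P096.RV Filter Topology Complex
  MeasureTheory
open scoped InnerProductSpace BoundedContinuousFunction

set_option linter.unusedSectionVars false

namespace Vale.Agent.P132

universe u

namespace Pa

variable {H : Type u} [NormedAddCommGroup H] [InnerProductSpace ℂ H] [CompleteSpace H]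
  {Φ : C(X, ℂ) →⋆ₐ[ℂ] Op H} {M : VonNeumannAlgebra H} {ξ : H} {C : H →SL[starRingEnd ℂ] H}

/-- a bounded function composed with the truncated logarithm -/
noncomputable def cl (n : ℕ) (F : ℝ →ᵇ ℂ) : C(X, ℂ) := ⟨fun r => F (lg n r), by fun_prop⟩

lemma cl_app (n : ℕ) (F : ℝ →ᵇ ℂ) (r : X) : cl n F r = F (lg n r) := rfl

lemma exists_psi0 (Φ : C(X, ℂ) →⋆ₐ[ℂ] Op H) : ∃ ψ : (ℝ →ᵇ ℂ) → Op H, ∀ F,
    (∀ f, Φ f * ψ F = ψ F * Φ f) ∧ ∀ n v, ψ F (Φ (χ n) v) = Φ (cl n F * χ n) v := by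
  choose ψ _ h2 using fun F : ℝ →ᵇ ℂ => wlim (hyperfilter ℕ) (fun n => Φ (cl n F)) (norm_nonneg F)
    fun n => (Φn Φ _).trans ((ContinuousMap.norm_le _ (norm_nonneg F)).2 fun r =>
      F.norm_coe_le_norm _)
  refine ⟨ψ, fun F => ⟨fun f => wt_comm (h2 F) (.of_forall fun n => by
    rw [← map_mul, ← map_mul, mul_comm]), fun n v => ext_inner_left ℂ fun η => ?_⟩⟩
  refine tendsto_nhds_unique (h2 F _ η) (tendsto_const_nhds.congr' ?_)
  filter_upwards [Nat.hyperfilter_le_atTop (eventually_ge_atTop n)] with k hk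
  rw [Φm, extχ (f := cl k F) (g := cl n F) fun r hr => by
    rw [cl_app, cl_app, lg_eq hk hr, lg_eq le_rfl hr]]

lemma fix {w : H} (h : Φ ρ w = w) (f : C(X, ℂ)) : Φ f w = f o1 • w := by
  have hc := Φc Φ
  refine indX (p := fun f => Φ f w = f o1 • w) (fun c => Φconst _ _ _) ?_
    (fun f g a b => ?_) (fun f g a b => ?_) (isClosed_eq (by fun_prop) (by fun_prop)) f
  · rw [h]; simp [ρ_app, o1]
  · rw [map_add, _root_.add_apply, a, b, ← add_smul]; rfl
  · rw [← Φm, b, map_smul, a, smul_smul, mul_comm]; rfl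

lemma rho_E (n : ℕ) : ρ * E n (-I) * χ n = (2 - ρ) * χ n := extχ fun r hr => by
  obtain ⟨-, a, b⟩ := supp' le_rfl hr
  have a' := (e_pos n).trans_le a
  have e : E n (-I) r = Real.exp (lg n r) := by
    rw [E_app, ofReal_exp]
    congr 1
    linear_combination (-(lg n r : ℂ)) * I_mul_I
  rw [ContinuousMap.mul_apply, e, lg_eq le_rfl hr, Real.exp_sub, Real.exp_log a',
    Real.exp_log ((e_pos n).trans_le b), ρ_app, ← ofReal_mul, mul_div_cancel₀ _ a'.ne']
  simp [ρ_app, two_app]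

variable (D : Dat M ξ (Φ ρ) C)
include D

lemma exists_psi : ∃ Ψ : (ℝ →ᵇ ℂ) →⋆ₐ[ℂ] Op H, ∀ F,
    (∀ f, Φ f * Ψ F = Ψ F * Φ f) ∧ ∀ n v, Ψ F (Φ (χ n) v) = Φ (cl n F * χ n) v := by
  obtain ⟨ψ, h⟩ := exists_psi0 Φ
  have h1 : ∀ F f v, Φ f (ψ F v) = ψ F (Φ f v) := fun F f v => congr($((h F).1 f) v)
  have h2 := fun F => (h F).2
  have hs : ∀ (c : ℂ) F, ψ (c • F) = c • ψ F := fun c F => D.ext fun n v => by
    rw [_root_.smul_apply, h2, h2, show cl n (c • F) = c • cl n F from rfl, smul_mul_assoc,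
      map_smul]; rfl
  have ho : ψ 1 = 1 := D.ext fun n v => by
    rw [h2, show cl n 1 = 1 from rfl, one_mul]; rfl
  refine ⟨{ toFun := ψ
            map_one' := ho
            map_mul' := fun F G => D.ext fun n v => ?_
            map_zero' := by simpa using hs 0 0
            map_add' := fun F G => D.ext fun n v => ?_
            commutes' := fun c => by
              rw [Algebra.algebraMap_eq_smul_one, Algebra.algebraMap_eq_smul_one, hs, ho]
            map_star' := fun F => D.ext fun n v => ?_ }, h⟩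
  · rw [mul_apply_eq_comp, h2, h2, ← Φm Φ (cl n G), ← h1, h2, Φm,
      show cl n (F * G) = cl n F * cl n G from rfl, mul_left_comm, mul_assoc]
  · rw [_root_.add_apply, h2, h2, h2, show cl n (F + G) = cl n F + cl n G from rfl, add_mul,
      map_add]; rfl
  · have e : ψ F * Φ (χ n) = Φ (cl n F * χ n) := ContinuousLinearMap.ext (h2 F n)
    have e' := congrArg star e
    rw [← (h F).1, star_mul, ← map_star, ← map_star, star_mul, star_χ, mul_comm (χ n)] at e'
    rw [h2, show cl n (star F) = star (cl n F) from rfl, ← e']; rfl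

variable {J : H →SL[starRingEnd ℂ] H} (hJ : ∀ v, J (Φ τ v) = C v) {U : ℝ → Op H}
  (hU : ∀ t, ‖U t‖ ≤ 1 ∧ (∀ f, Φ f * U t = U t * Φ f) ∧
    ∀ n v, U t (Φ (χ n) v) = Φ (E n t * χ n) v)
include hU

lemma comm {A : Op H} (hA : ∀ t, A * U t = U t * A) (f : C(X, ℂ)) : A * Φ f = Φ f * A := by
  have hc := Φc Φ
  have Gd : ∀ n v, Differentiable ℂ fun z => Φ (E n z * χ n) v := fun n v => by
    simp only [← Φm]; exact Φd Φ n _
  have h1 : Φ ρ * A * Φ (2 - ρ) = Φ (2 - ρ) * A * Φ ρ := D.ext fun n v => D.ext' fun m => by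
    have := congrFun (ident ((Φ (χ m) * A).differentiable.comp (Gd n (Φ ρ v)))
      (Gd m (A (Φ (χ n) (Φ ρ v)))) fun t => by
        rw [Function.comp_apply, ← (hU t).2.2, ← (hU t).2.2]
        exact congr($(show Φ (χ m) * A * U t = U t * Φ (χ m) * A by
          rw [mul_assoc, hA, ← mul_assoc, (hU t).2.1]) _)) (-I)
    have e := congrArg (Φ ρ) this
    simp only [Function.comp_apply, mul_apply_eq_comp, Φm] at e ⊢
    rw [mul_comm _ ρ, ← mul_assoc, ← mul_assoc, rho_E, rho_E, mul_comm ρ, mul_comm (χ n) ρ,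
      mul_comm _ (χ m)] at e
    exact e
  have h2 : A * Φ ρ = Φ ρ * A := by
    rw [map_sub, map_ofNat] at h1
    have : (2 : ℂ) • (A * Φ ρ) = (2 : ℂ) • (Φ ρ * A) := by
      rw [two_smul, two_smul, ← sub_eq_zero, ← sub_eq_zero.2 h1.symm]
      noncomm_ring
    exact smul_right_injective _ two_ne_zero this
  refine indX (p := fun f => A * Φ f = Φ f * A) (fun c => ?_) h2 (fun f g a b => ?_)
    (fun f g a b => ?_) (isClosed_eq (by fun_prop) (by fun_prop)) f
  · ext v
    simp only [mul_apply_eq_comp, Φconst, map_smul]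
  · rw [map_add, mul_add, add_mul, a, b]
  · rw [map_mul, ← mul_assoc, a, mul_assoc, b, mul_assoc]

include hJ

theorem pre (h1 : DenseRange (ev M ξ)) (h2 : DenseRange (ev M.commutant ξ)) :
    Pre M ξ U J (Φ ρ) (Φ τ) := by
  have Un := fun t => (hU t).1
  have Uc := fun t => (hU t).2.1
  have Uf : ∀ t f v, Φ f (U t v) = U t (Φ f v) := fun t f v => congr($(Uc t f) v)
  have Ux := fun t => (hU t).2.2
  have hξ : Φ (χ 1) ξ = ξ := by rw [D.fix, χ_o1, one_smul]
  have hT : Φ τ ξ = ξ := by rw [D.fix, τ_o1, one_smul]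
  have UG : ∀ (t : ℝ) n z v, U t (Φ (E n z * χ n) v) = Φ (E n (z + t) * χ n) v := fun t n z v => by
    rw [← Φm, ← Uf, Ux, Φm, E_add, mul_assoc]
  have Gd : ∀ n v, Differentiable ℂ fun z => Φ (E n z * χ n) v := fun n v => by
    simp only [← Φm]; exact Φd Φ n _
  refine ⟨⟨h1, h2, D.ext fun n v => ?_, fun s t => D.ext fun n v => ?_, fun t => D.ext
    fun n v => ?_, fun v => ?_, fun t => ?_, J.map_add, J.map_smulₛₗ, D.Jinn hJ, D.JJ hJ,
    fun t => D.ind (isClosed_eq (by fun_prop) (by fun_prop)) fun n v => ?_, ?_,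
    fun α ha hα x hx h0 => D.ext' fun n => ?_, fun x hx => ?_, fun x hx m t => ?_⟩,
    D.R0.isSelfAdjoint, Tsa, fun t => (Uc t _).symm, fun t => (Uc t _).symm, D.JT hJ,
    fun x hx => by rw [hJ, D.CM x hx], fun v x hx h => by rw [hJ]; exact D.PQ v x hx h,
    fun x hx y hy => D.real hJ hx hy, fun v ε hε => ?_⟩
  · rw [Ux, ofReal_zero, E_zero, one_mul]; rfl
  · rw [mul_apply_eq_comp, Ux, Ux, UG, ofReal_add, add_comm]
  · have e : U t * Φ (χ n) = Φ (E n t * χ n) := ContinuousLinearMap.ext (Ux t n)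
    have e' := congrArg star e
    rw [← Uc, star_mul, ← map_star, ← map_star, star_mul, star_χ, star_E, mul_comm (χ n)] at e'
    rw [Ux, ← e']; rfl
  · refine continuous_of_uniform_approx_of_continuous fun u hu => ?_
    obtain ⟨ε, hε, h⟩ := Metric.mem_uniformity_dist.1 hu
    obtain ⟨n, hn⟩ := (Metric.tendsto_nhds.1 (D.lim v) ε hε).exists
    refine ⟨fun t => Φ (E n t * χ n) v, (Gd n v).continuous.comp continuous_ofReal, fun t => h ?_⟩
    beta_reduce
    rw [← Ux, dist_comm, dist_eq_norm, ← map_sub]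
    rw [dist_eq_norm] at hn
    exact (((U t).le_of_opNorm_le (Un t) _).trans (one_mul _).le).trans_lt hn
  · conv_lhs => rw [← hξ]
    rw [Ux, D.fix, ContinuousMap.mul_apply, E_o1, χ_o1, one_mul, one_smul]
  · rw [Ux, D.Jf hJ, D.Jf hJ, fl_mul, fl_E, fl_χ, Ux]
  · have a := D.CM 1 (one_mem _)
    rw [star_one, one_apply_eq_self, two_sub, D.Rξ, add_sub_cancel_right] at a
    conv_lhs => rw [← hT]
    rw [hJ, a]
  · rw [D.st hJ n hx]
    refine congrFun (ident ((Φ (χ n)).differentiable.comp ha) (Gd n (x ξ)) fun t => ?_) _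
    have := hα t 0
    rw [zero_add, h0] at this
    rw [Function.comp_apply, ← this, Uf, Ux]
  · refine ge_of_tendsto' (x := atTop) (((show Continuous fun v => (⟪v, x ξ⟫_ℂ).re by
      fun_prop).tendsto _).comp (D.lim (J (star x ξ)))) fun n => ?_
    rw [Function.comp_apply, D.st hJ n hx, re_comm]
    refine Φpos Φ _ (fun r => ⟨Real.exp (lg n r / 2) * ch n r,
      mul_nonneg (Real.exp_pos _).le (ch_nn n r), ?_⟩) _
    rw [ContinuousMap.mul_apply, E_neg, χ_app, ofReal_mul]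
  · refine le_of_tendsto_of_tendsto' (D.lim _).norm ((D.lim _).norm.const_mul _) fun n => ?_
    have h0 : 0 ≤ 4 * |t| + 4 := by positivity
    have := Φle Φ ((E n t - .const X (cexp (I * t * m))) * χ n) (.const X ((4 * |t| + 4 : ℝ) : ℂ) *
      ((.const X (cexp (-(m / 2))) * E n (-(I / 2)) - 1) * χ n)) (fun r => by
        simp only [ContinuousMap.mul_apply, ContinuousMap.sub_apply, ContinuousMap.const_apply,
          ContinuousMap.one_apply, E_neg, norm_mul, norm_real, Real.norm_of_nonneg h0]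
        rw [← mul_assoc, E_app]
        exact mul_le_mul_of_nonneg_right (lip0 _ _ _) (norm_nonneg _)) (x ξ)
    rw [← Φm _ (.const X _), Φconst, norm_smul, norm_real, Real.norm_of_nonneg h0, sub_mul, sub_mul,
      map_sub, map_sub, _root_.sub_apply, _root_.sub_apply, mul_assoc (.const X _ : C(X, ℂ)),
      ← Φm _ (.const X _),
      ← Φm _ (.const X _), Φconst, Φconst, one_mul, ← D.st hJ n hx, ← Ux] at this
    rw [map_sub, map_sub, map_smul, map_smul, Uf]
    exact this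
  · obtain ⟨n, hn⟩ := (Metric.tendsto_nhds.1 (D.lim v) ε hε).exists
    refine ⟨fun z => Φ (E n z * χ n) v, Gd n v, fun t z => UG t n z v, ?_, Φ (iv n * χ n) v,
      ?_, ?_, ?_⟩
    · beta_reduce
      rwa [E_zero, one_mul, ← dist_eq_norm]
    · beta_reduce
      rw [Φm, ← mul_assoc, τ_iv, E_zero, one_mul]
    · rw [← map_ofNat Φ 2, ← map_sub, Φm, ← mul_assoc, two_iv]
    · rw [Φm, ← mul_assoc, ρ_iv]

end Pa

open Pa in
theorem pkStmt : PkStmt.{u} := by
  intro H _ _ _ M ξ c c'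
  obtain ⟨R, C, D⟩ := exists_dat M ξ c c'
  obtain ⟨Φ, rfl⟩ := exists_Φ D.R0 D.R2
  obtain ⟨J, hJ⟩ := D.exists_J
  obtain ⟨U, hU⟩ := exists_U (Φ := Φ)
  obtain ⟨Ψ, hΨ⟩ := exists_psi D
  have h := pre D hJ hU c c'
  have h1 : ∀ F f v, Φ f (Ψ F v) = Ψ F (Φ f v) := fun F f v => congr($((hΨ F).1 f) v)
  have h2 := fun F => (hΨ F).2
  have a : ∀ b ∈ M.commutant, h.toMod0.jj b ∈ M := fun b hb => by
    simpa [h.U0] using T4.lemD h stripStmt sechStmt uniqStmt hb 0
  refine ⟨U, J, Ψ, ⟨h.toMod0, fun t x hx => by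
    simpa [Mod0.jj_jj] using T4.lemD h stripStmt sechStmt uniqStmt (T4.lemE h a hx) t,
    fun x hx => ⟨_, T4.lemE h a hx, fun _ => rfl⟩, fun y hy => ⟨_, a y hy, fun _ => rfl⟩⟩,
    fun g F hg hF => D.ext fun n v => ?_, fun F K hK hF v => ?_,
    fun F G hG x hx => D.ext' fun n => ?_,
    fun F G hG => D.ind (isClosed_eq (by fun_prop) (by fun_prop)) fun n v => ?_,
    fun A hA F => D.ext fun n v => ?_, fun e he hs hy => ?_⟩
  · have hi : Integrable fun t : ℝ => g t • E n t :=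
      hg.norm.mono' (hg.1.smul ((E_diff n).continuous.comp continuous_ofReal).aestronglyMeasurable)
        (.of_forall fun t => by
          rw [norm_smul]; exact mul_le_of_le_one_right (norm_nonneg _) (norm_E n t))
    have e : cl n F = ∫ t : ℝ, g t • E n t := by
      ext r
      rw [ContinuousMap.integral_apply hi, cl_app, hF]
      rfl
    have := ((ContinuousLinearMap.apply ℂ H (Φ (χ n) v)).comp (ΦL Φ)).integral_comp_comm hi
    rw [h2, SC.apply ⟨h.Ucont, h.toMod0.Ule⟩ hg, ← Φm, e]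
    refine Eq.trans this.symm (integral_congr_ae (.of_forall fun t => ?_))
    simp only [map_smul, (hU t).2.2, ← Φm]
    rfl
  · rw [Metric.tendsto_nhds]
    intro ε hε
    have K0 : 0 ≤ K := (norm_nonneg _).trans (hK 0)
    obtain ⟨n, hn⟩ := (Metric.tendsto_nhds.1 (D.lim v) (ε / (2 * (K + 1))) (by positivity)).exists
    obtain ⟨T, hT⟩ := isCompact_univ.exists_bound_of_continuousOn (lg_cont n).continuousOn
    filter_upwards [hF T (ε / (2 * (‖v‖ + 1))) (by positivity)] with k hk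
    have b1 : ‖Ψ (F k) (v - Φ (χ n) v)‖ ≤ K * ‖v - Φ (χ n) v‖ :=
      (Ψ (F k)).le_of_opNorm_le ((NonUnitalStarAlgHom.norm_apply_le Ψ _).trans (hK k)) _
    have b2 : ‖Ψ (F k) (Φ (χ n) v)‖ ≤ ε / (2 * (‖v‖ + 1)) * 1 * ‖v‖ := by
      rw [h2]
      refine (Φ _).le_of_opNorm_le ((Φn Φ _).trans ((norm_mul_le _ _).trans (mul_le_mul ?_
        (norm_χ n) (norm_nonneg _) (by positivity)))) _
      exact (ContinuousMap.norm_le _ (by positivity)).2 fun r => hk _ (hT r trivial)
    rw [dist_comm, dist_eq_norm, lt_div_iff₀ (by positivity)] at hn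
    have b3 : ε / (2 * (‖v‖ + 1)) * (‖v‖ + 1) = ε / 2 := by field_simp
    have b4 := norm_add_le (Ψ (F k) (v - Φ (χ n) v)) (Ψ (F k) (Φ (χ n) v))
    rw [← map_add, sub_add_cancel] at b4
    have b5 : 0 < ε / (2 * (‖v‖ + 1)) := by positivity
    rw [dist_zero_right]
    nlinarith [norm_nonneg (v - Φ (χ n) v)]
  · rw [h1, h1, D.st hJ n hx, ← Φm, ← h1, h2, h2, Φm, ← mul_assoc]
    congr 3
    ext r
    rw [ContinuousMap.mul_apply, E_neg, cl_app, cl_app, hG]
  · rw [h2, D.Jf hJ, D.Jf hJ, fl_mul, fl_χ, h2]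
    congr 3
    ext r
    rw [fl_app, cl_app, cl_app, hG, show lg n (fp r) = -lg n r by simp [lg, fp]]
  · have k : ∀ f v, A (Φ f v) = Φ f (A v) := fun f v => congr($(comm D hU hA f) v)
    rw [mul_apply_eq_comp, mul_apply_eq_comp, h2, k, k, h2]
  · obtain ⟨p, q⟩ := D.PQ ((2 : ℂ) • e ξ) e he fun y hy' => by
      have := hy _ (star_mem hy')
      rw [mul_apply_eq_comp, mul_apply_eq_comp, inner_star_r, ← inner_star_l] at this
      rw [this, two_smul, inner_add_right]
    rw [map_smul] at p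
    rw [C.map_smulₛₗ, map_ofNat, hs] at q
    have p' := fix (smul_right_injective _ two_ne_zero p) τ
    rw [τ_o1, one_smul] at p'
    conv_lhs => rw [← p']
    rw [hJ]
    exact smul_right_injective _ two_ne_zero q

end Vale.Agent.P132
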