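import Vale.Agent.P132.Defs
import Vale.Agent.P096.Base

/-! Exact statements of the modules of the proof of the bicentralizer conjecture.
See `notes/P132.md` for the proofs. -/

open Finset Vale.Agent.P104 Vale.Agent.P085 Vale.Agent.P096 Filter Topology MeasureTheory Complex
open scoped InnerProductSpace BoundedContinuousFunction

set_option linter.unusedSectionVars false

namespace Vale.Agent.P132

universe u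

section defs
variable {H : Type u} [NormedAddCommGroup H] [InnerProductSpace ℂ H] [CompleteSpace H]

/-- Tomita-Takesaki theory with the bounded continuous functional calculus of `log Δ` -/
structure Pk (M : VonNeumannAlgebra H) (ξ : H) (U : ℝ → Op H) (J : H → H)
    (Ψ : (ℝ →ᵇ ℂ) →⋆ₐ[ℂ] Op H) : Prop extends Mod M ξ U J where
  int : ∀ (g : ℝ → ℂ) (F : ℝ →ᵇ ℂ), Integrable g →
    (∀ s : ℝ, F s = ∫ t : ℝ, g t * cexp (I * t * s)) → Ψ F = wint g U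
  lim : ∀ (F : ℕ → ℝ →ᵇ ℂ) (C : ℝ), (∀ n, ‖F n‖ ≤ C) →
    (∀ T ε : ℝ, 0 < ε → ∀ᶠ n in atTop, ∀ s, |s| ≤ T → ‖F n s‖ ≤ ε) →
    ∀ v, Tendsto (fun n => Ψ (F n) v) atTop (𝓝 0)
  half : ∀ F G : ℝ →ᵇ ℂ, (∀ s : ℝ, G s = (Real.exp (s / 2) : ℝ) * F s) →
    ∀ x ∈ M, Ψ F (J (star x ξ)) = Ψ G (x ξ)
  jf : ∀ F G : ℝ →ᵇ ℂ, (∀ s : ℝ, G s = (starRingEnd ℂ) (F (-s))) → ∀ v, J (Ψ F v) = Ψ G (J v)
  comm : ∀ A : Op H, (∀ t, A * U t = U t * A) → ∀ F, A * Ψ F = Ψ F * A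
  cen : ∀ e ∈ M, star e = e → (∀ y ∈ M, ⟪ξ, (e * y) ξ⟫_ℂ = ⟪ξ, (y * e) ξ⟫_ℂ) → J (e ξ) = e ξ

/-- Gaussian probability density of width `δ⁻¹` -/
noncomputable def gp (δ t : ℝ) : ℝ := δ / √(2 * Real.pi) * Real.exp (-(δ * t) ^ 2 / 2)

/-- the modulated Gaussian -/
noncomputable def gk (δ k t : ℝ) : ℂ := gp δ t * cexp (-(I * t * k))

/-- its Fourier transform, the window of width `δ` at `k` -/
noncomputable def gF (δ k : ℝ) : ℝ →ᵇ ℂ :=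
  BoundedContinuousFunction.ofNormedAddCommGroup
    (fun s => (Real.exp (-((s - k) / δ) ^ 2 / 2) : ℝ)) (by fun_prop) 1 fun s => by
      rw [norm_real, Real.norm_of_nonneg (Real.exp_pos _).le, Real.exp_le_one_iff]
      have := sq_nonneg ((s - k) / δ)
      linarith

/-- the piece of `x` in the window -/
noncomputable def sm (U : ℝ → Op H) (δ k : ℝ) (x : Op H) : Op H :=
  wint (gk δ k) fun t => U t * x * U (-t)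

/-- the operators `v ↦ u v u⋆` for unitaries `u` of `M` -/
def GG (M : VonNeumannAlgebra H) (J : H → H) : Set (Op H) :=
  {g | ∃ u ∈ unitary (Op H), u ∈ M ∧ ∀ v, g v = u (J (u (J v)))}

/-- a weakly closed convex hull -/
def Cv (G : Set (Op H)) : Set (Op H) :=
  {T | ∀ (x₁ y₁ x₂ y₂ : H) (c : ℝ), (∀ g ∈ G, (⟪y₁, g x₁⟫_ℂ).re + (⟪y₂, g x₂⟫_ℂ).re ≤ c) →
    (⟪y₁, T x₁⟫_ℂ).re + (⟪y₂, T x₂⟫_ℂ).re ≤ c}

/-- `η` is almost fixed by the elements of `G` that almost fix `ξ` -/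
def Inv (G : Set (Op H)) (ξ η : H) : Prop :=
  ∀ ε : ℝ, 0 < ε → ∃ K : ℝ, 0 ≤ K ∧ ∀ g ∈ G, ‖g η - η‖ ^ 2 ≤ ε + K * ‖g ξ - ξ‖ ^ 2

/-- bounded and star-strongly continuous -/
def SS (F : ℝ → Op H) : Prop := ∃ C, SC F C ∧ SC (fun t => star (F t)) C

/-- an averaging procedure -/
structure Avg (A : (ℝ → Op H) → Op H) : Prop where
  add : ∀ F G, SS F → SS G → A (fun t => F t + G t) = A F + A G
  smul : ∀ (c : ℂ) F, SS F → A (fun t => c • F t) = c • A F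
  star : ∀ F, SS F → A (fun t => star (F t)) = star (A F)
  cv : ∀ F, SS F → A F ∈ Cv (Set.range F)

/-- separating vector -/
def Sep (M : VonNeumannAlgebra H) (ξ : H) : Prop := ∀ x ∈ M, x ξ = 0 → x = 0

/-- all nonzero projections are equivalent to `1` -/
def Iso (M : VonNeumannAlgebra H) : Prop :=
  ∀ e ∈ M, IsStarProjection e → e ≠ 0 → ∃ s ∈ M, star s * s = 1 ∧ s * star s = e

/-- finite projection -/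
def Fin' (M : VonNeumannAlgebra H) (e : Op H) : Prop :=
  ∀ v ∈ M, star v * v = e → e * v = v → v * star v = e

/-- approximate eigenvectors in the corners of the centralizer -/
def Cor (M : VonNeumannAlgebra H) (ξ : H) (J : H → H) : Prop :=
  ∀ e ∈ M, IsStarProjection e → e ≠ 0 → J (e ξ) = e ξ → ∀ μ δ : ℝ, 0 < μ → 0 < δ →
    ∃ y ∈ M, y ≠ 0 ∧ e * y * e = y ∧ ‖J (star y ξ) - (μ : ℂ) • y ξ‖ ≤ δ * ‖y ξ‖

/-- approximately central elements between two projections of the centralizer -/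
def Off (M : VonNeumannAlgebra H) (ξ : H) (J : H → H) : Prop :=
  ∀ e ∈ M, ∀ f ∈ M, IsStarProjection e → IsStarProjection f → e ≠ 0 → f ≠ 0 →
    J (e ξ) = e ξ → J (f ξ) = f ξ → ∀ δ : ℝ, 0 < δ →
    ∃ z ∈ M, z ≠ 0 ∧ f * z * e = z ∧ ‖J (star z ξ) - z ξ‖ ≤ δ * ‖z ξ‖

/-- the facts on Gaussian windows -/
structure Gw (M : VonNeumannAlgebra H) (ξ : H) (U : ℝ → Op H) (J : H → H)
    (Ψ : (ℝ →ᵇ ℂ) →⋆ₐ[ℂ] Op H) (C : ℝ) : Prop where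
  C1 : 1 ≤ C
  gp0 : ∀ δ t, 0 < δ → 0 ≤ gp δ t
  gpi : ∀ δ, 0 < δ → Integrable (gp δ) ∧ ∫ t, gp δ t = 1
  gki : ∀ δ k, 0 < δ → Integrable (gk δ k)
  win : ∀ δ k, 0 < δ → Ψ (gF δ k) = wint (gk δ k) U
  mem : ∀ δ k, 0 < δ → ∀ x ∈ M, sm U δ k x ∈ M ∧ ‖sm U δ k x‖ ≤ ‖x‖
  left : ∀ δ k, 0 < δ → ∀ x ∈ M, sm U δ k x ξ = Ψ (gF δ k) (x ξ)
  right : ∀ δ k, 0 < δ → ∀ x ∈ M, J (star (sm U δ k x) ξ) = Ψ (gF δ k) (J (star x ξ))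
  shift : ∀ δ k, 0 < δ → ∀ x ∈ M, J (star (sm U δ k x) ξ) =
    ((Real.exp (k / 2 + δ ^ 2 / 8) : ℝ) : ℂ) • sm U δ (k + δ ^ 2 / 2) x ξ
  bim : ∀ δ k, 0 < δ → ∀ x a b : Op H, (∀ t, a * U t = U t * a) → (∀ t, b * U t = U t * b) →
    sm U δ k (a * x * b) = a * sm U δ k x * b
  inj : ∀ δ k, 0 < δ → ∀ v, Ψ (gF δ k) v = 0 → v = 0
  cut : ∀ v, v ≠ 0 → ∃ (B : ℝ →ᵇ ℂ) (T : ℝ), ‖B‖ ≤ 1 ∧ (∀ r, B r ≠ 0 → |r| ≤ T) ∧ Ψ B v ≠ 0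
  one : ∀ v, Tendsto (fun n : ℕ => Ψ (gF (n + 1) 0) v) atTop (𝓝 v)
  le : ∀ (ι : Type) (s : Finset ι) (F : ι → ℝ →ᵇ ℂ) (κ : Type) (s' : Finset κ) (G : κ → ℝ →ᵇ ℂ)
    (c : ℝ), (∀ r, ∑ i ∈ s, ‖F i r‖ ^ 2 ≤ c * ∑ j ∈ s', ‖G j r‖ ^ 2) →
    ∀ v, ∑ i ∈ s, ‖Ψ (F i) v‖ ^ 2 ≤ c * ∑ j ∈ s', ‖Ψ (G j) v‖ ^ 2
  bessel : ∀ δ, 0 < δ → ∀ (s : Finset ℤ) v, ∑ j ∈ s, ‖Ψ (gF δ (j * δ)) v‖ ^ 2 ≤ C * ‖v‖ ^ 2
  err : ∀ δ, 0 < δ → δ ≤ 1 → ∀ (s : Finset ℤ), ∀ x ∈ M,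
    ∑ j ∈ s, ‖sm U δ (j * δ) x ξ - ((Real.exp (-(j * δ / 2)) : ℝ) : ℂ) •
      J (star (sm U δ (j * δ) x) ξ)‖ ^ 2 ≤ C * δ ^ 2 * ‖x ξ‖ ^ 2
  frame : ∀ δ, 0 < δ → ∀ (a b : ℤ) (B : ℝ →ᵇ ℂ), ‖B‖ ≤ 1 →
    (∀ r, B r ≠ 0 → a * δ ≤ r ∧ r ≤ b * δ) →
    ∀ v, ‖Ψ B v‖ ^ 2 ≤ 2 * ∑ j ∈ Icc a b, ‖Ψ (gF δ (j * δ)) v‖ ^ 2

end defs

/-! ### Module T (Pack.lean) -/

def PkStmt : Prop := ∀ (H : Type u) [NormedAddCommGroup H] [InnerProductSpace ℂ H]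
  [CompleteSpace H] (M : VonNeumannAlgebra H) (ξ : H), DenseRange (ev M ξ) →
  DenseRange (ev M.commutant ξ) → ∃ U J Ψ, Pk M ξ U J Ψ

/-! ### Module W (Win.lean) -/

def GwStmt : Prop := ∃ C : ℝ, ∀ (H : Type u) [NormedAddCommGroup H] [InnerProductSpace ℂ H]
  [CompleteSpace H] (M : VonNeumannAlgebra H) (ξ : H) (U : ℝ → Op H) (J : H → H)
  (Ψ : (ℝ →ᵇ ℂ) →⋆ₐ[ℂ] Op H), Pk M ξ U J Ψ → Gw M ξ U J Ψ C

/-! ### Module E (Eng.lean): the random walk -/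

def AvgStmt : Prop := ∀ (H : Type u) [NormedAddCommGroup H] [InnerProductSpace ℂ H]
  [CompleteSpace H], (∀ μ : (ℝ → Op H) → Op H, Mean μ → Avg μ) ∧
    ∀ f : ℝ → ℝ, (∀ t, 0 ≤ f t) → Integrable f → ∫ t, f t = 1 →
      Avg (H := H) (wint fun t => (f t : ℂ))

def EngStmt : Prop := ∀ (H : Type u) [NormedAddCommGroup H] [InnerProductSpace ℂ H]
  [CompleteSpace H] (M : VonNeumannAlgebra H) (ξ : H) (U : ℝ → Op H) (J : H → H)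
  (h : Mod M ξ U J) (η : H) (c C : ℝ), 0 < c → 0 ≤ C → Inv (GG M J) ξ η →
  (∀ δ : ℝ, 0 < δ → ∃ (A : (ℝ → Op H) → Op H) (ι : Type) (s : Finset ι) (a : ι → Op H), Avg A ∧
    (∀ i ∈ s, a i ∈ M ∧ star (a i) = a i) ∧
    ∑ i ∈ s, ‖(a i - h.toMod0.jj (a i)) ξ‖ ^ 2 ≤ δ ∧
    ∀ v, c - C * ‖v - η‖ ^ 2 ≤ ∑ i ∈ s, (⟪v, A (fun t => U (-t) *
      ((a i - h.toMod0.jj (a i)) * (a i - h.toMod0.jj (a i))) * U t) v⟫_ℂ).re) → False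

/-! ### Module C (Loc.lean): the local lemma -/

def LocStmt : Prop := ∀ (H : Type u) [NormedAddCommGroup H] [InnerProductSpace ℂ H]
  [CompleteSpace H] (M : VonNeumannAlgebra H) (ξ : H) (U : ℝ → Op H) (J : H → H)
  (h : Mod M ξ U J), ‖ξ‖ = 1 → ∀ z ∈ M, ∀ m r l : ℝ, 0 < m → 0 < r →
  ∃ a ∈ M, ∃ D : Op H, star a = a ∧ 0 ≤ D ∧ D ≤ 1 ∧
    (∀ v, r ^ 2 * (⟪v, D v⟫_ℂ).re ≤ ‖(a - h.toMod0.jj a) v‖ ^ 2) ∧
    m * ‖(a - h.toMod0.jj a) ξ‖ ≤ 2 * ‖z ξ - (l : ℂ) • J (star z ξ)‖ ∧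
    ‖J (star z ξ)‖ ^ 2 - Real.exp r * (m ^ 2 + ‖z ξ‖ ^ 2) ≤
      (⟪J (star z ξ), D (J (star z ξ))⟫_ℂ).re

/-! ### Module P1 (One.lean): the bicentralizer lies in the centralizer -/

def OneStmt : Prop := ∀ (H : Type u) [NormedAddCommGroup H] [InnerProductSpace ℂ H]
  [CompleteSpace H] (M : VonNeumannAlgebra H) (ξ : H) (U : ℝ → Op H) (J : H → H)
  (Ψ : (ℝ →ᵇ ℂ) →⋆ₐ[ℂ] Op H), Pk M ξ U J Ψ → ‖ξ‖ = 1 → ∀ a ∈ M, Inv (GG M J) ξ (a ξ) →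
  J (star a ξ) = a ξ

/-! ### Module K (Link.lean) -/

def LinkStmt : Prop := ∀ (H : Type u) [NormedAddCommGroup H] [InnerProductSpace ℂ H]
  [CompleteSpace H] (M : VonNeumannAlgebra H) (ξ : H) (U : ℝ → Op H) (J : H → H)
  (Ψ : (ℝ →ᵇ ℂ) →⋆ₐ[ℂ] Op H), Pk M ξ U J Ψ → ‖ξ‖ = 1 → ∀ s ∈ M, star s * s = 1 →
  J ((s * star s) ξ) = (s * star s) ξ → ∀ μ δ : ℝ, 0 < μ → 0 < δ → ((μ ^ 2 : ℝ) : ℂ) ∈ Sinv M →
  ∃ y ∈ M, y ≠ 0 ∧ s * star s * y * (s * star s) = y ∧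
    ‖J (star y ξ) - (μ : ℂ) • y ξ‖ ≤ δ * ‖y ξ‖

/-! ### Module L (Off.lean) -/

def OffStmt : Prop := ∀ (H : Type u) [NormedAddCommGroup H] [InnerProductSpace ℂ H]
  [CompleteSpace H] (M : VonNeumannAlgebra H) (ξ : H) (U : ℝ → Op H) (J : H → H)
  (Ψ : (ℝ →ᵇ ℂ) →⋆ₐ[ℂ] Op H), Pk M ξ U J Ψ → IsFactor M → Cor M ξ J → Off M ξ J

/-! ### Module F (Two.lean): projections of the centralizer are moved -/

def TwoStmt : Prop := ∀ (H : Type u) [NormedAddCommGroup H] [InnerProductSpace ℂ H]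
  [CompleteSpace H] (M : VonNeumannAlgebra H) (ξ : H) (U : ℝ → Op H) (J : H → H),
  Mod M ξ U J → Off M ξ J → ∀ p ∈ M, IsStarProjection p → J (p ξ) = p ξ →
  Inv (GG M J) ξ (p ξ) → p = 0 ∨ p = 1

/-! ### Module G (Gns.lean) -/

def GnsStmt : Prop := ∀ (H : Type u) [NormedAddCommGroup H] [InnerProductSpace ℂ H]
  [CompleteSpace H] (M : VonNeumannAlgebra H) (φ : Op H → ℂ), FNS M φ →
  ∃ (K : Type u) (_ : NormedAddCommGroup K) (_ : InnerProductSpace ℂ K) (_ : CompleteSpace K)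
    (N : VonNeumannAlgebra K) (Ω : K) (π : MA M →⋆ₐ[ℂ] Op K),
    ‖Ω‖ = 1 ∧ DenseRange (ev N Ω) ∧ DenseRange (ev N.commutant Ω) ∧
    (∀ T, T ∈ N ↔ ∃ x, π x = T) ∧ (∀ x, ‖π x‖ = ‖x‖) ∧ (∀ x : MA M, φ x.1 = ⟪Ω, π x Ω⟫_ℂ) ∧
    Sinv M ⊆ Sinv N ∧
    ∀ (x : ℕ → MA M) (C : ℝ), (∀ n, ‖x n‖ ≤ C) →
      (∀ v, Tendsto (fun n => (x n).1 v) atTop (𝓝 0)) →
      Tendsto (fun n => π (x n) Ω) atTop (𝓝 0)

/-! ### Modules I1 (Cov.lean), I2 (Tr.lean), I3 (Iso.lean) -/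

def CovStmt : Prop := ∀ (H : Type u) [NormedAddCommGroup H] [InnerProductSpace ℂ H]
  [CompleteSpace H] (M : VonNeumannAlgebra H) (ξ : H), IsFactor M → Sep M ξ →
  ∀ g ∈ M, IsStarProjection g → g ≠ 0 →
  ∃ v : ℕ → Op H, (∀ i, v i ∈ M ∧ PI (v i) ∧ v i * g = v i) ∧
    (∀ i j, i ≠ j → star (v i) * v j = 0) ∧ ∀ ζ, HasSum (fun i => (v i * star (v i)) ζ) ζ

def InfStmt : Prop := ∀ (H : Type u) [NormedAddCommGroup H] [InnerProductSpace ℂ H]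
  [CompleteSpace H] (M : VonNeumannAlgebra H) (ξ : H), IsFactor M → Sep M ξ →
  ∀ e ∈ M, IsStarProjection e → ¬ Fin' M e → ∃ s ∈ M, star s * s = 1 ∧ s * star s = e

def TrStmt : Prop := ∀ (H : Type u) [NormedAddCommGroup H] [InnerProductSpace ℂ H]
  [CompleteSpace H] (M : VonNeumannAlgebra H) (ξ : H), IsFactor M → Sep M ξ →
  ∀ e ∈ M, IsStarProjection e → e ≠ 0 → Fin' M e →
  ∃ f ∈ M, IsStarProjection f ∧ f ≠ 0 ∧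
    ∀ y ∈ M, f * y * f = y → ‖star y ξ‖ ^ 2 ≤ 2 * ‖y ξ‖ ^ 2

def IsoStmt : Prop := ∀ (H : Type u) [NormedAddCommGroup H] [InnerProductSpace ℂ H]
  [CompleteSpace H] (M : VonNeumannAlgebra H) (ξ : H), IsFactor M → Sep M ξ →
  (4 : ℂ) ∈ Sinv M → Iso M

end Vale.Agent.P132
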