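import Vale.Agent.P132.Off
import Vale.Agent.P082.Trace

/-! Module I2: an almost tracial corner under a finite projection of a factor. -/

open Finset Vale.Agent.P104 Vale.Agent.P082
open scoped InnerProductSpace

set_option linter.unusedSectionVars false

namespace Vale.Agent.P132

universe u

namespace Tr

variable {H : Type u} [NormedAddCommGroup H] [InnerProductSpace ℂ H] [CompleteSpace H]
  {M : VonNeumannAlgebra H} {e : Op H}

lemma sub_fin (he : IsStarProjection e) (eM : e ∈ M) (hf : Fin' M e) {p : Op H}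
    (hp : IsStarProjection p) (pM : p ∈ M) (pe : p * e = p) : Fin' M p := by
  intro v vM v1 v2
  have ep : e * p = p := by simpa only [star_mul, pstar he, pstar hp] using congrArg star pe
  have hv : PI v := PI.of_proj (v1 ▸ hp)
  have vp : v * p = v := by rw [← v1, ← mul_assoc]; exact hv
  have a1 : (e - p) * v = 0 := by rw [← v2, ← mul_assoc, sub_mul, ep, pidem hp, sub_self, zero_mul]
  have a2 : v * (e - p) = 0 := by rw [← vp, mul_assoc, mul_sub, pe, pidem hp, sub_self, mul_zero]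
  have a0 : star (e - p) = e - p := by rw [star_sub, pstar he, pstar hp]
  have a3 : star v * (e - p) = 0 := by simpa only [star_mul, a0, star_zero] using congrArg star a1
  have a4 : (e - p) * star v = 0 := by simpa only [star_mul, a0, star_zero] using congrArg star a2
  have a5 : (e - p) * (e - p) = e - p := by
    rw [sub_mul, mul_sub, mul_sub, pidem he, ep, pe, pidem hp, sub_self, sub_zero]
  have := hf (v + (e - p)) (add_mem vM (sub_mem eM pM))
    (by rw [star_add, a0, add_mul, mul_add, mul_add, v1, a1, a3, a5]; abel)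
    (by rw [mul_add, ← v2, ← mul_assoc, ep, mul_sub, pidem he, ep])
  rw [star_add, a0, add_mul, mul_add, mul_add, a2, a4, a5, add_zero, zero_add,
    ← sub_eq_zero] at this
  rw [← sub_eq_zero, ← this]
  abel

lemma link (hF : IsFactor M) {a b : Op H} (ha : IsStarProjection a) (hb : IsStarProjection b)
    (aM : a ∈ M) (bM : b ∈ M) (a0 : a ≠ 0) (b0 : b ≠ 0) :
    ∃ w ∈ M, w ≠ 0 ∧ PI w ∧ w * a = w ∧ b * w = w := by
  obtain ⟨s, sM, hs, s1, s2, s3⟩ := exists_gc0 ha hb aM bM
  refine ⟨s, sM, fun s0 => ?_, hs, s2, s1⟩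
  obtain ⟨x, xM, hx⟩ := Of.exists_link hF aM a0 b0
  exact hx (by simpa [s0] using s3 x xM)

variable (hF : IsFactor M) (he : IsStarProjection e) (eM : e ∈ M) (hf : Fin' M e)
include hF he eM hf

lemma step {v : Op H} (vM : v ∈ M) (hv : PI v) (ve : v * e = v) (ev : e * v = v)
    (ζ : H) {α β : ℝ} (h : β * ‖star v ζ‖ ^ 2 < α * ‖v ζ‖ ^ 2) :
    ∃ w ∈ M, w ≠ 0 ∧ PI w ∧ w * (star v * v) = w ∧ v * star v * w = w ∧
      ∀ t ∈ M, PI t → t * (star w * w) = t → w * star w * t = t → t ≠ 0 →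
        β * ‖star t ζ‖ ^ 2 < α * ‖t ζ‖ ^ 2 := by
  obtain ⟨F, t, h1, tM, ht, h2⟩ := exists_maxpi (M := M) (fun t => t ∈ M ∧ PI t ∧
    t * (star v * v) = t ∧ v * star v * t = t ∧ α * ‖t ζ‖ ^ 2 ≤ β * ‖star t ζ‖ ^ 2)
    fun s h => ⟨h.1, h.2.1⟩
  have t1 := ht.fixr fun i => (h1 _ i.2).2.2.1
  have t2 := ht.fixl fun i => (h1 _ i.2).2.2.2.1
  have t3 := hasSum_le (fun i : F => (h1 _ i.2).2.2.2.2) ((ht.nsq ζ).mul_left α)
    ((ht.st.nsq ζ).mul_left β)
  have e1 := (star_fix hv.proj).2 t1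
  have e2 : star t * (v * star v) = star t := (star_fix hv.proj').1 (by rwa [star_star])
  have vv := mul_mem (star_mem vM) vM
  have vv' := mul_mem vM (star_mem vM)
  have iff : star v * v = star t * t ↔ v * star v = t * star t := by
    refine ⟨fun k => ?_, fun k => ?_⟩
    · have := sub_fin he eM hf hv.proj' vv' (by rw [mul_assoc, (star_fix he).1 (by
        rwa [star_star])]) (t * star v) (mul_mem tM (star_mem vM)) (by
          rw [star_mul, star_star, mul_assoc, ← mul_assoc (star t), ← k, ← mul_assoc, ← mul_assoc,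
            hv]) (by rw [← mul_assoc, t2])
      rw [← this, star_mul, star_star, mul_assoc, ← mul_assoc (star v), e1]
    · have := sub_fin he eM hf hv.proj vv (by rw [mul_assoc, ve]) (star t * v)
        (mul_mem (star_mem tM) vM) (by
          rw [star_mul, star_star, mul_assoc, ← mul_assoc t, ← k, hv]) (by rw [← mul_assoc, e1])
      rw [← this, star_mul, star_star, mul_assoc, ← mul_assoc v, t2]
  have n1 : star v * v ≠ star t * t := fun k => by
    rw [nsq, nsq, star_star, iff.1 k, k] at h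
    rw [nsq, nsq, star_star] at t3
    exact t3.not_gt h
  obtain ⟨w, wM, w0, hw, w1, w2⟩ := link hF
    (ht.pi.proj.sub_of_mul_eq_right hv.proj (by rw [← mul_assoc, e1]))
    (ht.pi.proj'.sub_of_mul_eq_right hv.proj' (by rw [← mul_assoc, t2]))
    (sub_mem vv (mul_mem (star_mem tM) tM)) (sub_mem vv' (mul_mem tM (star_mem tM)))
    (sub_ne_zero.2 n1) (sub_ne_zero.2 (mt iff.2 n1))
  have a1 : w * (star v * v) = w := by
    rw [← w1, mul_assoc, sub_mul, pidem hv.proj, mul_assoc (star t), t1]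
  have a2 : v * star v * w = w := by
    rw [← w2, ← mul_assoc, mul_sub, pidem hv.proj', ← mul_assoc _ t, t2]
  refine ⟨w, wM, w0, hw, a1, a2, fun s sM hs s1 s2 s0 => not_le.1 fun hh =>
    s0 (h2 s ⟨sM, hs, by rw [← s1, mul_assoc, mul_assoc, a1],
      by rw [← s2, ← mul_assoc, ← mul_assoc, a2], hh⟩ ?_ ?_)⟩
  · have k : star t * w = 0 := by
      rw [← w2, ← mul_assoc, mul_sub, e2, ← mul_assoc, PI.st ht.pi, sub_self, zero_mul]
    have : star t * s = 0 := by rw [← s2, ← mul_assoc, ← mul_assoc, k, zero_mul, zero_mul]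
    simpa using congrArg star this
  · have k : w * star t = 0 := by
      rw [← w1, mul_assoc, sub_mul, e1, PI.st ht.pi, sub_self, mul_zero]
    rw [← s1, mul_assoc, mul_assoc, k, mul_zero, mul_zero]

lemma trace0 {ζ : H} (fa : Sep M ζ) (e0 : e ≠ 0) : ∃ p ∈ M, IsStarProjection p ∧ p ≠ 0 ∧
    ∀ r ∈ M, PI r → r * p = r → p * r = r → ‖r ζ‖ ^ 2 ≤ 2 * ‖star r ζ‖ ^ 2 := by
  have p1 : ∀ x ∈ M, x ≠ 0 → 0 < ‖x ζ‖ ^ 2 := fun x hx h2 =>
    pow_pos (norm_pos_iff.2 fun h => h2 (fa x hx h)) 2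
  have p2 : ∀ t ∈ M, t ≠ 0 → 0 < ‖star t ζ‖ ^ 2 := fun t ht h' =>
    p1 _ (star_mem ht) (star_ne_zero.2 h')
  obtain ⟨w, wM, w0, hw, w1, w2, w3⟩ := step hF he eM hf eM (PI.of_p he) (pidem he) (pidem he) ζ
    (α := -1) (β := -2) (by rw [pstar he]; linarith [p1 e eM e0])
  rw [pstar he, pidem he] at w1 w2
  let S : Set ℝ := {c | ∃ t ∈ M, PI t ∧ t * (star w * w) = t ∧ w * star w * t = t ∧ t ≠ 0 ∧
    c = ‖t ζ‖ ^ 2 / ‖star t ζ‖ ^ 2}
  have bdd : BddAbove S := ⟨2, by
    rintro _ ⟨t, tM, ht, a, b, c, rfl⟩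
    rw [div_le_iff₀ (p2 t tM c)]
    linarith [w3 t tM ht a b c]⟩
  have hw' : w * (star w * w) = w := by rw [← mul_assoc]; exact hw
  have wS : _ ∈ S := ⟨w, wM, hw, hw', hw, w0, rfl⟩
  have μ0 : 0 < sSup S := (div_pos (p1 w wM w0) (p2 w wM w0)).trans_le (le_csSup bdd wS)
  obtain ⟨_, ⟨v, vM, hv, v1, v2, v0, rfl⟩, hμ⟩ := exists_lt_of_lt_csSup ⟨_, wS⟩ (half_lt_self μ0)
  rw [lt_div_iff₀ (p2 v vM v0)] at hμ
  obtain ⟨u, uM, u0, hu, u1, u2, u3⟩ := step hF he eM hf vM hv
    (by rw [← v1, mul_assoc, mul_assoc, w1]) (by rw [← v2, ← mul_assoc, ← mul_assoc, w2]) ζ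
    (α := 1) (β := sSup S / 2) (by rwa [one_mul])
  have uw : u * (star w * w) = u := by rw [← u1, mul_assoc, mul_assoc, v1]
  have wu : w * star w * u = u := by rw [← u2, ← mul_assoc, ← mul_assoc, v2]
  refine ⟨star u * u, mul_mem (star_mem uM) uM, hu.proj,
    fun h => u0 ((CStarRing.star_mul_self_eq_zero_iff u).1 h), fun r rM hr r1 r2 => ?_⟩
  rcases eq_or_ne r 0 with rfl | r0
  · simp
  have k : ∀ a, star (u * r * a) * (u * r * a) = star (r * a) * (r * a) := fun a => by
    calc _ = star (r * a) * (star u * u * r * a) := by simp only [star_mul, mul_assoc]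
      _ = _ := by rw [r2]
  have k1 := k 1
  have k2 := k (star r)
  rw [pstar hr.proj', pidem hr.proj'] at k2
  simp only [mul_one] at k1
  have n1 : u * r ≠ 0 := fun h => r0 (by rw [← r2, mul_assoc, h, mul_zero])
  have b1 := le_csSup bdd ⟨u * r, mul_mem uM rM, PI.of_proj (k1 ▸ hr.proj),
    by rw [← r1, mul_assoc, mul_assoc, mul_assoc, uw], by rw [← mul_assoc, wu], n1, rfl⟩
  rw [div_le_iff₀ (p2 _ (mul_mem uM rM) n1), nsq, k1, ← nsq] at b1
  have b2 := u3 (u * r * star r) (mul_mem (mul_mem uM rM) (star_mem rM))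
    (PI.of_proj (k2 ▸ hr.proj')) (by
      rw [mul_assoc, (star_fix hu.proj).1 (by rwa [star_star])])
    (by rw [← mul_assoc, ← mul_assoc, hu]) fun h => n1 (by
      rw [← hr, ← mul_assoc, ← mul_assoc, h, zero_mul])
  have e3 : u * r * star r * star (u * r * star r) = u * r * star (u * r) := by
    rw [star_mul, star_star, ← mul_assoc, mul_assoc (u * r), mul_assoc u, ← mul_assoc r, hr]
  rw [nsq, star_star, e3, nsq, k2, ← star_star (u * r), star_star (star _), ← nsq,
    ← star_star r, star_star (star r), ← nsq, star_star] at b2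
  linarith

lemma trace1 {ζ : H} (fa : Sep M ζ) (e0 : e ≠ 0) : ∃ p ∈ M, IsStarProjection p ∧ p ≠ 0 ∧
    ∀ x ∈ M, x * p = x → p * x = x → ‖x ζ‖ ^ 2 ≤ 2 * ‖star x ζ‖ ^ 2 := by
  obtain ⟨p, pM, hp, p0, tr⟩ := trace0 hF he eM hf fa e0
  refine ⟨p, pM, hp, p0, fun x xM x1 x2 => ?_⟩
  obtain ⟨s, sM, hs, s1, s2, s3, s4⟩ := exists_polar2 xM
  have hsa : star (CFC.abs x) = CFC.abs x := (CFC.abs_nonneg x).isSelfAdjoint.star_eq
  have a1 : star s * s * CFC.abs x = CFC.abs x := by rw [mul_assoc, s1, s2]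
  have a2 : CFC.abs x * (star s * s) = CFC.abs x := by
    simpa [hsa, mul_assoc] using congrArg star a1
  have a3 : star x * x * (star s * s) = star x * x := by
    rw [← CFC.abs_mul_abs, mul_assoc, a2]
  have a4 : star s * s * (star x * x) = star x * x := by
    rw [← CFC.abs_mul_abs x, ← mul_assoc, a1]
  have := bin (star_mul_self_nonneg x) {c | qf (c * (star s * s)) ζ ≤ 2 * qf (s * c * star s) ζ}
    (isClosed_le (qf_cont _ (by fun_prop) ζ) (continuous_const.mul (qf_cont _ (by fun_prop) ζ)))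
    (by simp [qf]) (fun a ha b hb => by
      simp only [Set.mem_ofPred_eq, add_mul, mul_add, qf_add] at ha hb ⊢; linarith)
    (fun c hc a ha => by
      simp only [Set.mem_ofPred_eq, smul_mul_assoc, mul_smul_comm, qf_rsmul] at ha ⊢
      nlinarith) fun e he hc => by
      have c1 := hc _ (a3.trans a4.symm)
      have c2 := hc p (by rw [mul_assoc, x1, ← mul_assoc, (star_fix hp).2 x1])
      have eM : e ∈ M := memM fun y hy => (hc y (commM (mul_mem (star_mem xM) xM) hy)).symm
      have c3 : star (s * e) * (s * e) = e * (star s * s) := by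
        rw [star_mul, pstar he, mul_assoc, ← mul_assoc (star s), ← c1, ← mul_assoc, pidem he]
      have := tr (s * e) (mul_mem sM eM) (PI.of_proj (c3 ▸ he.mul hs.proj c1))
        (by rw [mul_assoc, c2, ← mul_assoc, right_fix s4 x1]) (by rw [← mul_assoc, left_fix s3 x2])
      rwa [nsq, nsq, c3, star_star, star_mul, pstar he, ← mul_assoc (s * e), mul_assoc s e e,
        pidem he] at this
  simp only [Set.mem_ofPred_eq] at this
  rwa [a3, ← nsq, ← CFC.abs_mul_abs, ← mul_assoc, s1, mul_assoc, ← hsa, ← star_mul, s1,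
    ← star_star x, star_star (star x), ← nsq, star_star] at this

end Tr

theorem trStmt : TrStmt.{u} := by
  intro H _ _ _ M ξ hF hs e eM he e0 hf
  obtain ⟨p, pM, hp, p0, h⟩ := Tr.trace1 hF he eM hf hs e0
  refine ⟨p, pM, hp, p0, fun y yM hy => ?_⟩
  have := h (star y) (star_mem yM)
    ((star_fix hp).1 (by rw [star_star, ← hy, ← mul_assoc, ← mul_assoc, pidem hp]))
    ((star_fix hp).2 (by rw [← hy, mul_assoc, pidem hp]))
  rwa [star_star] at this

end Vale.Agent.P132
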