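import Vale.Agent.P132.Spec

/-! Module F: projections of the centralizer are moved. -/

open Finset Vale.Agent.P104 Vale.Agent.P085 Vale.Agent.P096 Filter Topology Complex
open scoped InnerProductSpace

set_option linter.unusedSectionVars false

namespace Vale.Agent.P132

universe u

namespace Two

variable {H : Type u} [NormedAddCommGroup H] [InnerProductSpace ℂ H] [CompleteSpace H]
  {M : VonNeumannAlgebra H} {ξ η : H} {U : ℝ → Op H} {J : H → H} {μ : (ℝ → Op H) → Op H}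
  {x y z a b p e : Op H} {δ : ℝ}

lemma qf_add (x y : Op H) (v : H) : qf (x + y) v = qf x v + qf y v := by
  simp [qf]

lemma qf_sub (x y : Op H) (v : H) : qf (x - y) v = qf x v - qf y v := by
  simp [qf]

lemma qf_mono (h : x ≤ y) (v : H) : qf x v ≤ qf y v := by
  have := qf_nonneg (sub_nonneg.2 h) v
  rwa [qf_sub, sub_nonneg] at this

lemma qf_sq (x : Op H) (v : H) : qf (star x * x) v = ‖x v‖ ^ 2 := (normsq_eq x v).symm

lemma qf_proj (hp : IsStarProjection p) (v : H) : qf p v = ‖p v‖ ^ 2 := by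
  rw [qf, proj_normsq hp, ofReal_re]

lemma nn_of (h : star x = x) (h' : ∀ v, 0 ≤ qf x v) : 0 ≤ x :=
  (ContinuousLinearMap.nonneg_iff_isPositive x).2 (ContinuousLinearMap.isPositive_def'.2
    ⟨h, fun v => by rw [ContinuousLinearMap.reApplyInnerSelf, inner_re_symm]; exact h' v⟩)

lemma room (hp : IsStarProjection p) (a0 : 0 ≤ a) (a1 : a ≤ p) : ∃ e, IsStarProjection e ∧
    (∀ y, a * y = y * a → p * y = y * p → e * y = y * e) ∧ p * e = e ∧ a + a + e ≤ p + p ∧
    (e = 0 → p ≤ a + a) := by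
  obtain ⟨r1, r2⟩ := hp.mul_right_and_mul_left_of_nonneg_of_le a0 a1
  obtain ⟨e, he, c, p1, p2⟩ := exists_spec
    ((a0.isSelfAdjoint.add a0.isSelfAdjoint).sub (IsSelfAdjoint.one (Op H)))
  have c' : ∀ y, a * y = y * a → e * y = y * e := fun y hy => c y (by
    rw [sub_mul, mul_sub, add_mul, mul_add, hy, one_mul, mul_one])
  have pe : Commute p e := (c' p (r1.trans r2.symm)).symm
  have pa : Commute p a := r2.trans r1.symm
  have ae : Commute a e := (c' a rfl).symm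
  have pa2 : Commute p (a + a - 1) := (pa.add_right pa).sub_right (Commute.one_right p)
  have pe' := (Commute.one_right p).sub_right pe
  have r3 : ∀ y, p * (a * y) = a * y := fun y => by rw [← mul_assoc, r2]
  refine ⟨p * (1 - e), hp.mul he.one_sub pe', fun y h1 h2 => ?_,
    by rw [← mul_assoc, hp.isIdempotentElem.eq], sub_nonneg.1 ?_, fun h => sub_nonneg.1 ?_⟩
  · exact Commute.mul_left h2 ((Commute.one_left y).sub_left (c' y h1))
  · have q1 := Commute.mul_nonneg (sub_nonneg.2 a1) he.nonneg (pe.sub_left ae)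
    refine (add_nonneg (add_nonneg q1 q1)
      (Commute.mul_nonneg hp.nonneg p2 (pa2.mul_right pe').neg_right)).trans_eq ?_
    simp only [mul_sub, sub_mul, add_mul, mul_add, mul_neg, mul_one, one_mul, r2, r3]
    abel
  · refine (Commute.mul_nonneg hp.nonneg p1 (pa2.mul_right pe)).trans_eq ?_
    rw [mul_sub, mul_one, sub_eq_zero] at h
    rw [← mul_assoc, pa2.eq, mul_assoc, ← h, sub_mul, add_mul, r1, one_mul]

lemma scal (hμ : Mean μ) {F G : ℝ → Op H} (hF : ∃ C, ∀ t, ‖F t‖ ≤ C) (hG : ∃ C, ∀ t, ‖G t‖ ≤ C)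
    {v w v' w' : H} (h : ∀ t, ⟪w, F t v⟫_ℂ = ⟪w', G t v'⟫_ℂ) :
    ⟪w, μ F v⟫_ℂ = ⟪w', μ G v'⟫_ℂ := by
  by_contra hne
  obtain ⟨ζ, hζ⟩ : ∃ ζ : H, ζ ≠ 0 := by
    by_contra hc
    push Not at hc
    exact hne (by rw [hc w, hc w', inner_zero_left, inner_zero_left])
  have e := hμ.mul F (InnerProductSpace.rankOne ℂ ζ w) (InnerProductSpace.rankOne ℂ v ζ) hF
  rw [show (fun t => InnerProductSpace.rankOne ℂ ζ w * F t * InnerProductSpace.rankOne ℂ v ζ) =
    fun t => InnerProductSpace.rankOne ℂ ζ w' * G t * InnerProductSpace.rankOne ℂ v' ζ by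
      ext t u; simp [h], hμ.mul G _ _ hG] at e
  have := congr($e ζ)
  simp only [mul_apply_eq_comp, InnerProductSpace.rankOne_apply, map_smul] at this
  exact hne (smul_left_injective ℂ hζ (smul_right_injective _ (inner_self_ne_zero.2 hζ) this)).symm

/-- the averaged modular group -/
def EE (μ : (ℝ → Op H) → Op H) (U : ℝ → Op H) (x : Op H) : Op H := μ fun t => U (-t) * x * U t

/-- almost central elements between `p` and `1 - p` -/
structure Ok (M : VonNeumannAlgebra H) (ξ : H) (J : H → H) (p : Op H) (δ : ℝ) (z : Op H) :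
    Prop where
  mem : z ∈ M
  cor : (1 - p) * z * p = z
  cen : ‖J (star z ξ) - z ξ‖ ≤ δ * ‖z ξ‖

variable (h : Mod M ξ U J) (hμ : Mean μ)
include h

lemma bd (x : Op H) : ∃ C, ∀ t, ‖U (-t) * x * U t‖ ≤ C :=
  ⟨_, fun _ => nle (nle (h.Ule _) le_rfl) (h.Ule _)⟩

lemma st (x : Op H) (t : ℝ) : star (U (-t) * x * U t) = U (-t) * star x * U t := by
  rw [star_mul, star_mul, h.Ustar, h.Ustar, neg_neg, mul_assoc]

lemma fixU (hp : p ∈ M) (ps : star p = p) (hJ : J (p ξ) = p ξ) (t : ℝ) : U t (p ξ) = p ξ := by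
  simpa [ps, hJ, sub_eq_zero] using h.lip p hp 0 t

lemma commU (hp : p ∈ M) (ps : star p = p) (hJ : J (p ξ) = p ξ) (t : ℝ) : p * U t = U t * p := by
  have e : U t * p * U (-t) = p := h.sep (h.UM t p hp) hp (by simp [h.Uξ, fixU h hp ps hJ])
  nth_rewrite 1 [← e]
  rw [mul_assoc, h.Uneg', mul_one]

lemma fixJ (hp : p ∈ M) (ps : star p = p) (hU : ∀ t, p * U t = U t * p) : J (p ξ) = p ξ := by
  have := h.kms (fun _ => p ξ) (differentiable_const _)
    (fun t _ => by rw [← mul_apply_eq_comp, ← hU, mul_apply_eq_comp, h.Uξ]) p hp rfl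
  rw [ps] at this; exact this.symm

include hμ

lemma E_add (x y : Op H) : EE μ U (x + y) = EE μ U x + EE μ U y := by
  simp only [EE, mul_add, add_mul]
  exact hμ.add _ _ (bd h x) (bd h y)

lemma E_fix (hx : ∀ t, x * U t = U t * x) : EE μ U x = x := by
  simp only [EE, mul_assoc, hx]
  simp only [← mul_assoc, h.Uneg', one_mul, hμ.const]

lemma E_mem (hx : x ∈ M) : EE μ U x ∈ M := memM fun y hy => by
  have a := hμ.mul _ y 1 (bd h x)
  have b := hμ.mul _ 1 y (bd h x)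
  have c : ∀ t, y * (U (-t) * x * U t) = U (-t) * x * U t * y := fun t => by
    simpa only [neg_neg] using (commM (h.UM (-t) x hx) hy).symm
  simp only [mul_one, one_mul, c] at a b
  exact a.symm.trans b

lemma E_U (x : Op H) (s : ℝ) : EE μ U x * U s = U s * EE μ U x := by
  have a := hμ.mul _ (U (-s)) (U s) (bd h x)
  have b := hμ.inv _ s (bd h x)
  have c : ∀ t, U (-s) * (U (-t) * x * U t) * U s = U (-(s + t)) * x * U (s + t) := fun t => by
    rw [neg_add, h.Uadd, add_comm s, h.Uadd]; simp only [mul_assoc]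
  simp only [c] at a
  rw [b] at a
  nth_rewrite 2 [EE]
  rw [a, ← mul_assoc, ← mul_assoc, h.Uneg, one_mul, EE]

lemma E_vec (hη : ∀ t, U t η = η) (x : Op H) : qf (EE μ U x) η = qf x η := by
  have := scal hμ (bd h x) (G := fun _ => x) ⟨_, fun _ => le_rfl⟩ (v := η) (w := η) (v' := η)
    (w' := η) fun t => by
      rw [mul_apply_eq_comp, mul_apply_eq_comp, ← h.Ustar, inner_star_r, hη]
  rw [hμ.const] at this
  exact congrArg re this

lemma E_jj (xs : star x = x) (v : H) : qf (EE μ U (h.toMod0.jj x)) v = qf (EE μ U x) (J v) :=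
  congrArg re (scal hμ (bd h _) (bd h x) fun t => by
    rw [← h.jj_U (-t), ← h.jj_U t, ← h.jj_mul, ← h.jj_mul, h.jj_U, h.jj_U, Mod0.jj_apply,
      ← inner_conj_symm, h.Jinner', inner_conj_symm, ← inner_star_r, st h, xs])

variable (hA : Avg μ)
include hA

lemma E_nn (x0 : 0 ≤ x) : 0 ≤ EE μ U x := by
  have xs := x0.isSelfAdjoint.star_eq
  have s1 : SC (fun t => U (-t) * x * U t) ‖x‖ := by simpa only [neg_neg] using h.symm.sc x
  refine nn_of (by rw [EE, ← hμ.star _ (bd h x)]; simp only [st h, xs]) fun v => ?_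
  have := hA.cv _ ⟨_, s1, by simpa only [st h, xs] using s1⟩ v (-v) 0 0 0 (by
    rintro _ ⟨t, rfl⟩
    have := qf_nonneg x0 (U t v)
    rw [qf_conj, h.Ustar] at this
    simpa [qf] using this)
  simpa [qf, EE] using this

lemma E_mono (hx : x ≤ y) : EE μ U x ≤ EE μ U y := by
  rw [← sub_add_cancel y x, E_add h hμ]
  exact le_add_of_nonneg_left (E_nn h hμ hA (sub_nonneg.2 hx))

lemma E_room (he : IsStarProjection e) (hU : ∀ t, e * U t = U t * e) (hz : z * e = z)
    (z1 : ‖z‖ ≤ 1 / 2) (r : a + a + e ≤ p + p) : a + EE μ U (star z * z) ≤ p := by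
  have : star z * z + star z * z ≤ e := sub_nonneg.1 (nn_of
    (by simp [he.isSelfAdjoint.star_eq]) fun v => by
      have := z.le_of_opNorm_le z1 (e v)
      rw [← mul_apply_eq_comp, hz] at this
      rw [qf_sub, qf_add, qf_sq, qf_proj he]
      nlinarith [norm_nonneg (z v)])
  have k := E_mono h hμ hA this
  rw [E_add h hμ, E_fix h hμ hU] at k
  have := (add_le_add_right k (a + a)).trans r
  rw [add_add_add_comm, ← two_smul ℝ, ← two_smul ℝ] at this
  exact le_of_smul_le_smul_left this two_pos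

omit h hμ hA in
/-- states of the greedy construction -/
structure Good (M : VonNeumannAlgebra H) (ξ : H) (U : ℝ → Op H) (J : H → H)
    (μ : (ℝ → Op H) → Op H) (p : Op H) (δ : ℝ) (a b : Op H) : Prop where
  am : a ∈ M
  bm : b ∈ M
  a0 : 0 ≤ a
  b0 : 0 ≤ b
  a1 : a ≤ p
  b1 : b ≤ 1 - p
  aU : ∀ t, a * U t = U t * a
  bU : ∀ t, b * U t = U t * b
  ba : qf b ξ ≤ 4 * qf a ξ
  ap : ∀ ε > 0, ∃ (n : ℕ) (z : ℕ → Op H), (∀ i ∈ range n, Ok M ξ J p δ (z i)) ∧
    ∑ i ∈ range n, EE μ U (star (z i) * z i) ≤ a ∧ ∑ i ∈ range n, EE μ U (z i * star (z i)) ≤ b ∧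
    qf a ξ ≤ ∑ i ∈ range n, ‖z i ξ‖ ^ 2 + ε

lemma ext (g : Good M ξ U J μ p δ a b) (hz : Ok M ξ J p δ z) (δ1 : δ ≤ 1)
    (r1 : a + EE μ U (star z * z) ≤ p) (r2 : b + EE μ U (z * star z) ≤ 1 - p) :
    Good M ξ U J μ p δ (a + EE μ U (star z * z)) (b + EE μ U (z * star z)) := by
  have q1 : qf (a + EE μ U (star z * z)) ξ = qf a ξ + ‖z ξ‖ ^ 2 := by
    rw [qf_add, E_vec h hμ h.Uξ, qf_sq]
  refine ⟨add_mem g.am (E_mem h hμ (mul_mem (star_mem hz.mem) hz.mem)),
    add_mem g.bm (E_mem h hμ (mul_mem hz.mem (star_mem hz.mem))),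
    add_nonneg g.a0 (E_nn h hμ hA (star_mul_self_nonneg z)),
    add_nonneg g.b0 (E_nn h hμ hA (mul_star_self_nonneg z)), r1, r2,
    fun t => by rw [add_mul, mul_add, g.aU, E_U h hμ],
    fun t => by rw [add_mul, mul_add, g.bU, E_U h hμ], ?_, fun ε ε0 => ?_⟩
  · have := qf_sq (star z) ξ
    rw [star_star, ← h.Jnorm] at this
    rw [q1, qf_add, E_vec h hμ h.Uξ, this]
    have k := norm_le_norm_add_norm_sub' (J (star z ξ)) (z ξ)
    have := pow_le_pow_left₀ (norm_nonneg _) (k.trans (add_le_add_right (hz.cen.trans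
      (mul_le_of_le_one_left (norm_nonneg _) δ1)) _)) 2
    linarith [g.ba]
  · obtain ⟨n, w, w1, w2, w3, w4⟩ := g.ap ε ε0
    have k : ∀ {β : Type u} [AddCommMonoid β] (f : Op H → β), ∑ i ∈ range (n + 1),
        f (if i = n then z else w i) = ∑ i ∈ range n, f (w i) + f z := fun f => by
      rw [sum_range_succ, if_pos rfl]
      exact congrArg (· + _) (sum_congr rfl fun i hi => by rw [if_neg (mem_range.1 hi).ne])
    have k' : ∑ i ∈ range (n + 1), ‖(if i = n then z else w i) ξ‖ ^ 2 =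
        ∑ i ∈ range n, ‖w i ξ‖ ^ 2 + ‖z ξ‖ ^ 2 := by
      rw [sum_range_succ, if_pos rfl]
      exact congrArg (· + _) (sum_congr rfl fun i hi => by rw [if_neg (mem_range.1 hi).ne])
    refine ⟨n + 1, fun i => if i = n then z else w i, fun i hi => ?_, ?_, ?_, ?_⟩
    · beta_reduce
      split_ifs with e
      exacts [hz, w1 i (mem_range.2 (by have := mem_range.1 hi; omega))]
    · exact (k fun z => EE μ U (star z * z)).trans_le (add_le_add_left w2 _)
    · exact (k fun z => EE μ U (z * star z)).trans_le (add_le_add_left w3 _)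
    · rw [q1, k']; linarith

omit h hμ hA in
lemma lim (a b : ℕ → Op H) (g : ∀ n, Good M ξ U J μ p δ (a n) (b n)) (ha : Monotone a)
    (hb : Monotone b) : ∃ a' b', Good M ξ U J μ p δ a' b' ∧ ∀ n, a n ≤ a' ∧ b n ≤ b' := by
  obtain ⟨a', -, a2⟩ := wlim (hyperfilter ℕ) a (norm_nonneg p) fun n =>
    CStarAlgebra.norm_le_norm_of_nonneg_of_le (g n).a0 (g n).a1
  obtain ⟨b', -, b2⟩ := wlim (hyperfilter ℕ) b (norm_nonneg (1 - p)) fun n =>
    CStarAlgebra.norm_le_norm_of_nonneg_of_le (g n).b0 (g n).b1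
  have ev : ∀ n, ∀ᶠ m in (hyperfilter ℕ : Filter ℕ), n ≤ m := fun n =>
    Nat.hyperfilter_le_atTop (eventually_ge_atTop n)
  have a3 := fun n => a2.ge ((ev n).mono fun _ hm => ha hm)
  have b3 := fun n => b2.ge ((ev n).mono fun _ hm => hb hm)
  have ta := (continuous_re.tendsto _).comp (a2 ξ ξ)
  refine ⟨a', b', ⟨a2.mem fun n => (g n).am, b2.mem fun n => (g n).bm, (g 0).a0.trans (a3 0),
    (g 0).b0.trans (b3 0), a2.le (.of_forall fun n => (g n).a1),
    b2.le (.of_forall fun n => (g n).b1),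
    fun t => (wt_comm a2 (.of_forall fun n => ((g n).aU t).symm)).symm,
    fun t => (wt_comm b2 (.of_forall fun n => ((g n).bU t).symm)).symm,
    le_of_tendsto_of_tendsto' ((continuous_re.tendsto _).comp (b2 ξ ξ)) (ta.const_mul 4)
      fun n => (g n).ba, fun ε ε0 => ?_⟩, fun n => ⟨a3 n, b3 n⟩⟩
  obtain ⟨m, hm⟩ := (ta.eventually_const_lt (sub_lt_self _ (half_pos ε0))).exists
  obtain ⟨n, w, w1, w2, w3, w4⟩ := (g m).ap _ (half_pos ε0)
  exact ⟨n, w, w1, w2.trans (a3 m), w3.trans (b3 m), by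
    have : qf a' ξ - ε / 2 < qf (a m) ξ := hm
    linarith⟩

lemma greedy (ho : Off M ξ J) (pm : p ∈ M) (hp : IsStarProjection p)
    (pU : ∀ t, p * U t = U t * p) (δ0 : 0 < δ) (δ1 : δ ≤ 1) : ∃ a b, Good M ξ U J μ p δ a b ∧
      min (‖p ξ‖ ^ 2) (‖(1 - p) ξ‖ ^ 2) ≤ 8 * qf a ξ := by
  obtain ⟨⟨⟨a, b⟩, g⟩, mx⟩ := brezis (X := {c : Op H × Op H // Good M ξ U J μ p δ c.1 c.2})
    (fun c d => c.1 ≤ d.1) (fun _ => le_rfl) (fun _ _ _ => le_trans) (fun c => qf c.1.1 ξ)
    (fun c => qf_mono c.2.a1 ξ) (fun _ _ e => qf_mono e.1 ξ) (fun c hc => by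
      obtain ⟨a, b, g, e⟩ := lim _ _ (fun n => (c n).2) (fun n m e => (hc n m e).1)
        fun n m e => (hc n m e).2
      exact ⟨⟨(a, b), g⟩, e⟩)
    ⟨(0, 0), zero_mem _, zero_mem _, le_rfl, le_rfl, hp.nonneg, hp.one_sub.nonneg, by simp, by simp,
      by simp [qf], fun ε ε0 => ⟨0, 0, by simp, by simp, by simp, by simp [qf, ε0.le]⟩⟩
  refine ⟨a, b, g, ?_⟩
  have qU : ∀ t, (1 - p) * U t = U t * (1 - p) := fun t => by
    rw [sub_mul, mul_sub, pU, one_mul, mul_one]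
  obtain ⟨e, he, e1, e2, e3, e4⟩ := room hp g.a0 g.a1
  obtain ⟨f, hf, f1, f2, f3, f4⟩ := room hp.one_sub g.b0 g.b1
  have a0 := qf_nonneg g.a0 ξ
  by_cases e0 : e = 0
  · have := qf_mono (e4 e0) ξ
    rw [qf_proj hp, qf_add] at this
    exact (min_le_left _ _).trans (by linarith)
  by_cases f0 : f = 0
  · have := qf_mono (f4 f0) ξ
    rw [qf_proj hp.one_sub, qf_add] at this
    exact (min_le_right _ _).trans (by linarith [g.ba])
  have em : e ∈ M := memM fun y hy => (e1 y (commM g.am hy) (commM pm hy)).symm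
  have fm : f ∈ M := memM fun y hy => (f1 y (commM g.bm hy) (commM (sub_mem (one_mem M) pm) hy)).symm
  have eU := fun t => e1 _ (g.aU t) (pU t)
  have fU := fun t => f1 _ (g.bU t) (qU t)
  obtain ⟨z, zm, z0, zc, zd⟩ := ho e em f fm he hf e0 f0 (fixJ h em he.isSelfAdjoint.star_eq eU)
    (fixJ h fm hf.isSelfAdjoint.star_eq fU) δ δ0
  obtain ⟨c, hc⟩ : ∃ c : ℝ, c = (2 * ‖z‖)⁻¹ := ⟨_, rfl⟩
  have zp := norm_pos_iff.2 z0
  have c0 : 0 < c := by rw [hc]; positivity
  obtain ⟨w, hw⟩ : ∃ w, w = (c : ℂ) • z := ⟨_, rfl⟩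
  have w1 : ‖w‖ ≤ 1 / 2 := by
    rw [hw, norm_smul, norm_real, Real.norm_of_nonneg c0.le, hc]; field_simp; rfl
  have wc : f * w * e = w := by rw [hw, mul_smul_comm, smul_mul_assoc, zc]
  have we : w * e = w := by rw [← wc, mul_assoc _ e, he.isIdempotentElem.eq]
  have wf : star w * f = star w := by
    rw [← wc, star_mul, star_mul, hf.isSelfAdjoint.star_eq, mul_assoc, mul_assoc,
      hf.isIdempotentElem.eq]
  have ok : Ok M ξ J p δ w := ⟨hw ▸ smulM _ zm, by
    rw [← wc, ← mul_assoc, ← mul_assoc, f2, mul_assoc _ e, (star_fix hp).1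
      (he.isSelfAdjoint.star_eq.symm ▸ e2)], by
    rw [hw, star_smul, smul_apply, smul_apply, h.Jsmul, RCLike.star_def, conj_conj, ← smul_sub,
      norm_smul, norm_smul, mul_left_comm]
    gcongr⟩
  have r2 := E_room h hμ hA hf fU wf (by rwa [norm_star]) f3
  rw [star_star] at r2
  have := mx ⟨(_, _), ext h hμ hA g ok δ1 (E_room h hμ hA he eU we w1 e3) r2⟩
    ⟨le_add_of_nonneg_right (E_nn h hμ hA (star_mul_self_nonneg w)),
      le_add_of_nonneg_right (E_nn h hμ hA (mul_star_self_nonneg w))⟩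
  simp only [qf_add, E_vec h hμ h.Uξ, qf_sq, add_le_iff_nonpos_right] at this
  have := h.sep ok.mem (zero_mem M) (norm_eq_zero.1 (sq_nonpos_iff _ |>.1 this))
  rw [hw, smul_eq_zero] at this
  exact absurd this (not_or.2 ⟨ofReal_ne_zero.2 c0.ne', z0⟩)

omit hμ hA in
lemma S1 (hz : Ok M ξ J p δ z) : ‖(z + star z - h.toMod0.jj (z + star z)) ξ‖ ≤ 2 * δ * ‖z ξ‖ := by
  have := norm_sub_le_of_le ((h.Jnorm _).trans_le hz.cen) hz.cen
  rw [h.Jsub, h.JJ] at this
  refine le_of_eq_of_le (congrArg _ ?_) (this.trans_eq (by ring))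
  rw [sub_apply, h.jj_ξ, add_apply, h.Jadd]; abel

omit hμ hA in
lemma S2 (hz : Ok M ξ J p δ z) (pm : p ∈ M) (hp : IsStarProjection p) :
    ‖z ξ‖ ≤ ‖(z + star z - h.toMod0.jj (z + star z)) (p ξ)‖ := by
  have c := commM pm (h.jj_mem (add_mem hz.mem (star_mem hz.mem)))
  have pq := hp.one_sub_mul_self
  have e : (1 - p) * star z = 0 := by
    rw [← hz.cor, star_mul, hp.isSelfAdjoint.star_eq, ← mul_assoc, pq, zero_mul]
  refine le_of_eq_of_le ?_ (app_le (proj_le1 hp.one_sub) _)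
  rw [← mul_apply_eq_comp, ← mul_apply_eq_comp, mul_sub, mul_add, e, add_zero, sub_mul, hz.cor,
    mul_assoc, ← c, ← mul_assoc, pq, zero_mul, sub_zero]

lemma S3 (hz : Ok M ξ J p δ z) (hp : IsStarProjection p) (v : H) :
    qf (EE μ U ((z + star z - h.toMod0.jj (z + star z)) * (z + star z - h.toMod0.jj (z + star z)))) v
      ≤ 2 * qf (EE μ U (star z * z) + EE μ U (z * star z)) v +
        2 * qf (EE μ U (star z * z) + EE μ U (z * star z)) (J v) := by
  have zz : z * z = 0 := by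
    rw [← hz.cor, mul_assoc, ← mul_assoc p, ← mul_assoc p, hp.mul_one_sub_self]; simp
  have sq : (z + star z) * (z + star z) = star z * z + z * star z := by
    rw [add_mul, mul_add, mul_add, ← star_mul, zz]; simp [add_comm]
  rw [← E_add h hμ, ← sq, ← E_jj h hμ (by simp [add_comm]), h.jj_mul]
  have sa : star (z + star z) = z + star z := by simp [add_comm]
  generalize z + star z = a at sa
  have sb : star (a + h.toMod0.jj a) = a + h.toMod0.jj a := by rw [star_add, ← h.jj_star, sa]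
  have n := star_mul_self_nonneg (a + h.toMod0.jj a)
  rw [sb] at n
  generalize h.toMod0.jj a = b at n
  have := qf_mono (E_mono h hμ hA (x := (a - b) * (a - b)) (y := a * a + a * a + (b * b + b * b))
    (sub_nonneg.1 (n.trans_eq (by noncomm_ring)))) v
  simp only [E_add h hμ, qf_add] at this
  linarith

end Two

open Two in
theorem twoStmt (h1 : AvgStmt.{u}) (h2 : MeanStmt.{u}) (h3 : EngStmt.{u}) : TwoStmt.{u} := by
  intro H _ _ _ M ξ U J h ho p pm hp pJ hi
  by_contra hc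
  obtain ⟨p0, p1⟩ := not_or.1 hc
  obtain ⟨μ, hμ⟩ := h2 H ℝ
  have hA := (h1 H).1 μ hμ
  have ps := hp.isSelfAdjoint.star_eq
  obtain ⟨m, hm⟩ : ∃ m, m = min (‖p ξ‖ ^ 2) (‖(1 - p) ξ‖ ^ 2) := ⟨_, rfl⟩
  have m0 : 0 < m := hm ▸ lt_min (pow_pos (norm_pos_iff.2 fun e => p0 (h.sep pm (zero_mem M) e)) 2)
    (pow_pos (norm_pos_iff.2 fun e => p1 (sub_eq_zero.1
      (h.sep (sub_mem (one_mem M) pm) (zero_mem M) e)).symm) 2)
  refine h3 H M ξ U J h (p ξ) (m / 32) 4 (by positivity) (by norm_num) hi fun δ δ0 => ?_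
  obtain ⟨d, hd⟩ : ∃ d, d = min 1 (δ / (4 * ‖ξ‖ ^ 2 + 1)) := ⟨_, rfl⟩
  have d0 : 0 < d := hd ▸ lt_min one_pos (by positivity)
  have d1 : d ≤ 1 := hd ▸ min_le_left _ _
  have d2 : d * (4 * ‖ξ‖ ^ 2 + 1) ≤ δ := (le_div_iff₀ (by positivity)).1 (hd ▸ min_le_right _ _)
  obtain ⟨a, b, g, ha⟩ := greedy h hμ hA ho pm hp (commU h pm ps pJ) d0 d1
  obtain ⟨n, z, z1, z2, z3, z4⟩ := g.ap (m / 16) (by positivity)
  have k : ∀ v, ∑ i ∈ range n, qf (EE μ U (star (z i) * z i) + EE μ U (z i * star (z i))) v ≤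
      ‖v‖ ^ 2 := fun v => by
    rw [← qf_sum, sum_add_distrib, ← qf_one]
    exact qf_mono ((add_le_add (z2.trans g.a1) (z3.trans g.b1)).trans_eq (add_sub_cancel _ _)) v
  refine ⟨μ, ℕ, range n, fun i => z i + star (z i), hA, fun i hi =>
    ⟨add_mem (z1 i hi).mem (star_mem (z1 i hi).mem), by simp [add_comm]⟩, ?_, fun v => ?_⟩
  · have := qf_mono (z2.trans (g.a1.trans hp.le_one)) ξ
    simp only [qf_sum, E_vec h hμ h.Uξ, qf_sq, qf_one] at this
    refine (sum_le_sum fun i hi => pow_le_pow_left₀ (norm_nonneg _) (S1 h (z1 i hi)) 2).trans ?_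
    simp only [mul_pow]
    rw [← mul_sum]
    nlinarith [mul_le_mul_of_nonneg_left this (sq_nonneg d), mul_nonneg d0.le (sq_nonneg ‖ξ‖),
      mul_le_mul_of_nonneg_left d1 (mul_nonneg d0.le (sq_nonneg ‖ξ‖))]
  obtain ⟨S, hS⟩ : ∃ S : ℕ → Op H,
    S = fun i => z i + star (z i) - h.toMod0.jj (z i + star (z i)) := ⟨_, rfl⟩
  have sS : ∀ i, star (S i) * S i = S i * S i := fun i => by
    rw [hS]; simp [← h.jj_star, add_comm]
  have a1 := qf_add_le (sum_nonneg fun i (_ : i ∈ range n) =>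
    E_nn h hμ hA (star_mul_self_nonneg (S i))) v (p ξ - v)
  rw [add_sub_cancel] at a1
  simp only [qf_sum, E_vec h hμ (fixU h pm ps pJ), qf_sq] at a1
  simp only [sS] at a1
  subst hS
  have a2 := sum_le_sum fun i hi => pow_le_pow_left₀ (norm_nonneg _) (S2 h (z1 i hi) pm hp) 2
  have a3 := sum_le_sum fun i hi => S3 h hμ hA (z1 i hi) hp (p ξ - v)
  rw [sum_add_distrib, ← mul_sum, ← mul_sum] at a3
  have a4 := k (p ξ - v)
  have a5 := k (J (p ξ - v))
  rw [h.Jnorm] at a5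
  rw [norm_sub_rev]
  change _ ≤ ∑ i ∈ range n, qf (EE μ U _) v
  linarith

end Vale.Agent.P132
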