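import Vale.Agent.P132.Spec

/-! Module W: Gaussian windows. -/

open Finset Vale.Agent.P104 Vale.Agent.P085 Vale.Agent.P096 Filter Topology MeasureTheory Complex
open scoped InnerProductSpace BoundedContinuousFunction

namespace Vale.Agent.P132.Win

section scalar
variable {δ k r : ℝ}

theorem gp0 (h : 0 < δ) (t : ℝ) : 0 ≤ gp δ t := by unfold gp; positivity

theorem gp_eq (t : ℝ) : gp δ t = δ / √(2 * Real.pi) * Real.exp (-(δ ^ 2 / 2) * t ^ 2) := by
  unfold gp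
  congr 2
  ring

theorem cst (h : 0 < δ) : δ / √(2 * Real.pi) * √(Real.pi / (δ ^ 2 / 2)) = 1 := by
  have e : Real.pi / (δ ^ 2 / 2) = 2 * Real.pi / δ ^ 2 := by field_simp
  have p : 0 < √(2 * Real.pi) := Real.sqrt_pos.2 (by positivity)
  rw [e, Real.sqrt_div' _ (sq_nonneg δ), Real.sqrt_sq h.le]
  field_simp

theorem gpi (h : 0 < δ) : Integrable (gp δ) ∧ ∫ t, gp δ t = 1 := by
  simp only [funext (gp_eq (δ := δ))]
  refine ⟨(integrable_exp_neg_mul_sq (by positivity)).const_mul _, ?_⟩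
  rw [integral_const_mul, integral_gaussian, cst h]

theorem norm_gk (h : 0 < δ) (t : ℝ) : ‖gk δ k t‖ = gp δ t := by
  unfold gk
  rw [norm_mul, norm_real, Real.norm_of_nonneg (gp0 h t),
    show -(I * t * k) = ((-(t * k) : ℝ) : ℂ) * I by push_cast; ring, norm_exp_ofReal_mul_I, mul_one]

theorem gki (h : 0 < δ) : Integrable (gk δ k) :=
  (gpi h).1.mono' (Continuous.aestronglyMeasurable (by unfold gk gp; fun_prop))
    (.of_forall fun t => (norm_gk h t).le)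

theorem gF_apply (s : ℝ) : gF δ k s = (Real.exp (-((s - k) / δ) ^ 2 / 2) : ℝ) := rfl

theorem gF_sq (s : ℝ) : ‖gF δ k s‖ ^ 2 = Real.exp (-((s - k) / δ) ^ 2) := by
  rw [gF_apply, norm_real, Real.norm_of_nonneg (Real.exp_pos _).le, sq, ← Real.exp_add, add_halves]

theorem four (h : 0 < δ) (s : ℝ) : gF δ k s = ∫ t : ℝ, gk δ k t * cexp (I * t * s) := by
  have hb : 0 < ((δ ^ 2 / 2 : ℝ) : ℂ).re := by rw [ofReal_re]; positivity
  have e : ∀ t : ℝ, gk δ k t * cexp (I * t * s) = ((δ / √(2 * Real.pi) : ℝ) : ℂ) *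
      (cexp (I * ((s - k : ℝ) : ℂ) * t) * cexp (-((δ ^ 2 / 2 : ℝ) : ℂ) * t ^ 2)) := by
    intro t
    unfold gk
    rw [gp_eq, ofReal_mul, ofReal_exp, mul_assoc, mul_assoc, ← exp_add, ← exp_add, ← exp_add]
    congr 2
    push_cast
    ring
  simp only [e]
  rw [integral_const_mul, fourierIntegral_gaussian hb, ← mul_assoc]
  have c : ((Real.pi : ℂ) / ((δ ^ 2 / 2 : ℝ) : ℂ)) ^ (1 / 2 : ℂ) =
      (√(Real.pi / (δ ^ 2 / 2)) : ℝ) := by
    rw [Real.sqrt_eq_rpow, ofReal_cpow (by positivity)]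
    push_cast
    rfl
  rw [c, ← ofReal_mul, cst h, gF_apply, ofReal_exp, ofReal_one, one_mul]
  congr 1
  have : (δ : ℂ) ≠ 0 := ofReal_ne_zero.2 h.ne'
  push_cast
  field_simp
  ring

theorem exists_C : ∃ C : ℝ, 0 ≤ C ∧ ∀ (u : ℝ) (s : Finset ℤ), ∑ j ∈ s, 1 / (1 + (u - j) ^ 2) ≤ C := by
  have hs : Summable fun i : ℤ => 1 / (1 + (i : ℝ) ^ 2) := by
    refine Summable.of_nonneg_of_le (fun i => by positivity) (fun i => ?_)
      ((Real.summable_one_div_int_pow.2 one_lt_two).add (hasSum_ite_eq (0 : ℤ) (1 : ℝ)).summable)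
    by_cases h : i = 0
    · simp [h]
    · have : (0 : ℝ) < (i : ℝ) ^ 2 := by positivity
      rw [if_neg h, add_zero]
      exact one_div_le_one_div_of_le this (by linarith)
  refine ⟨3 * ∑' i : ℤ, 1 / (1 + (i : ℝ) ^ 2),
    mul_nonneg (by norm_num) (tsum_nonneg fun i => by positivity), fun u s => ?_⟩
  have h1 := (Equiv.subRight ⌊u⌋).summable_iff.2 hs
  rw [← (Equiv.subRight ⌊u⌋).tsum_eq]
  refine le_trans ?_ (mul_le_mul_of_nonneg_left (h1.sum_le_tsum s fun i _ => by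
    positivity) (by norm_num))
  rw [mul_sum]
  refine sum_le_sum fun j _ => ?_
  simp only [Equiv.subRight_apply]
  rw [mul_one_div, div_le_div_iff₀ (by positivity) (by positivity)]
  have a := Int.floor_le u
  have b := Int.lt_floor_add_one u
  push_cast
  nlinarith [sq_nonneg ((u - j) - (u - ⌊u⌋)), mul_nonneg (sub_nonneg.2 a) (sub_nonneg.2 b.le),
    sq_nonneg (u - j)]

theorem exp_le (u : ℝ) : Real.exp (-u ^ 2) ≤ 1 / (1 + u ^ 2) := by
  rw [Real.exp_neg, one_div]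
  exact inv_anti₀ (by positivity) (by linarith [Real.add_one_le_exp (u ^ 2)])

theorem one_sub_exp (z : ℝ) : |1 - Real.exp z| ≤ |z| * Real.exp |z| := by
  rcases le_total 0 z with h | h
  · have a := Real.add_one_le_exp (-z)
    have b := Real.one_le_exp h
    have c : Real.exp (-z) * Real.exp z = 1 := by rw [← Real.exp_add]; simp
    rw [abs_of_nonneg h, abs_of_nonpos (by linarith)]
    nlinarith [Real.exp_pos z]
  · have a := Real.add_one_le_exp z
    have b := Real.one_le_exp (neg_nonneg.2 h)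
    have c := Real.exp_le_one_iff.2 h
    rw [abs_of_nonpos h, abs_of_nonneg (by linarith)]
    nlinarith

theorem err_le (h0 : 0 < δ) (h1 : δ ≤ 1) (u : ℝ) :
    (Real.exp (-u ^ 2 / 2) * (1 - Real.exp (u * δ / 2))) ^ 2 ≤ 12 * δ ^ 2 * (1 / (1 + u ^ 2)) := by
  have a1 : (1 - Real.exp (u * δ / 2)) ^ 2 ≤ (u * δ / 2) ^ 2 * Real.exp (1 / 2 + u ^ 2 / 2) := by
    have b1 := pow_le_pow_left₀ (abs_nonneg _) (one_sub_exp (u * δ / 2)) 2
    rw [sq_abs, mul_pow, sq_abs, sq (Real.exp _), ← Real.exp_add] at b1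
    refine b1.trans (mul_le_mul_of_nonneg_left (Real.exp_le_exp.2 ?_) (sq_nonneg _))
    rw [abs_div, abs_mul, abs_of_pos h0, abs_two]
    nlinarith [sq_nonneg (|u| - 1), sq_abs u, abs_nonneg u]
  have a2 : Real.exp (1 / 2) ≤ 3 := by
    have := Real.exp_one_lt_d9
    have := Real.exp_le_exp.2 (show (1 / 2 : ℝ) ≤ 1 by norm_num)
    linarith
  have a3 : u ^ 2 * (1 + u ^ 2) ≤ 16 * Real.exp (u ^ 2 / 2) := by
    have b1 := Real.add_one_le_exp (u ^ 2 / 4)
    have b2 := pow_le_pow_left₀ (by positivity) b1 2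
    rw [sq (Real.exp _), ← Real.exp_add, show u ^ 2 / 4 + u ^ 2 / 4 = u ^ 2 / 2 by ring] at b2
    nlinarith [sq_nonneg u]
  have e1 : Real.exp (-u ^ 2 / 2) * Real.exp (u ^ 2 / 2) = 1 := by
    rw [← Real.exp_add]; simp [neg_div]
  have p1 := Real.exp_pos (-u ^ 2 / 2)
  have a4 : u ^ 2 * Real.exp (-u ^ 2 / 2) ≤ 16 * (1 / (1 + u ^ 2)) := by
    rw [mul_one_div, le_div_iff₀ (by positivity)]
    have := mul_le_mul_of_nonneg_left a3 p1.le
    nlinarith
  calc _ = Real.exp (-u ^ 2 / 2) ^ 2 * (1 - Real.exp (u * δ / 2)) ^ 2 := mul_pow _ _ _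
    _ ≤ Real.exp (-u ^ 2 / 2) ^ 2 * ((u * δ / 2) ^ 2 * Real.exp (1 / 2 + u ^ 2 / 2)) := by gcongr
    _ = δ ^ 2 / 4 * Real.exp (1 / 2) * (u ^ 2 * Real.exp (-u ^ 2 / 2)) *
        (Real.exp (-u ^ 2 / 2) * Real.exp (u ^ 2 / 2)) := by rw [Real.exp_add]; ring
    _ ≤ δ ^ 2 / 4 * 3 * (16 * (1 / (1 + u ^ 2))) * 1 := by rw [e1]; gcongr
    _ = _ := by ring

/-- the cut-off functions -/
noncomputable def bn (n : ℕ) : ℝ →ᵇ ℂ :=
  BoundedContinuousFunction.ofNormedAddCommGroup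
    (fun s => ((min 1 (max 0 (n + 1 - |s|)) : ℝ) : ℂ)) (by fun_prop) 1 fun s => by
      rw [norm_real, Real.norm_of_nonneg (le_min zero_le_one (le_max_left _ _))]
      exact min_le_left _ _

theorem bn_apply (n : ℕ) (s : ℝ) : bn n s = ((min 1 (max 0 (n + 1 - |s|)) : ℝ) : ℂ) := rfl

theorem bn_le (n : ℕ) : ‖bn n‖ ≤ 1 :=
  BoundedContinuousFunction.norm_ofNormedAddCommGroup_le _ zero_le_one _

theorem gF_le : ‖gF δ k‖ ≤ 1 :=
  BoundedContinuousFunction.norm_ofNormedAddCommGroup_le _ zero_le_one _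

end scalar

universe u

variable {H : Type u} [NormedAddCommGroup H] [InnerProductSpace ℂ H] [CompleteSpace H]
  {M : VonNeumannAlgebra H} {ξ : H} {U : ℝ → Op H} {J : H → H} {Ψ : (ℝ →ᵇ ℂ) →⋆ₐ[ℂ] Op H}
  {δ k : ℝ}

theorem nsq (Ψ : (ℝ →ᵇ ℂ) →⋆ₐ[ℂ] Op H) (F : ℝ →ᵇ ℂ) (v : H) :
    ‖Ψ F v‖ ^ 2 = (⟪v, Ψ (star F * F) v⟫_ℂ).re := by
  rw [map_mul, map_star, normsq_eq]

theorem pos (Ψ : (ℝ →ᵇ ℂ) →⋆ₐ[ℂ] Op H) (F : ℝ →ᵇ ℂ) (hF : ∀ r, ∃ t : ℝ, 0 ≤ t ∧ F r = t) (v : H) :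
    0 ≤ (⟪v, Ψ F v⟫_ℂ).re := by
  let q : ℝ →ᵇ ℂ := BoundedContinuousFunction.ofNormedAddCommGroup
    (fun s => ((√‖F s‖ : ℝ) : ℂ)) (by fun_prop) √‖F‖ fun s => by
      rw [norm_real, Real.norm_of_nonneg (Real.sqrt_nonneg _)]
      exact Real.sqrt_le_sqrt (F.norm_coe_le_norm s)
  have e : F = star q * q := by
    ext r
    obtain ⟨t, t0, e⟩ := hF r
    change F r = star ((√‖F r‖ : ℝ) : ℂ) * ((√‖F r‖ : ℝ) : ℂ)
    rw [RCLike.star_def, conj_ofReal, ← ofReal_mul, Real.mul_self_sqrt (norm_nonneg _), e,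
      norm_real, Real.norm_of_nonneg t0]
  rw [e, ← nsq]
  positivity

theorem le (Ψ : (ℝ →ᵇ ℂ) →⋆ₐ[ℂ] Op H) (ι : Type) (s : Finset ι) (F : ι → ℝ →ᵇ ℂ) (κ : Type)
    (s' : Finset κ) (G : κ → ℝ →ᵇ ℂ) (c : ℝ)
    (h : ∀ r, ∑ i ∈ s, ‖F i r‖ ^ 2 ≤ c * ∑ j ∈ s', ‖G j r‖ ^ 2) (v : H) :
    ∑ i ∈ s, ‖Ψ (F i) v‖ ^ 2 ≤ c * ∑ j ∈ s', ‖Ψ (G j) v‖ ^ 2 := by
  have := pos Ψ ((c : ℂ) • ∑ j ∈ s', star (G j) * G j - ∑ i ∈ s, star (F i) * F i)
    (fun r => ⟨_, sub_nonneg.2 (h r), by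
      simp [BoundedContinuousFunction.sum_apply, conj_mul']⟩) v
  simp only [nsq]
  rw [map_sub, map_smul, map_sum, map_sum, sub_apply,
    smul_apply, _root_.sum_apply, _root_.sum_apply,
    inner_sub_right, inner_smul_right, inner_sum, inner_sum, sub_re, re_ofReal_mul, re_sum,
    re_sum] at this
  linarith

theorem le1 (Ψ : (ℝ →ᵇ ℂ) →⋆ₐ[ℂ] Op H) (ι : Type) (s : Finset ι) (F : ι → ℝ →ᵇ ℂ) (c : ℝ)
    (h : ∀ r, ∑ i ∈ s, ‖F i r‖ ^ 2 ≤ c) (v : H) :
    ∑ i ∈ s, ‖Ψ (F i) v‖ ^ 2 ≤ c * ‖v‖ ^ 2 := by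
  simpa using le Ψ ι s F Unit univ (fun _ => 1) c (fun r => by simpa using h r) v

variable (h : Pk M ξ U J Ψ)
include h

theorem scU : SC U 1 := ⟨h.Ucont, h.toMod0.Ule⟩

theorem win (hδ : 0 < δ) : Ψ (gF δ k) = wint (gk δ k) U := h.int _ _ (gki hδ) (four hδ)

theorem left (hδ : 0 < δ) (x : Op H) : sm U δ k x ξ = Ψ (gF δ k) (x ξ) := by
  rw [win h hδ, sm, (h.toMod0.sc x).apply (gki hδ), (scU h).apply (gki hδ)]
  simp only [mul_apply_eq_comp, h.Uξ]

theorem star_sm (hδ : 0 < δ) (x : Op H) : star (sm U δ k x) = sm U δ (-k) (star x) := by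
  have e : (fun s => star (U s * x * U (-s))) = fun s => U s * star x * U (-s) := by
    funext s
    rw [star_mul, star_mul, h.Ustar, h.Ustar, neg_neg, mul_assoc]
  rw [sm, (h.toMod0.sc x).star (by rw [e]; exact h.toMod0.sc _) (gki hδ), e, sm]
  congr 1
  funext s
  simp [gk, ← exp_conj]

theorem right (hδ : 0 < δ) (x : Op H) :
    J (star (sm U δ k x) ξ) = Ψ (gF δ k) (J (star x ξ)) := by
  rw [star_sm h hδ, left h hδ]
  refine h.jf _ _ (fun s => ?_) _
  rw [gF_apply, gF_apply, conj_ofReal]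
  congr 3
  ring

theorem shift (hδ : 0 < δ) {x : Op H} (hx : x ∈ M) : J (star (sm U δ k x) ξ) =
    ((Real.exp (k / 2 + δ ^ 2 / 8) : ℝ) : ℂ) • sm U δ (k + δ ^ 2 / 2) x ξ := by
  rw [right h hδ, left h hδ, ← smul_apply, ← map_smul]
  refine h.half _ _ (fun s => ?_) x hx
  rw [BoundedContinuousFunction.smul_apply, gF_apply, gF_apply, smul_eq_mul, ← ofReal_mul,
    ← ofReal_mul, ← Real.exp_add, ← Real.exp_add]
  congr 2
  field_simp
  ring

theorem lim1 (F : ℕ → ℝ →ᵇ ℂ) (h1 : ∀ n, ‖F n‖ ≤ 1)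
    (h2 : ∀ T ε : ℝ, 0 < ε → ∀ᶠ n in atTop, ∀ s, |s| ≤ T → ‖1 - F n s‖ ≤ ε) (v : H) :
    Tendsto (fun n => Ψ (F n) v) atTop (𝓝 v) := by
  have := h.lim (fun n => 1 - F n) 2 (fun n => (norm_sub_le _ _).trans (by
    have := h1 n
    rw [norm_one]
    linarith)) h2 v
  simpa using this.const_sub v

theorem cut (v : H) (hv : v ≠ 0) :
    ∃ (B : ℝ →ᵇ ℂ) (T : ℝ), ‖B‖ ≤ 1 ∧ (∀ r, B r ≠ 0 → |r| ≤ T) ∧ Ψ B v ≠ 0 := by
  by_contra hc
  push Not at hc
  have z : ∀ n : ℕ, Ψ (bn n) v = 0 := fun n => hc _ (n + 1) (bn_le n) fun r hr => by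
    by_contra h'
    apply hr
    rw [bn_apply, max_eq_left (by linarith [not_le.1 h']), min_eq_right zero_le_one, ofReal_zero]
  have := lim1 h bn bn_le (fun T ε hε => by
    filter_upwards [tendsto_natCast_atTop_atTop.eventually_ge_atTop T] with n hn s hs
    rw [bn_apply, min_eq_left (le_max_of_le_right (by linarith)), ofReal_one, sub_self, norm_zero]
    exact hε.le) v
  simp only [z] at this
  exact hv (tendsto_const_nhds_iff.1 this).symm

theorem inj (_hδ : 0 < δ) (v : H) (h0 : Ψ (gF δ k) v = 0) : v = 0 := by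
  by_contra hv
  obtain ⟨B, T, b1, b2, b3⟩ := cut h v hv
  have := le Ψ Unit univ (fun _ => B) Unit univ (fun _ => gF δ k)
    (Real.exp (((T + |k|) / δ) ^ 2)) (fun r => by
      simp only [univ_unique, sum_singleton]
      by_cases c : B r = 0
      · rw [c]
        simp only [norm_zero, ne_eq, OfNat.ofNat_ne_zero, not_false_eq_true, zero_pow]
        positivity
      · rw [gF_sq, ← Real.exp_add]
        refine (pow_le_one₀ (norm_nonneg _) ((B.norm_coe_le_norm r).trans b1)).trans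
          (Real.one_le_exp ?_)
        rw [← sub_eq_add_neg, sub_nonneg, div_pow, div_pow]
        refine div_le_div_of_nonneg_right (sq_le_sq' ?_ ?_) (sq_nonneg _) <;>
          linarith [abs_le.1 (b2 r c), le_abs_self k, neg_abs_le k]) v
  simp only [univ_unique, sum_singleton, h0, norm_zero] at this
  exact b3 (norm_eq_zero.1 (pow_eq_zero_iff two_ne_zero |>.1
    (le_antisymm (by simpa using this) (sq_nonneg _))))

theorem one (v : H) : Tendsto (fun n : ℕ => Ψ (gF (n + 1) 0) v) atTop (𝓝 v) := by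
  refine lim1 h (fun n => gF (n + 1) 0) (fun _ => gF_le) (fun T ε hε => ?_) v
  filter_upwards [tendsto_natCast_atTop_atTop.eventually_ge_atTop (T ^ 2 / ε)] with n hn s hs
  have n0 : (0 : ℝ) ≤ n := n.cast_nonneg
  have a1 := Real.add_one_le_exp (-((s - 0) / (n + 1)) ^ 2 / 2)
  have a2 : Real.exp (-((s - 0) / (n + 1)) ^ 2 / 2) ≤ 1 :=
    Real.exp_le_one_iff.2 (by linarith [sq_nonneg ((s - 0) / (n + 1))])
  rw [gF_apply, ← ofReal_one, ← ofReal_sub, norm_real, Real.norm_of_nonneg (by linarith)]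
  have a3 : ((s - 0) / (n + 1)) ^ 2 ≤ ε := by
    rw [sub_zero, div_pow, div_le_iff₀ (by positivity)]
    rw [div_le_iff₀ hε] at hn
    have := sq_le_sq' (abs_le.1 hs).1 (abs_le.1 hs).2
    nlinarith [mul_nonneg hε.le n0, mul_nonneg hε.le (sq_nonneg (n : ℝ))]
  linarith

end Vale.Agent.P132.Win

namespace Vale.Agent.P132

open Win

theorem gwStmt : GwStmt := by
  obtain ⟨C, C0, hC⟩ := exists_C
  refine ⟨1 + 12 * C, fun H _ _ _ M ξ U J Ψ h => ?_⟩
  have eu : ∀ {δ : ℝ}, 0 < δ → ∀ (r : ℝ) (j : ℤ), (r - j * δ) / δ = r / δ - j := fun hδ r j => by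
    field_simp
  refine ⟨by linarith, fun δ t hδ => gp0 hδ t, fun δ => gpi, fun δ k => gki, fun δ k => win h,
    fun δ k hδ x hx => ⟨(h.toMod0.sc x).mem (gki hδ) fun t => h.UM t x hx, ?_⟩,
    fun δ k hδ x _ => left h hδ x, fun δ k hδ x _ => right h hδ x, fun δ k hδ x hx => shift h hδ hx,
    fun δ k hδ x a b ha hb => ?_, fun δ k => inj h, cut h, one h, le Ψ, fun δ hδ s v => ?_,
    fun δ hδ h1 s x hx => ?_, fun δ hδ a b B hB hs v => ?_⟩
  · refine ((h.toMod0.sc x).norm (gki hδ)).trans_eq ?_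
    simp only [norm_gk hδ, (gpi hδ).2, mul_one]
  · rw [sm, sm, ← (h.toMod0.sc x).wint_mul (gki hδ)]
    congr 1
    funext t
    simp only [← mul_assoc, ← ha]
    simp only [mul_assoc, hb]
  · refine le1 Ψ _ _ _ _ (fun r => ?_) v
    refine (sum_le_sum fun j _ => ?_).trans ((hC (r / δ) s).trans (by linarith))
    rw [gF_sq, eu hδ]
    exact exp_le _
  · have e : ∀ j : ℤ, sm U δ (j * δ) x ξ - ((Real.exp (-(j * δ / 2)) : ℝ) : ℂ) •
        J (star (sm U δ (j * δ) x) ξ) = Ψ (gF δ (j * δ) - ((Real.exp (δ ^ 2 / 8) : ℝ) : ℂ) •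
          gF δ (j * δ + δ ^ 2 / 2)) (x ξ) := by
      intro j
      rw [shift h hδ hx, left h hδ, left h hδ, smul_smul, ← ofReal_mul, ← Real.exp_add,
        neg_add_cancel_left, map_sub, map_smul]
      rfl
    simp only [e]
    refine le1 Ψ _ _ _ _ (fun r => ?_) _
    have : ∀ j ∈ s, ‖(gF δ (j * δ) - ((Real.exp (δ ^ 2 / 8) : ℝ) : ℂ) •
        gF δ (j * δ + δ ^ 2 / 2)) r‖ ^ 2 ≤ 12 * δ ^ 2 * (1 / (1 + (r / δ - j) ^ 2)) := by
      intro j _
      rw [BoundedContinuousFunction.sub_apply, BoundedContinuousFunction.smul_apply, gF_apply,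
        gF_apply, smul_eq_mul, ← ofReal_mul, ← ofReal_sub, norm_real, Real.norm_eq_abs, sq_abs,
        eu hδ]
      refine le_of_eq_of_le ?_ (err_le hδ h1 _)
      rw [mul_sub, mul_one, ← Real.exp_add, ← Real.exp_add]
      congr 3
      field_simp
      ring
    refine (sum_le_sum this).trans ?_
    rw [← mul_sum]
    have := mul_le_mul_of_nonneg_left (hC (r / δ) s) (show 0 ≤ 12 * δ ^ 2 by positivity)
    nlinarith [sq_nonneg δ]
  · have := le Ψ Unit univ (fun _ => B) ℤ (Icc a b) (fun j => gF δ (j * δ)) 2 (fun r => by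
      simp only [univ_unique, sum_singleton]
      by_cases c : B r = 0
      · rw [c]
        simp only [norm_zero, ne_eq, OfNat.ofNat_ne_zero, not_false_eq_true, zero_pow]
        positivity
      · obtain ⟨a1, a2⟩ := hs r c
        rw [← le_div_iff₀ hδ] at a1
        rw [← div_le_iff₀ hδ] at a2
        have a3 := abs_le.1 (abs_sub_round (r / δ))
        have m : round (r / δ) ∈ Icc a b := by
          rw [mem_Icc]
          constructor
          · have : ((a - 1 : ℤ) : ℝ) < round (r / δ) := by push_cast; linarith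
            have := Int.cast_lt.1 this
            omega
          · have : (round (r / δ) : ℝ) < ((b + 1 : ℤ) : ℝ) := by push_cast; linarith
            have := Int.cast_lt.1 this
            omega
        have a4 := single_le_sum (f := fun j : ℤ => ‖gF δ (j * δ) r‖ ^ 2)
          (fun _ _ => sq_nonneg _) m
        have a5 := pow_le_one₀ (n := 2) (norm_nonneg _) ((B.norm_coe_le_norm r).trans hB)
        rw [gF_sq (s := r) (k := _ * δ), eu hδ] at a4
        have a6 := Real.add_one_le_exp (-(r / δ - round (r / δ)) ^ 2)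
        nlinarith) v
    simpa using this

end Vale.Agent.P132
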